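import Vale.Agent.P070.Zig

namespace Vale.Agent.P070

open Filter Topology Set
open scoped InnerProductSpace

section Gen

variable {X H : Type*} [NormedAddCommGroup H] [InnerProductSpace ℂ H] [CompleteSpace H]

omit [CompleteSpace H] in
theorem vec_ext (b : HilbertBasis X ℂ H) {v w : H} (h : ∀ x, ⟪b x, v⟫_ℂ = ⟪b x, w⟫_ℂ) : v = w := by
  apply b.repr.injective
  ext x
  rw [b.repr_apply_apply, b.repr_apply_apply, h]

omit [CompleteSpace H] in
theorem dense_span (b : HilbertBasis X ℂ H) : Dense (Submodule.span ℂ (range b) : Set H) :=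
  Submodule.dense_iff_topologicalClosure_eq_top.2 b.dense_span

omit [CompleteSpace H] in
theorem op_ext (b : HilbertBasis X ℂ H) {S T : H →L[ℂ] H} (h : ∀ x, S (b x) = T (b x)) : S = T :=
  ContinuousLinearMap.ext_on (dense_span b) (by rintro _ ⟨x, rfl⟩; exact h x)

theorem exists_shift (b : HilbertBasis X ℂ H) {σ : X → X} (hσ : Function.Injective σ) :
    ∃ S : H →L[ℂ] H, (∀ x, S (b x) = b (σ x)) ∧ (∀ x, star S (b (σ x)) = b x) ∧
      ∀ y, y ∉ range σ → star S (b y) = 0 := by
  classical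
  let J := (b.orthonormal.comp σ hσ).orthogonalFamily.linearIsometry
  let S : H →L[ℂ] H := J.toContinuousLinearMap ∘L b.repr.toLinearIsometry.toContinuousLinearMap
  have hS : ∀ x, S (b x) = b (σ x) := by
    intro x
    show J (b.repr (b x)) = _
    rw [b.repr_self, OrthogonalFamily.linearIsometry_apply_single]
    simp
  have ho := orthonormal_iff_ite.1 b.orthonormal
  refine ⟨S, hS, fun x => vec_ext b fun y => ?_, fun y hy => vec_ext b fun x => ?_⟩
  · rw [inner_star_right, hS, ho, ho]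
    simp [hσ.eq_iff]
  · rw [inner_star_right, hS, ho, inner_zero_right, if_neg]
    rintro rfl
    exact hy ⟨x, rfl⟩

end Gen

section Model

variable {H : Type*} [NormedAddCommGroup H] [InnerProductSpace ℂ H] [CompleteSpace H]

/-- The two generating isometries and the central shift. -/
structure Model (b : HilbertBasis (ℕ × ℤ) ℂ H) (s : ℕ → H →L[ℂ] H) (Z : H →L[ℂ] H) : Prop where
  s_app : ∀ i n k, s i (b (n, k)) = b (2 * n + i, k + 1)
  s_star : ∀ i < 2, ∀ n k, star (s i) (b (n, k)) = if n % 2 = i then b (n / 2, k - 1) else 0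
  z_app : ∀ n k, Z (b (n, k)) = b (n, k + 1)
  z_star : ∀ n k, star Z (b (n, k + 1)) = b (n, k)

theorem exists_model (b : HilbertBasis (ℕ × ℤ) ℂ H) : ∃ s Z, Model b s Z := by
  have h1 : ∀ i : ℕ, Function.Injective fun p : ℕ × ℤ => (2 * p.1 + i, p.2 + 1) := by
    rintro i ⟨n, k⟩ ⟨n', k'⟩ h
    simp only [Prod.mk.injEq] at h ⊢
    omega
  have h2 : Function.Injective fun p : ℕ × ℤ => (p.1, p.2 + 1) := by
    rintro ⟨n, k⟩ ⟨n', k'⟩ h
    simp only [Prod.mk.injEq] at h ⊢
    omega
  choose s hs1 hs2 hs3 using fun i => exists_shift b (h1 i)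
  obtain ⟨Z, hZ1, hZ2, -⟩ := exists_shift b h2
  refine ⟨s, Z, fun i n k => hs1 i (n, k), fun i hi n k => ?_, fun n k => hZ1 (n, k),
    fun n k => hZ2 (n, k)⟩
  split_ifs with h
  · have := hs2 i (n / 2, k - 1)
    simp only [sub_add_cancel] at this
    rwa [show 2 * (n / 2) + i = n by omega] at this
  · refine hs3 i _ ?_
    rintro ⟨⟨m, l⟩, hm⟩
    simp only [Prod.mk.injEq] at hm
    omega

variable {b : HilbertBasis (ℕ × ℤ) ℂ H} {s : ℕ → H →L[ℂ] H} {Z : H →L[ℂ] H}

theorem Model.ss (h : Model b s Z) {i j : ℕ} (hi : i < 2) (hj : j < 2) :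
    star (s i) * s j = if i = j then 1 else 0 := by
  refine op_ext b fun ⟨n, k⟩ => ?_
  rw [mul_apply_eq_comp, h.s_app, h.s_star i hi]
  by_cases e : i = j
  · subst e
    rw [if_pos (by omega), if_pos rfl, show (2 * n + i) / 2 = n by omega]
    simp
  · rw [if_neg (by omega), if_neg e]; rfl

theorem Model.sum (h : Model b s Z) : s 0 * star (s 0) + s 1 * star (s 1) = 1 := by
  refine op_ext b fun ⟨n, k⟩ => ?_
  rw [add_apply, mul_apply_eq_comp, mul_apply_eq_comp, h.s_star 0 (by omega),
    h.s_star 1 (by omega), one_apply_eq_self]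
  rcases Nat.mod_two_eq_zero_or_one n with e | e
  · rw [if_pos e, if_neg (by omega), h.s_app, map_zero, add_zero, sub_add_cancel,
      show 2 * (n / 2) + 0 = n by omega]
  · rw [if_neg (by omega), if_pos e, h.s_app, map_zero, zero_add, sub_add_cancel,
      show 2 * (n / 2) + 1 = n by omega]

theorem Model.zz (h : Model b s Z) : star Z * Z = 1 := by
  refine op_ext b fun ⟨n, k⟩ => ?_
  rw [mul_apply_eq_comp, h.z_app, h.z_star, one_apply_eq_self]

theorem Model.commute (h : Model b s Z) : ∀ x ∈ gen ({s 0, s 1} : Set (H →L[ℂ] H)),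
    Commute Z x := by
  have h1 : ∀ i, Commute Z (s i) := fun i => op_ext b fun ⟨n, k⟩ => by
    simp only [mul_apply_eq_comp, h.s_app, h.z_app]
  have h2 : ∀ i < 2, Commute Z (star (s i)) := fun i hi => op_ext b fun ⟨n, k⟩ => by
    simp only [mul_apply_eq_comp, h.s_star i hi, h.z_app]
    split_ifs
    · rw [h.z_app]; simp
    · simp
  have h3 : ∀ x ∈ StarAlgebra.adjoin ℂ ({s 0, s 1} : Set (H →L[ℂ] H)),
      Commute Z x ∧ Commute Z (star x) := by
    intro x hx
    induction hx using StarAlgebra.adjoin_induction with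
    | mem y hy =>
      rcases hy with rfl | rfl
      · exact ⟨h1 0, h2 0 (by omega)⟩
      · exact ⟨h1 1, h2 1 (by omega)⟩
    | algebraMap r =>
      rw [← algebraMap_star_comm]
      exact ⟨(Algebra.commute_algebraMap_right _ _), Algebra.commute_algebraMap_right _ _⟩
    | add x y _ _ ix iy => rw [star_add]; exact ⟨ix.1.add_right iy.1, ix.2.add_right iy.2⟩
    | mul x y _ _ ix iy => rw [star_mul]; exact ⟨ix.1.mul_right iy.1, iy.2.mul_right ix.2⟩
    | star x _ ix => rw [star_star]; exact ⟨ix.2, ix.1⟩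
  intro x hx
  exact closure_minimal (t := {x | Commute Z x}) (fun y hy => (h3 y hy).1) (isClosed_eq
    (continuous_const.mul continuous_id) (continuous_id.mul continuous_const)) hx

theorem s_mem (s : ℕ → H →L[ℂ] H) {i : ℕ} (hi : i < 2) :
    s i ∈ gen ({s 0, s 1} : Set (H →L[ℂ] H)) := by
  refine subset_gen _ ?_
  interval_cases i <;> simp

/-- Approximants of the central shift. -/
noncomputable def zap (s : ℕ → H →L[ℂ] H) : ℕ → H →L[ℂ] H
  | 0 => s 0
  | m + 1 => s 0 * zap s m * star (s 0) + s 1 * zap s m * star (s 1)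

theorem zap_mem (s : ℕ → H →L[ℂ] H) (m : ℕ) : zap s m ∈ gen ({s 0, s 1} : Set (H →L[ℂ] H)) := by
  have h0 := s_mem s (i := 0) (by omega)
  have h1 := s_mem s (i := 1) (by omega)
  induction m with
  | zero => exact h0
  | succ m ih =>
    exact add_mem (mul_mem (mul_mem h0 ih) (star_mem h0)) (mul_mem (mul_mem h1 ih) (star_mem h1))

theorem Model.zap_iso (h : Model b s Z) (m : ℕ) : star (zap s m) * zap s m = 1 := by
  have A : ∀ {a b c : H →L[ℂ] H}, a * b = c → ∀ x, a * (b * x) = c * x := fun h x => by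
    rw [← mul_assoc, h]
  have h00 : star (s 0) * s 0 = 1 := h.ss (by omega) (by omega)
  have h11 : star (s 1) * s 1 = 1 := h.ss (by omega) (by omega)
  have h01 : star (s 0) * s 1 = 0 := h.ss (by omega) (by omega)
  have h10 : star (s 1) * s 0 = 0 := h.ss (by omega) (by omega)
  induction m with
  | zero => exact h00
  | succ m ih =>
    simp only [zap, star_add, star_mul, star_star, mul_add, add_mul, mul_assoc, A h00, A h11,
      A h01, A h10, A ih, one_mul, zero_mul, mul_zero, add_zero, zero_add]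
    exact h.sum

theorem Model.zap_app (h : Model b s Z) (m n : ℕ) (k : ℤ) (hn : n < 2 ^ m) :
    zap s m (b (n, k)) = b (n, k + 1) := by
  induction m generalizing n k with
  | zero =>
    obtain rfl : n = 0 := by simpa using hn
    simpa [zap] using h.s_app 0 0 k
  | succ m ih =>
    have ih' := ih (n / 2) (k - 1) (by rw [pow_succ] at hn; omega)
    simp only [zap, add_apply, mul_apply_eq_comp, h.s_star 0 (by omega), h.s_star 1 (by omega)]
    rcases Nat.mod_two_eq_zero_or_one n with e | e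
    · rw [if_pos e, if_neg (by omega), ih', h.s_app, map_zero, map_zero, add_zero, sub_add_cancel,
        show 2 * (n / 2) + 0 = n by omega]
    · rw [if_neg (by omega), if_pos e, ih', h.s_app, map_zero, map_zero, zero_add, sub_add_cancel,
        show 2 * (n / 2) + 1 = n by omega]

theorem ev_lt_two_pow (n : ℕ) : ∀ᶠ m in atTop, n < 2 ^ m :=
  eventually_atTop.2 ⟨n, fun _ hm => Nat.lt_two_pow_self.trans_le (Nat.pow_le_pow_right two_pos hm)⟩

theorem Model.weak (h : Model b s Z) (a v : H)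
    (hv : ∀ x ∈ gen ({s 0, s 1} : Set (H →L[ℂ] H)), ⟪a, x v⟫_ℂ = 0) : ⟪a, Z v⟫_ℂ = 0 := by
  have h1 : ∀ w ∈ Submodule.span ℂ (range b), ∀ᶠ m in atTop, zap s m w = Z w := by
    intro w hw
    induction hw using Submodule.span_induction with
    | mem y hy =>
      obtain ⟨⟨n, k⟩, rfl⟩ := hy
      filter_upwards [ev_lt_two_pow n] with m hm
      rw [h.zap_app m n k hm, h.z_app]
    | zero => simp
    | add x y _ _ ix iy => filter_upwards [ix, iy] with m i1 i2; rw [map_add, map_add, i1, i2]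
    | smul c x _ ix => filter_upwards [ix] with m i1; rw [map_smul, map_smul, i1]
  rw [← norm_eq_zero]
  refine le_antisymm (le_of_forall_pos_le_add fun ε hε => ?_) (norm_nonneg _)
  obtain ⟨w, hw, hvw⟩ := Metric.mem_closure_iff.1 (dense_span b v) (ε / (2 * ‖a‖ + 1))
    (by positivity)
  rw [dist_eq_norm, lt_div_iff₀ (by positivity)] at hvw
  obtain ⟨m, hm⟩ := (h1 w hw).exists
  have e : ⟪a, Z v⟫_ℂ = ⟪a, Z (v - w) - zap s m (v - w)⟫_ℂ := by
    rw [map_sub, map_sub, hm, sub_sub_sub_cancel_right, inner_sub_right, hv _ (zap_mem s m),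
      sub_zero]
  rw [e]
  have i1 := norm_inner_le_norm (𝕜 := ℂ) a (Z (v - w) - zap s m (v - w))
  have i2 := norm_sub_le (Z (v - w)) (zap s m (v - w))
  rw [norm_iso_apply h.zz, norm_iso_apply (h.zap_iso m)] at i2
  nlinarith [norm_nonneg a, norm_nonneg (v - w)]

theorem Model.no_eig (h : Model b s Z) (a : H) (μ : ℂ) (ha : Z a = μ • a) : a = 0 := by
  by_contra h0
  have hμ : ‖μ‖ = 1 := by
    have := norm_iso_apply h.zz a
    rw [ha, norm_smul] at this
    exact mul_right_cancel₀ (norm_ne_zero_iff.2 h0) (this.trans (one_mul _).symm)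
  have h1 : ∀ n k, ‖⟪b (n, k + 1), a⟫_ℂ‖ = ‖⟪b (n, k), a⟫_ℂ‖ := by
    intro n k
    rw [← h.z_star n k, inner_star_left, ha, inner_smul_right, norm_mul, hμ, one_mul]
  have h2 : ∀ n k (j : ℕ), ‖⟪b (n, k + j), a⟫_ℂ‖ = ‖⟪b (n, k), a⟫_ℂ‖ := by
    intro n k j
    induction j with
    | zero => simp
    | succ j ih => rw [Nat.cast_succ, ← add_assoc, h1, ih]
  refine h0 (vec_ext b fun ⟨n, k⟩ => ?_)
  have h3 := (b.orthonormal.comp (fun j : ℕ => ((n, k + j) : ℕ × ℤ)) (fun i j e => by
    simpa using e)).inner_products_summable a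
  have h4 := h3.tendsto_atTop_zero
  simp only [Function.comp, h2] at h4
  have h5 := tendsto_nhds_unique tendsto_const_nhds h4
  rw [inner_zero_right]
  simpa using h5

/-- Words. -/
noncomputable def wd (s : ℕ → H →L[ℂ] H) : ℕ → ℕ → H →L[ℂ] H
  | 0, _ => s 1
  | j + 1, n => s (n % 2) * wd s j (n / 2)

theorem wd_mem (s : ℕ → H →L[ℂ] H) (j n : ℕ) :
    wd s j n ∈ gen ({s 0, s 1} : Set (H →L[ℂ] H)) := by
  induction j generalizing n with
  | zero => exact s_mem s (by omega)
  | succ j ih => exact mul_mem (s_mem s (Nat.mod_lt _ two_pos)) (ih _)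

theorem Model.wd_orth (h : Model b s Z) (j j' n n' : ℕ) (h1 : n < 2 ^ j) (h2 : n' < 2 ^ j)
    (h3 : n < 2 ^ j') (h4 : n' < 2 ^ j') :
    star (wd s j n) * wd s j' n' = if j = j' ∧ n = n' then 1 else 0 := by
  induction j generalizing j' n n' with
  | zero =>
    obtain rfl : n = 0 := by simpa using h1
    obtain rfl : n' = 0 := by simpa using h2
    cases j' with
    | zero => simpa [wd] using h.ss (i := 1) (j := 1) (by omega) (by omega)
    | succ j' =>
      rw [wd, wd, ← mul_assoc, h.ss (by omega) (by omega)]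
      simp
  | succ j ih =>
    cases j' with
    | zero =>
      obtain rfl : n = 0 := by simpa using h3
      obtain rfl : n' = 0 := by simpa using h4
      rw [wd, wd, star_mul, mul_assoc, h.ss (by omega) (by omega)]
      simp
    | succ j' =>
      rw [pow_succ] at h1 h2 h3 h4
      rw [wd, wd, star_mul, mul_assoc, ← mul_assoc (star (s _)),
        h.ss (Nat.mod_lt _ two_pos) (Nat.mod_lt _ two_pos)]
      by_cases e : n % 2 = n' % 2
      · rw [if_pos e, one_mul, ih j' _ _ (by omega) (by omega) (by omega) (by omega)]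
        exact if_congr (by omega) rfl rfl
      · rw [if_neg e, zero_mul, mul_zero, if_neg (by omega)]

/-- Operators modelling finitely supported vectors. -/
noncomputable def vop (s : ℕ → H →L[ℂ] H) (L : ℕ) : ((ℕ × ℤ) →₀ ℂ) →ₗ[ℂ] (H →L[ℂ] H) :=
  Finsupp.linearCombination ℂ fun p => wd s (p.2 + L).toNat p.1

theorem vop_mem (s : ℕ → H →L[ℂ] H) (L : ℕ) (f : (ℕ × ℤ) →₀ ℂ) :
    vop s L f ∈ gen ({s 0, s 1} : Set (H →L[ℂ] H)) := by
  induction f using Finsupp.induction_linear with
  | zero => simp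
  | add f g i1 i2 => rw [map_add]; exact add_mem i1 i2
  | single p c =>
    rw [vop, Finsupp.linearCombination_single]
    exact SMulMemClass.smul_mem _ (wd_mem s _ _)

theorem Model.vop_orth (h : Model b s Z) (f g : (ℕ × ℤ) →₀ ℂ) :
    ∀ᶠ L in atTop, star (vop s L f) * vop s L g =
      ⟪Finsupp.linearCombination ℂ b f, Finsupp.linearCombination ℂ b g⟫_ℂ • (1 : H →L[ℂ] H) := by
  induction f using Finsupp.induction_linear with
  | zero => simp
  | add f f' i1 i2 =>
    filter_upwards [i1, i2] with L j1 j2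
    rw [map_add, map_add, star_add, add_mul, j1, j2, inner_add_left, add_smul]
  | single p c =>
    induction g using Finsupp.induction_linear with
    | zero => simp
    | add f f' i1 i2 =>
      filter_upwards [i1, i2] with L j1 j2
      rw [map_add, map_add, mul_add, j1, j2, inner_add_right, add_smul]
    | single q c' =>
      obtain ⟨n, k⟩ := p
      obtain ⟨n', k'⟩ := q
      filter_upwards [eventually_ge_atTop (n + n' + k.natAbs + k'.natAbs)] with L hL
      have hp : ∀ a j : ℕ, a ≤ j → a < 2 ^ j := fun a j haj =>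
        Nat.lt_two_pow_self.trans_le (Nat.pow_le_pow_right two_pos haj)
      simp only [vop, Finsupp.linearCombination_single, star_smul, smul_mul_assoc, mul_smul_comm,
        inner_smul_left, inner_smul_right]
      rw [h.wd_orth _ _ _ _ (hp _ _ (by omega)) (hp _ _ (by omega)) (hp _ _ (by omega))
        (hp _ _ (by omega)), orthonormal_iff_ite.1 b.orthonormal]
      by_cases e : (n, k) = (n', k')
      · rw [if_pos e, if_pos (by simp only [Prod.mk.injEq] at e; omega)]
        simp [smul_smul, mul_comm]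
      · rw [if_neg e, if_neg (by simp only [Prod.mk.injEq] at e; omega)]
        simp

/-- Compatibility of an operator with the model maps. -/
def Good (b : HilbertBasis (ℕ × ℤ) ℂ H) (s : ℕ → H →L[ℂ] H) (x : H →L[ℂ] H) : Prop :=
  ∀ f : (ℕ × ℤ) →₀ ℂ, ∃ f' : (ℕ × ℤ) →₀ ℂ,
    x (Finsupp.linearCombination ℂ b f) = Finsupp.linearCombination ℂ b f' ∧
      ∀ᶠ L in atTop, x * vop s L f = vop s L f'

omit [CompleteSpace H] in
theorem good_of {x : H →L[ℂ] H} (hx : ∀ n k, ∃ f' : (ℕ × ℤ) →₀ ℂ,
    x (b (n, k)) = Finsupp.linearCombination ℂ b f' ∧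
      ∀ᶠ L : ℕ in atTop, x * wd s (k + L).toNat n = vop s L f') : Good b s x := by
  intro f
  induction f using Finsupp.induction_linear with
  | zero => exact ⟨0, by simp, by simp⟩
  | add f g i1 i2 =>
    obtain ⟨f', a1, a2⟩ := i1
    obtain ⟨g', b1, b2⟩ := i2
    refine ⟨f' + g', by rw [map_add, map_add, map_add, a1, b1], ?_⟩
    filter_upwards [a2, b2] with L j1 j2
    rw [map_add, map_add, mul_add, j1, j2]
  | single p c =>
    obtain ⟨f', a1, a2⟩ := hx p.1 p.2
    refine ⟨c • f', by rw [Finsupp.linearCombination_single, map_smul, map_smul, ← a1], ?_⟩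
    filter_upwards [a2] with L j1
    rw [map_smul, ← j1, vop, Finsupp.linearCombination_single, mul_smul_comm]

theorem Model.good (h : Model b s Z) {x : H →L[ℂ] H}
    (hx : x ∈ StarAlgebra.adjoin ℂ ({s 0, s 1} : Set (H →L[ℂ] H))) : Good b s x := by
  have g1 : ∀ i < 2, Good b s (s i) := fun i hi => good_of fun n k => by
    refine ⟨Finsupp.single (2 * n + i, k + 1) 1, by simp [h.s_app], ?_⟩
    filter_upwards [eventually_ge_atTop k.natAbs] with L hL
    rw [vop, Finsupp.linearCombination_single, one_smul,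
      show (k + 1 + L).toNat = (k + L).toNat + 1 by omega, wd,
      show (2 * n + i) % 2 = i by omega, show (2 * n + i) / 2 = n by omega]
  have g2 : ∀ i < 2, Good b s (star (s i)) := fun i hi => good_of fun n k => by
    refine ⟨if n % 2 = i then Finsupp.single (n / 2, k - 1) 1 else 0, ?_, ?_⟩
    · rw [h.s_star i hi]; split_ifs <;> simp
    filter_upwards [eventually_ge_atTop (k.natAbs + 1)] with L hL
    rw [show (k + L).toNat = (k - 1 + L).toNat + 1 by omega, wd, ← mul_assoc,
      h.ss hi (Nat.mod_lt _ two_pos)]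
    by_cases e : n % 2 = i
    · rw [if_pos e.symm, if_pos e, one_mul, vop, Finsupp.linearCombination_single, one_smul]
    · rw [if_neg (Ne.symm e), if_neg e, zero_mul, map_zero]
  have hx' : x ∈ (StarAlgebra.adjoin ℂ ({s 0, s 1} : Set (H →L[ℂ] H))).toSubalgebra := hx
  rw [StarAlgebra.adjoin_toSubalgebra] at hx'
  clear hx
  induction hx' using Algebra.adjoin_induction with
  | mem y hy =>
    rcases hy with (rfl | rfl) | hy
    · exact g1 0 (by omega)
    · exact g1 1 (by omega)
    · rw [← star_star y]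
      rcases mem_star.1 hy with e | e <;> rw [e]
      · exact g2 0 (by omega)
      · exact g2 1 (by omega)
  | algebraMap r =>
    intro f
    refine ⟨r • f, by simp [Algebra.algebraMap_eq_smul_one], ?_⟩
    simp [Algebra.algebraMap_eq_smul_one]
  | add x y _ _ ix iy =>
    intro f
    obtain ⟨f1, a1, a2⟩ := ix f
    obtain ⟨f2, b1, b2⟩ := iy f
    refine ⟨f1 + f2, by rw [add_apply, map_add, a1, b1], ?_⟩
    filter_upwards [a2, b2] with L j1 j2
    rw [map_add, add_mul, j1, j2]
  | mul x y _ _ ix iy =>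
    intro f
    obtain ⟨f1, a1, a2⟩ := iy f
    obtain ⟨f2, b1, b2⟩ := ix f1
    refine ⟨f2, by rw [mul_apply_eq_comp, a1, b1], ?_⟩
    filter_upwards [a2, b2] with L j1 j2
    rw [mul_assoc, j1, j2]

theorem Model.pi (h : Model b s Z) : PI (gen ({s 0, s 1} : Set (H →L[ℂ] H))) := by
  intro g hg l ζ hζ hl
  set ε := ((⟪ζ, g ζ⟫_ℂ).re - l) / 2 with hε
  obtain ⟨x, hx, hgx⟩ := Metric.mem_closure_iff.1 hg ε (by rw [hε]; linarith)
  rw [dist_eq_norm] at hgx
  have e : ∀ η, |(⟪η, g η⟫_ℂ).re - (⟪η, x η⟫_ℂ).re| ≤ ‖g - x‖ * ‖η‖ ^ 2 := by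
    intro η
    have := abs_re_inner_le (g - x) η
    rwa [sub_apply, inner_sub_right, Complex.sub_re] at this
  have hopen : IsOpen {v : H | (l + ε) * ‖v‖ ^ 2 < (⟪v, x v⟫_ℂ).re} :=
    isOpen_lt (by fun_prop) (Complex.continuous_re.comp (continuous_id.inner x.continuous))
  obtain ⟨v, hv1, hv2⟩ := (dense_span b).exists_mem_open hopen ⟨ζ, by
    have := (abs_le.1 (e ζ)).2
    rw [hζ] at this
    simp only [mem_ofPred_eq, hζ]
    rw [hε] at hgx ⊢
    linarith⟩
  rw [← Finsupp.range_linearCombination] at hv1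
  obtain ⟨f, rfl⟩ := hv1
  simp only [mem_ofPred_eq] at hv2
  set v := Finsupp.linearCombination ℂ b f with hv
  have hv0 : 0 < ‖v‖ := by
    refine norm_pos_iff.2 fun h0 => ?_
    rw [h0] at hv2
    simp at hv2
  set r : ℝ := ‖v‖⁻¹ with hr
  have hr1 : r * ‖v‖ = 1 := inv_mul_cancel₀ hv0.ne'
  have hr0 : 0 < r := by positivity
  obtain ⟨f', a1, a2⟩ := h.good hx ((r : ℂ) • f)
  obtain ⟨L, ⟨j1, j2⟩, j3⟩ := ((a2.and (h.vop_orth ((r : ℂ) • f) f')).and
    (h.vop_orth ((r : ℂ) • f) ((r : ℂ) • f))).exists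
  rw [← a1, ← j1] at j2
  rw [map_smul (Finsupp.linearCombination ℂ b), ← hv] at j2 j3
  have hy : star (vop s L ((r : ℂ) • f)) * vop s L ((r : ℂ) • f) = 1 := by
    rw [j3, inner_self_eq_norm_sq_to_K, norm_smul, Complex.norm_real, Real.norm_of_nonneg hr0.le,
      hr1]
    simp
  refine ⟨_, vop_mem s L _, hy, fun η => ?_⟩
  generalize vop s L ((r : ℂ) • f) = y at j2 hy
  have i1 : (⟪y η, x (y η)⟫_ℂ).re = r ^ 2 * (⟪v, x v⟫_ℂ).re * ‖η‖ ^ 2 := by
    rw [← inner_star_right, ← mul_apply_eq_comp x, ← mul_apply_eq_comp, j2, smul_apply,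
      one_apply_eq_self, inner_smul_right, inner_self_eq_norm_sq_to_K, map_smul, inner_smul_left,
      inner_smul_right]
    simp [← Complex.ofReal_pow]
    left
    ring
  have i2 : l + ε ≤ r ^ 2 * (⟪v, x v⟫_ℂ).re := by
    have : (l + ε) = r ^ 2 * ((l + ε) * ‖v‖ ^ 2) := by
      calc l + ε = (l + ε) * (r * ‖v‖) ^ 2 := by rw [hr1]; ring
        _ = _ := by ring
    rw [this]
    exact mul_le_mul_of_nonneg_left hv2.le (by positivity)
  have := (abs_le.1 (e (y η))).1
  rw [norm_iso_apply hy, i1] at this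
  nlinarith [sq_nonneg ‖η‖, mul_le_mul_of_nonneg_right i2 (sq_nonneg ‖η‖)]

end Model

end Vale.Agent.P070
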