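import Vale.Agent.P070.Seq

namespace Vale.Agent.P070

open Filter Topology
open scoped InnerProductSpace

section Abs

variable {R : Type*} [CStarAlgebra R]

/-- The closed star subalgebra generated by a set. -/
noncomputable def gen (S : Set R) : StarSubalgebra ℂ R :=
  (StarAlgebra.adjoin ℂ S).topologicalClosure

theorem gen_closed (S : Set R) : IsClosed (gen S : Set R) :=
  StarSubalgebra.isClosed_topologicalClosure _

theorem subset_gen (S : Set R) : S ⊆ gen S := fun _ hx =>
  StarSubalgebra.le_topologicalClosure _ (StarAlgebra.subset_adjoin ℂ S hx)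

theorem gen_le {S : Set R} {B : StarSubalgebra ℂ R} (hB : IsClosed (B : Set R)) (h : S ⊆ B) :
    gen S ≤ B :=
  StarSubalgebra.topologicalClosure_minimal (StarAlgebra.adjoin_le h) hB

theorem gen_mono {S T : Set R} (h : S ⊆ T) : gen S ≤ gen T :=
  gen_le (gen_closed T) (h.trans (subset_gen T))

/-- `w` glues the pointing sequences `c` and `d` over `B`. -/
structure Gl (B : StarSubalgebra ℂ R) (c d : ℕ → R) (w : R) : Prop where
  nc : NS c
  nd : NS d
  cm : ∀ n, c n ∈ B
  dm : ∀ n, d n ∈ B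
  m1 : ∀ N, w * (1 - pr d N) ∈ B
  m2 : ∀ N, w * pr d N * star w ∈ B
  r1 : ∀ N, pr c N * (w * pr d N) = w * pr d N
  r2 : ∀ N, star (w * pr d N) * (w * pr d N) = pr d N
  pc : Pt B c
  pd : Pt B d
  dj : Dj B d c

variable {B : StarSubalgebra ℂ R} {c d : ℕ → R} {w : R}

theorem Gl.norm_X (h : Gl B c d w) (N : ℕ) : ‖w * pr d N‖ ≤ 1 := by
  have h1 : ‖star (w * pr d N) * (w * pr d N)‖ = ‖w * pr d N‖ * ‖w * pr d N‖ :=
    CStarRing.norm_star_mul_self
  rw [h.r2] at h1
  nlinarith [norm_nonneg (w * pr d N), h.nd.norm_pr_le N]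

theorem Gl.X_pr (h : Gl B c d w) (N : ℕ) : w * pr d N * pr d N = w * pr d N := by
  rw [mul_assoc, h.nd.pr_pr le_rfl]

theorem Gl.fac (h : Gl B c d w) (N : ℕ) :
    ∃ Y : R, ‖Y‖ ≤ 1 ∧ w * pr d N = c N * Y * star (d N) := by
  refine ⟨star (c N) * (w * pr d N) * d N, ?_, ?_⟩
  · exact (norm_conj_le h.nc h.nd _ _ _).trans (h.norm_X N)
  · calc w * pr d N = pr c N * (w * pr d N * pr d N) := by rw [h.X_pr, h.r1]
      _ = _ := by simp only [pr, mul_assoc]

theorem norm_three {x y z : R} (hx : ‖x‖ ≤ 1) (hz : ‖z‖ ≤ 1) : ‖x * y * z‖ ≤ ‖y‖ :=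
  (norm_mul_le_left hz).trans (norm_mul_le_right hx)

theorem norm_mul_le_one' {x y : R} (hx : ‖x‖ ≤ 1) (hy : ‖y‖ ≤ 1) : ‖x * y‖ ≤ 1 :=
  (norm_mul_le_left hy).trans hx

theorem lt_of_div_succ {x b ε : ℝ} (hb : 0 ≤ b) (hx0 : 0 ≤ x) (hx : x < ε / (b + 1)) :
    x * b < ε := by
  rw [lt_div_iff₀ (by positivity)] at hx
  nlinarith

/-- The structure of the glued algebra. -/
theorem Gl.gen_subset (h : Gl B c d w) {V : Set R} (hV : IsClosed V)
    (hadd : ∀ x ∈ V, ∀ y ∈ V, x + y ∈ V) (hB : ∀ x ∈ B, x ∈ V)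
    (h1 : ∀ a ∈ B, ∀ b ∈ B, a * w * b ∈ V) (h2 : ∀ a ∈ B, ∀ b ∈ B, a * star w * b ∈ V) :
    ∀ x ∈ gen ((B : Set R) ∪ {w}), x ∈ V := by
  let Gs : Set R := {x | x ∈ B ∨ (∃ a ∈ B, ∃ b ∈ B, x = a * w * b) ∨
    (∃ a ∈ B, ∃ b ∈ B, x = a * star w * b)}
  let V0 : AddSubmonoid R := (AddSubmonoid.closure Gs).topologicalClosure
  have hV0c : IsClosed (V0 : Set R) := AddSubmonoid.isClosed_topologicalClosure _
  have hG : ∀ x ∈ Gs, x ∈ V0 := fun x hx =>
    AddSubmonoid.le_topologicalClosure _ (AddSubmonoid.subset_closure hx)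
  have g0 : ∀ x ∈ B, x ∈ V0 := fun x hx => hG x (Or.inl hx)
  have g1 : ∀ a ∈ B, ∀ b ∈ B, a * w * b ∈ V0 := fun a ha b hb =>
    hG _ (Or.inr (Or.inl ⟨a, ha, b, hb, rfl⟩))
  have g2 : ∀ a ∈ B, ∀ b ∈ B, a * star w * b ∈ V0 := fun a ha b hb =>
    hG _ (Or.inr (Or.inr ⟨a, ha, b, hb, rfl⟩))
  have hsub : ∀ (U : Set R), IsClosed U → (0 : R) ∈ U → (∀ x ∈ U, ∀ y ∈ U, x + y ∈ U) →
      Gs ⊆ U → ∀ x ∈ V0, x ∈ U := by
    intro U hU h0 ha hs x hx
    refine closure_minimal (fun y hy => ?_) hU hx
    induction hy using AddSubmonoid.closure_induction with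
    | mem z hz => exact hs hz
    | zero => exact h0
    | add z z' _ _ i1 i2 => exact ha _ i1 _ i2
  have hleft : ∀ x : R, (∀ g ∈ Gs, x * g ∈ V0) → ∀ v ∈ V0, x * v ∈ V0 := by
    intro x hx
    refine hsub {v | x * v ∈ V0} (hV0c.preimage (continuous_const.mul continuous_id)) ?_ ?_ hx
    · simp only [Set.mem_ofPred_eq, mul_zero]; exact zero_mem _
    · intro y hy z hz
      simp only [Set.mem_ofPred_eq, mul_add] at *
      exact add_mem hy hz
  have happ : ∀ x : R, (∀ ε : ℝ, 0 < ε → ∃ y ∈ V0, ‖x - y‖ < ε) → x ∈ V0 := by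
    intro x hx
    have : x ∈ closure (V0 : Set R) := Metric.mem_closure_iff.2 fun ε hε => by
      obtain ⟨y, hy, hxy⟩ := hx ε hε
      exact ⟨y, hy, by rwa [dist_eq_norm]⟩
    rwa [hV0c.closure_eq] at this
  have hw : ∀ N, w = w * (1 - pr d N) + w * pr d N := fun N => by
    rw [mul_sub, mul_one, sub_add_cancel]
  have hsw : ∀ N, star w = star (w * (1 - pr d N)) + star (w * pr d N) := fun N => by
    rw [← star_add, ← hw]
  have hdm := pr_mem h.dm
  have lB : ∀ x ∈ B, ∀ v ∈ V0, x * v ∈ V0 := by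
    intro x hx
    refine hleft x ?_
    rintro g (hg | ⟨a, ha, b, hb, rfl⟩ | ⟨a, ha, b, hb, rfl⟩)
    · exact g0 _ (mul_mem hx hg)
    · have := g1 _ (mul_mem hx ha) b hb
      simpa only [mul_assoc] using this
    · have := g2 _ (mul_mem hx ha) b hb
      simpa only [mul_assoc] using this
  have lw : ∀ v ∈ V0, w * v ∈ V0 := by
    refine hleft w ?_
    rintro g (hg | ⟨a, ha, b, hb, rfl⟩ | ⟨a, ha, b, hb, rfl⟩)
    · simpa using g1 1 (one_mem _) g hg
    · refine happ _ fun ε hε => ?_
      obtain ⟨N, hN⟩ := h.dj a ha (ε / (‖b‖ + 1)) (by positivity)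
      obtain ⟨Y, hY, hX⟩ := h.fac N
      refine ⟨w * (1 - pr d N) * a * w * b + 1 * w * (pr d N * a * (w * (1 - pr d N)) * b),
        add_mem (g1 _ (mul_mem (h.m1 N) ha) b hb) (g1 _ (one_mem _) _
          (mul_mem (mul_mem (mul_mem (hdm N) ha) (h.m1 N)) hb)), ?_⟩
      have e : w * (a * w * b) - (w * (1 - pr d N) * a * w * b +
          1 * w * (pr d N * a * (w * (1 - pr d N)) * b)) =
          (w * pr d N) * a * (w * pr d N) * b := by noncomm_ring
      have e2 : (w * pr d N) * a * (w * pr d N) * b =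
          (c N * Y) * (star (d N) * a * c N) * (Y * star (d N)) * b := by
        rw [hX]; simp only [mul_assoc]
      rw [e, e2]
      refine (norm_mul_le _ _).trans_lt (lt_of_div_succ (norm_nonneg _) (norm_nonneg _) ?_)
      exact (norm_three (norm_mul_le_one' (h.nc.norm_le N) hY)
        (norm_mul_le_one' hY (h.nd.norm_star_le N))).trans_lt hN
    · refine happ _ fun ε hε => ?_
      obtain ⟨N, l, hN⟩ := h.pd a ha (ε / (‖b‖ + 1)) (by positivity)
      refine ⟨w * (1 - pr d N) * a * star w * b +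
        1 * w * (pr d N * a * star (w * (1 - pr d N)) * b) + l • (w * pr d N * star w * b),
        add_mem (add_mem (g2 _ (mul_mem (h.m1 N) ha) b hb) (g1 _ (one_mem _) _
          (mul_mem (mul_mem (mul_mem (hdm N) ha) (star_mem (h.m1 N))) hb)))
          (g0 _ (SMulMemClass.smul_mem _ (mul_mem (h.m2 N) hb))), ?_⟩
      have e : w * (a * star w * b) - (w * (1 - pr d N) * a * star w * b +
          1 * w * (pr d N * a * star (w * (1 - pr d N)) * b) + l • (w * pr d N * star w * b)) =
          (w * d N) * (star (d N) * a * d N - l • (1 : R)) * star (w * d N) * b := by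
        simp only [pr, star_mul, star_sub, star_one, star_star, mul_sub, sub_mul, mul_assoc,
          mul_one, one_mul, mul_smul_comm, smul_mul_assoc]
        abel
      have hn : ‖w * d N‖ ≤ 1 := by
        rw [← h.nd.pr_self N, ← mul_assoc]
        exact norm_mul_le_one' (h.norm_X N) (h.nd.norm_le N)
      rw [e]
      refine (norm_mul_le _ _).trans_lt (lt_of_div_succ (norm_nonneg _) (norm_nonneg _) ?_)
      exact (norm_three hn (by rwa [norm_star])).trans_lt hN
  have lsw : ∀ v ∈ V0, star w * v ∈ V0 := by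
    refine hleft (star w) ?_
    rintro g (hg | ⟨a, ha, b, hb, rfl⟩ | ⟨a, ha, b, hb, rfl⟩)
    · simpa using g2 1 (one_mem _) g hg
    · refine happ _ fun ε hε => ?_
      obtain ⟨N, l, hN⟩ := h.pc a ha (ε / (‖b‖ + 1)) (by positivity)
      refine ⟨star (w * (1 - pr d N)) * a * w * b +
        pr d N * star w * (a * (w * (1 - pr d N)) * b) + l • (pr d N * b),
        add_mem (add_mem (g1 _ (mul_mem (star_mem (h.m1 N)) ha) b hb) (g2 _ (hdm N) _
          (mul_mem (mul_mem ha (h.m1 N)) hb)))
          (g0 _ (SMulMemClass.smul_mem _ (mul_mem (hdm N) hb))), ?_⟩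
      have e : star w * (a * w * b) - (star (w * (1 - pr d N)) * a * w * b +
          pr d N * star w * (a * (w * (1 - pr d N)) * b) + l • (pr d N * b)) =
          star (w * pr d N) * a * (w * pr d N) * b - l • (pr d N * b) := by
        simp only [star_mul, star_sub, star_one, star_pr, mul_sub, sub_mul, mul_assoc,
          mul_one, one_mul]
        abel
      have e2 : star (w * pr d N) * a * (w * pr d N) * b - l • (pr d N * b) =
          star (star (c N) * (w * pr d N)) * (star (c N) * a * c N - l • (1 : R)) *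
            (star (c N) * (w * pr d N)) * b := by
        have f1 := h.r1 N
        have f2 := h.r2 N
        generalize w * pr d N = X at f1 f2 ⊢
        have f3 : star X * (c N * (star (c N) * X)) = pr d N := by
          rw [← mul_assoc (c N)]; exact (congrArg (star X * ·) f1).trans f2
        have f4 : star X * (c N * star (c N)) = star X := by
          have := congrArg star f1
          rwa [star_mul, star_pr] at this
        have f5 : c N * (star (c N) * X) = X := by rw [← mul_assoc]; exact f1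
        calc star X * a * X * b - l • (pr d N * b)
            = star X * (c N * star (c N)) * a * (c N * (star (c N) * X)) * b -
              l • (star X * (c N * (star (c N) * X)) * b) := by rw [f3, f4, f5]
          _ = _ := by
            simp only [star_mul, star_star, mul_sub, sub_mul, mul_assoc, one_mul, mul_smul_comm,
              smul_mul_assoc]
      have hn : ‖star (c N) * (w * pr d N)‖ ≤ 1 :=
        norm_mul_le_one' (h.nc.norm_star_le N) (h.norm_X N)
      rw [e, e2]
      refine (norm_mul_le _ _).trans_lt (lt_of_div_succ (norm_nonneg _) (norm_nonneg _) ?_)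
      exact (norm_three (by rwa [norm_star]) hn).trans_lt hN
    · refine happ _ fun ε hε => ?_
      obtain ⟨N, hN⟩ := h.dj.symm a ha (ε / (‖b‖ + 1)) (by positivity)
      obtain ⟨Y, hY, hX⟩ := h.fac N
      refine ⟨star (w * (1 - pr d N)) * a * star w * b +
        pr d N * star w * (a * star (w * (1 - pr d N)) * b),
        add_mem (g2 _ (mul_mem (star_mem (h.m1 N)) ha) b hb) (g2 _ (hdm N) _
          (mul_mem (mul_mem ha (star_mem (h.m1 N))) hb)), ?_⟩
      have e : star w * (a * star w * b) - (star (w * (1 - pr d N)) * a * star w * b +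
          pr d N * star w * (a * star (w * (1 - pr d N)) * b)) =
          star (w * pr d N) * a * star (w * pr d N) * b := by
        simp only [star_mul, star_sub, star_one, star_pr, mul_sub, sub_mul, mul_assoc,
          mul_one, one_mul]
        abel
      have e2 : star (w * pr d N) * a * star (w * pr d N) * b =
          (d N * star Y) * (star (c N) * a * d N) * (star Y * star (c N)) * b := by
        rw [hX]; simp only [star_mul, star_star, mul_assoc]
      have hY' : ‖star Y‖ ≤ 1 := by rwa [norm_star]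
      rw [e, e2]
      refine (norm_mul_le _ _).trans_lt (lt_of_div_succ (norm_nonneg _) (norm_nonneg _) ?_)
      exact (norm_three (norm_mul_le_one' (h.nd.norm_le N) hY')
        (norm_mul_le_one' hY' (h.nc.norm_star_le N))).trans_lt hN
  let M : Subalgebra ℂ R :=
    { carrier := {x | ∀ v ∈ V0, x * v ∈ V0}
      mul_mem' := fun {x y} hx hy v hv => by rw [mul_assoc]; exact hx _ (hy v hv)
      add_mem' := fun {x y} hx hy v hv => by rw [add_mul]; exact add_mem (hx v hv) (hy v hv)
      algebraMap_mem' := fun z => lB _ (algebraMap_mem B z) }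
  have hMc : IsClosed (M : Set R) := by
    have : (M : Set R) = ⋂ v ∈ V0, (fun x => x * v) ⁻¹' (V0 : Set R) := by
      ext x; simp only [Set.mem_iInter]; rfl
    rw [this]
    exact isClosed_biInter fun v _ => hV0c.preimage (continuous_id.mul continuous_const)
  have hle : (StarAlgebra.adjoin ℂ ((B : Set R) ∪ {w})).toSubalgebra ≤ M := by
    rw [StarAlgebra.adjoin_toSubalgebra]
    refine Algebra.adjoin_le ?_
    rintro x ((hx | hx) | hx)
    · exact lB x hx
    · rw [Set.mem_singleton_iff.1 hx]; exact lw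
    · rcases Set.mem_star.1 hx with hx | hx
      · have := star_mem (s := B) hx
        rw [star_star] at this
        exact lB x this
      · have : x = star w := by rw [← Set.mem_singleton_iff.1 hx, star_star]
        rw [this]; exact lsw
  intro x hx
  have hxM : x ∈ (M : Set R) := closure_minimal (fun y hy => hle hy) hMc hx
  have := hxM 1 (g0 1 (one_mem _))
  rw [mul_one] at this
  refine hsub V hV (hB 0 (zero_mem _)) hadd ?_ x this
  rintro g (hg | ⟨a, ha, b, hb, rfl⟩ | ⟨a, ha, b, hb, rfl⟩)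
  · exact hB g hg
  · exact h1 a ha b hb
  · exact h2 a ha b hb

theorem Gl.tail (h : Gl B c d w) {e f : ℕ → R} (he : NS e) (hf : NS f)
    (hd : Dj B f c ∨ Dj B d e) {a b : R} (ha : a ∈ B) (hb : b ∈ B) {ε : ℝ} (hε : 0 < ε) :
    ∃ N, ∀ᶠ n in atTop, ‖star (f n) * (a * (w * pr d N) * b) * e n‖ < ε := by
  rcases hd with hd | hd
  · obtain ⟨N, hN⟩ := hd a ha (ε / (‖b‖ + 1)) (by positivity)
    obtain ⟨Y, hY, hX⟩ := h.fac N
    refine ⟨N, eventually_atTop.2 ⟨N, fun n hn => ?_⟩⟩
    have e1 : star (f n) * (a * (w * pr d N) * b) * e n =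
        (star (f n) * a * c N) * (Y * (star (d N) * b * e n)) := by
      rw [hX]; simp only [mul_assoc]
    rw [e1]
    refine (norm_mul_le _ _).trans_lt (lt_of_le_of_lt (mul_le_mul_of_nonneg_left
      ((norm_mul_le_right hY).trans (norm_conj_le h.nd he _ _ _)) (norm_nonneg _)) ?_)
    exact lt_of_div_succ (norm_nonneg _) (norm_nonneg _)
      ((mono_two hf h.nc a hn le_rfl).trans_lt hN)
  · obtain ⟨N, hN⟩ := hd b hb (ε / (‖a‖ + 1)) (by positivity)
    obtain ⟨Y, hY, hX⟩ := h.fac N
    refine ⟨N, eventually_atTop.2 ⟨N, fun n hn => ?_⟩⟩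
    have e1 : star (f n) * (a * (w * pr d N) * b) * e n =
        (star (f n) * a * c N * Y) * (star (d N) * b * e n) := by
      rw [hX]; simp only [mul_assoc]
    rw [e1]
    refine (norm_mul_le _ _).trans_lt (lt_of_le_of_lt (mul_le_mul_of_nonneg_right
      ((norm_mul_le_left hY).trans (norm_conj_le hf h.nc _ _ _)) (norm_nonneg _)) ?_)
    rw [mul_comm]
    exact lt_of_div_succ (norm_nonneg _) (norm_nonneg _)
      ((mono_two h.nd he b le_rfl hn).trans_lt hN)

theorem split_w (w a b p : R) : a * w * b = a * (w * (1 - p)) * b + a * (w * p) * b := by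
  noncomm_ring

theorem ApxSc.star {t : ℕ → R} {x : R} (hx : ApxSc t x) : ApxSc t (star x) := by
  intro ε hε
  obtain ⟨n, l, hn⟩ := hx ε hε
  refine ⟨n, (starRingEnd ℂ) l, ?_⟩
  rw [← norm_star] at hn
  simpa [mul_assoc] using hn

theorem Gl.pt_of (h : Gl B c d w) {e : ℕ → R} (he : NS e) (hp : Pt B e)
    (hd : Dj B e c ∨ Dj B d e) : Pt (gen ((B : Set R) ∪ {w})) e := by
  have h1 : ∀ a ∈ B, ∀ b ∈ B, ApxSc e (a * w * b) := by
    intro a ha b hb ε hε
    obtain ⟨N, hN⟩ := h.tail he he hd ha hb (half_pos hε)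
    obtain ⟨l, hl⟩ := (hp _ (mul_mem (mul_mem ha (h.m1 N)) hb)).ev he (half_pos hε)
    obtain ⟨n, i1, i2⟩ := (hN.and hl).exists
    refine ⟨n, l, ?_⟩
    rw [split_w w a b (pr d N), mul_add, add_mul, add_sub_right_comm]
    linarith [norm_add_le (star (e n) * (a * (w * (1 - pr d N)) * b) * e n - l • (1 : R))
      (star (e n) * (a * (w * pr d N) * b) * e n)]
  refine h.gen_subset (ApxSc.closed he) (fun x hx y hy => ApxSc.add he hx hy) hp h1 ?_
  intro a ha b hb
  have := (h1 _ (star_mem hb) _ (star_mem ha)).star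
  rw [star_mul, star_mul, star_star, star_star, ← mul_assoc] at this
  exact this

theorem Gl.dj_of (h : Gl B c d w) {e f : ℕ → R} (he : NS e) (hf : NS f) (hp : Dj B f e)
    (hd : Dj B f c ∨ Dj B d e) (hd' : Dj B e c ∨ Dj B d f) :
    Dj (gen ((B : Set R) ∪ {w})) f e := by
  have h1 : ∀ {e f : ℕ → R}, NS e → NS f → Dj B f e → (Dj B f c ∨ Dj B d e) →
      ∀ a ∈ B, ∀ b ∈ B, Sm f e (a * w * b) := by
    intro e f he hf hp hd a ha b hb ε hε
    obtain ⟨N, hN⟩ := h.tail he hf hd ha hb (half_pos hε)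
    have hl := (hp _ (mul_mem (mul_mem ha (h.m1 N)) hb)).ev hf he (half_pos hε)
    obtain ⟨n, i1, i2⟩ := (hN.and hl).exists
    refine ⟨n, ?_⟩
    rw [split_w w a b (pr d N), mul_add, add_mul]
    linarith [norm_add_le (star (f n) * (a * (w * (1 - pr d N)) * b) * e n)
      (star (f n) * (a * (w * pr d N) * b) * e n)]
  refine h.gen_subset (Sm.closed hf he) (fun x hx y hy => Sm.add hf he hx hy) hp
    (h1 he hf hp hd) ?_
  intro a ha b hb
  have := (h1 hf he hp.symm hd' _ (star_mem hb) _ (star_mem ha)).star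
  rw [star_mul, star_mul, star_star, star_star, ← mul_assoc] at this
  exact this

theorem Gl.not_sm [Nontrivial R] (h : Gl B c d w) : ¬ Sm c d w := by
  intro hs
  obtain ⟨N, hN⟩ := hs 1 one_pos
  have e : star (c N) * w * d N = star (c N) * (w * pr d N) * d N := by
    rw [mul_assoc (star (c N)), mul_assoc (star (c N)), mul_assoc w, h.nd.pr_self]
  have f1 := h.r1 N
  have f2 := h.r2 N
  rw [e] at hN
  generalize w * pr d N = X at f1 f2 hN
  have : star (star (c N) * X * d N) * (star (c N) * X * d N) = 1 := by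
    calc _ = star (d N) * (star X * (pr c N * X)) * d N := by
          simp only [star_mul, star_star, pr, mul_assoc]
      _ = 1 := by rw [f1, f2, mul_assoc, h.nd.pr_self, h.nd.iso]
  have h1 : ‖star (star (c N) * X * d N) * (star (c N) * X * d N)‖ =
      ‖star (c N) * X * d N‖ * ‖star (c N) * X * d N‖ := CStarRing.norm_star_mul_self
  rw [this, CStarRing.norm_one] at h1
  nlinarith [norm_nonneg (star (c N) * X * d N)]

end Abs

end Vale.Agent.P070
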