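import Vale.Agent.P070.Zig

namespace Vale.Agent.P070

open Filter Topology
open scoped InnerProductSpace ComplexOrder

theorem le_of_sq_le_sq_nonneg {E F : Type*} [SeminormedAddCommGroup E] [SeminormedAddCommGroup F]
    {a : E} {b : F} (h : ‖a‖ ^ 2 ≤ ‖b‖ ^ 2) : ‖a‖ ≤ ‖b‖ :=
  le_of_pow_le_pow_left₀ two_ne_zero (norm_nonneg b) h

theorem bicomm_dense {A K : Type*} [CStarAlgebra A] [NormedAddCommGroup K] [InnerProductSpace ℂ K]
    [CompleteSpace K] (ρ : A →⋆ₐ[ℂ] (K →L[ℂ] K)) {x : K →L[ℂ] K}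
    (hx : ∀ y : K →L[ℂ] K, (∀ a, ρ a * y = y * ρ a) → y * x = x * y) {ι : Type} [Fintype ι]
    (u v : ι → K) (h : ∀ a, ∑ i, ⟪u i, ρ a (v i)⟫_ℂ = 0) : ∑ i, ⟪u i, x (v i)⟫_ℂ = 0 := by
  classical
  let D : (K →L[ℂ] K) → PiLp 2 (fun _ : ι => K) →L[ℂ] PiLp 2 (fun _ : ι => K) := fun y =>
    (PiLp.continuousLinearEquiv 2 ℂ (fun _ : ι => K)).symm.toContinuousLinearMap ∘L
      ContinuousLinearMap.pi fun i => y ∘L PiLp.proj 2 _ i
  have hD : ∀ y w i, D y w i = y (w i) := fun _ _ _ => rfl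
  let L : A →ₗ[ℂ] PiLp 2 (fun _ : ι => K) :=
    { toFun := fun a => D (ρ a) (WithLp.toLp 2 v)
      map_add' := fun a b => by ext i; simp [hD]
      map_smul' := fun a b => by ext i; simp [hD] }
  let U := (LinearMap.range L).topologicalClosure
  have i1 : ∀ a, ∀ w ∈ U, D (ρ a) w ∈ U := fun a w hw =>
    map_mem_closure (D (ρ a)).continuous hw (by
      rintro _ ⟨b, rfl⟩
      exact ⟨a * b, by ext i; simp [L, hD]⟩)
  have i2 : ∀ a, ∀ w ∈ Uᗮ, D (ρ a) w ∈ Uᗮ := fun a w hw z hz => by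
    rw [← hw _ (i1 (star a) z hz), PiLp.inner_apply, PiLp.inner_apply]
    refine Finset.sum_congr rfl fun i _ => ?_
    rw [hD, hD, map_star]
    exact (ContinuousLinearMap.adjoint_inner_left _ _ _).symm
  have i3 : ∀ a w, U.starProjection (D (ρ a) w) = D (ρ a) (U.starProjection w) := fun a w =>
    Submodule.eq_starProjection_of_mem_orthogonal (i1 a _ (U.starProjection_apply_mem w)) (by
      rw [← map_sub]
      exact i2 a _ (U.sub_starProjection_mem_orthogonal w))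
  let s : ι → K →L[ℂ] PiLp 2 (fun _ : ι => K) := fun j =>
    (PiLp.continuousLinearEquiv 2 ℂ (fun _ : ι => K)).symm.toContinuousLinearMap ∘L
      ContinuousLinearMap.single ℂ (fun _ => K) j
  have hs : ∀ j ζ i, s j ζ i = (Pi.single j ζ : ι → K) i := fun _ _ _ => rfl
  have s1 : ∀ y j ζ, s j (y ζ) = D y (s j ζ) := fun y j ζ => by
    ext i
    rw [hD, hs, hs, Pi.apply_single (fun _ => (y : K → K)) (fun _ => map_zero y)]
  have s2 : ∀ w : PiLp 2 (fun _ : ι => K), w = ∑ j, s j (w j) := fun w => by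
    ext i
    simp [hs, Pi.single_apply]
  have i4 : ∀ j ζ, U.starProjection (s j (x ζ)) = D x (U.starProjection (s j ζ)) := fun j ζ => by
    ext i
    exact DFunLike.congr_fun (hx (PiLp.proj 2 _ i ∘L U.starProjection ∘L s j) fun a => by
      ext ζ
      change ρ a (U.starProjection (s j ζ) i) = U.starProjection (s j (ρ a ζ)) i
      rw [s1, i3, hD]) ζ
  have m1 : WithLp.toLp 2 v ∈ U :=
    Submodule.le_topologicalClosure _ ⟨1, by ext i; simp [L, hD]⟩
  have m2 : D x (WithLp.toLp 2 v) ∈ U := by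
    rw [← Submodule.starProjection_eq_self_iff]
    conv_rhs => rw [← Submodule.starProjection_eq_self_iff.2 m1, s2 (WithLp.toLp 2 v)]
    rw [s2 (D x _)]
    simp only [map_sum, hD, i4]
  have m3 : WithLp.toLp 2 u ∈ Uᗮ := by
    rw [Submodule.orthogonal_closure, Submodule.mem_orthogonal']
    rintro _ ⟨a, rfl⟩
    exact (PiLp.inner_apply _ _).trans (h a)
  exact (PiLp.inner_apply _ _).symm.trans ((Submodule.mem_orthogonal' _ _).1 m3 _ m2)


section Irr

variable {A K : Type*} [CStarAlgebra A] [NormedAddCommGroup K] [InnerProductSpace ℂ K]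
  [CompleteSpace K]

/-- No nontrivial closed invariant subspace. -/
def Irr (ρ : A →⋆ₐ[ℂ] (K →L[ℂ] K)) : Prop :=
  ∀ W : Submodule ℂ K, IsClosed (W : Set K) → (∀ a, ∀ v ∈ W, ρ a v ∈ W) → W = ⊥ ∨ W = ⊤

variable {ρ : A →⋆ₐ[ℂ] (K →L[ℂ] K)}

theorem Irr.ker (h : Irr ρ) {y : K →L[ℂ] K} (hy : ∀ a, Commute y (ρ a)) :
    y = 0 ∨ ∀ v, y v = 0 → v = 0 := by
  rcases h y.ker y.isClosed_ker (fun a v hv => by
    have hv' : y v = 0 := hv
    show y (ρ a v) = 0
    rw [← mul_apply_eq_comp, (hy a).eq, mul_apply_eq_comp, hv', map_zero]) with h0 | h0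
  · right
    intro v hv
    have : v ∈ y.ker := hv
    rwa [h0, Submodule.mem_bot] at this
  · left
    ext v
    have : v ∈ y.ker := by rw [h0]; trivial
    exact this

theorem apply_eq_zero_of_nonneg {P : K →L[ℂ] K} (hP : 0 ≤ P) {v : K}
    (h : (⟪v, P v⟫_ℂ).re = 0) : P v = 0 := by
  obtain ⟨R, rfl⟩ := CStarAlgebra.nonneg_iff_eq_star_mul_self.1 hP
  rw [inner_star_mul, Complex.ofReal_re] at h
  have : R v = 0 := by simpa using h
  rw [mul_apply_eq_comp, this, map_zero]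

theorem Irr.schur_sa (h : Irr ρ) {T : K →L[ℂ] K} (hT : IsSelfAdjoint T)
    (hy : ∀ a, Commute T (ρ a)) : ∃ c : ℂ, T = c • 1 := by
  rcases subsingleton_or_nontrivial K with hK | hK
  · exact ⟨0, Subsingleton.elim _ _⟩
  obtain ⟨ξ, hξ⟩ := exists_norm_eq K (zero_le_one (α := ℝ))
  set l : ℝ := (⟪ξ, T ξ⟫_ℂ).re with hl
  set S := T - (l : ℂ) • (1 : K →L[ℂ] K) with hS
  have hSs : IsSelfAdjoint S := by
    rw [hS, IsSelfAdjoint, star_sub, hT.star_eq, star_smul, star_one]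
    simp
  have hSc : ∀ a, Commute S (ρ a) := fun a =>
    (hy a).sub_left ((Commute.one_left _).smul_left _)
  have h0 : (⟪ξ, S ξ⟫_ℂ).re = 0 := by
    rw [hS, sub_apply, inner_sub_right, smul_apply, one_apply_eq_self, inner_smul_right,
      inner_self_eq_norm_sq_to_K, hξ, hl]
    simp
  have hd := CFC.posPart_sub_negPart S hSs
  have hSξ : S ξ = 0 := by
    rcases h.ker (y := S⁺) (fun a => (hSc a).cfcₙ_real _) with h1 | h1
    · rw [h1, zero_sub] at hd
      have : S⁻ ξ = 0 := apply_eq_zero_of_nonneg (CFC.negPart_nonneg S) (by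
        rw [← hd, neg_apply, inner_neg_right, Complex.neg_re, neg_eq_zero] at h0
        exact h0)
      rw [← hd, neg_apply, this, neg_zero]
    · have h2 : S⁻ = 0 := by
        ext v
        refine h1 _ ?_
        rw [← mul_apply_eq_comp, CFC.posPart_mul_negPart]
        rfl
      rw [h2, sub_zero] at hd
      have : S⁺ ξ = 0 := apply_eq_zero_of_nonneg (CFC.posPart_nonneg S) (by rwa [hd])
      rwa [hd] at this
  rcases h.ker hSc with h1 | h1
  · exact ⟨l, sub_eq_zero.1 h1⟩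
  · have := h1 ξ hSξ
    simp [this] at hξ

theorem Irr.schur (h : Irr ρ) {y : K →L[ℂ] K} (hy : ∀ a, Commute y (ρ a)) :
    ∃ c : ℂ, y = c • 1 := by
  have hy' : ∀ a, Commute (star y) (ρ a) := fun a => by
    have := (hy (star a)).star_star
    rwa [map_star, star_star] at this
  obtain ⟨c1, h1⟩ := h.schur_sa (T := y + star y) (IsSelfAdjoint.add_star_self y)
    fun a => (hy a).add_left (hy' a)
  obtain ⟨c2, h2⟩ := h.schur_sa (T := Complex.I • (y - star y)) (by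
    rw [IsSelfAdjoint, star_smul, star_sub, star_star]
    simp [smul_sub]; abel) fun a => ((hy a).sub_left (hy' a)).smul_left _
  refine ⟨(c1 - Complex.I * c2) / 2, ?_⟩
  have : (2 : ℂ) • y = (y + star y) - Complex.I • (Complex.I • (y - star y)) := by
    rw [smul_smul, Complex.I_mul_I, two_smul, neg_smul, one_smul]; abel
  rw [h1, h2, smul_smul, ← sub_smul] at this
  calc y = (1 / 2 : ℂ) • ((2 : ℂ) • y) := by rw [smul_smul]; simp
    _ = _ := by rw [this, smul_smul]; congr 1; ring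

theorem Irr.dens (h : Irr ρ) {ξ η : K} (hξ : ‖ξ‖ = 1) (hη : ⟪ξ, η⟫_ℂ = 0) {ε : ℝ} (hε : 0 < ε) :
    ∃ l : A, ‖ρ l ξ - η‖ < ε ∧ ‖ρ (star l) ξ‖ < ε := by
  let L : A →ₗ[ℝ] K × K :=
    { toFun := fun l => (ρ l ξ, ρ (star l) ξ)
      map_add' := fun a b => by simp
      map_smul' := fun r a => by
        have e : r • a = (r : ℂ) • a := (Complex.coe_smul r a).symm
        simp only [e, map_smul, star_smul, smul_apply, RingHom.id_apply, Prod.smul_mk]
        simp }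
  by_cases hm : (η, (0 : K)) ∈ closure (LinearMap.range L : Set (K × K))
  · obtain ⟨_, ⟨l, rfl⟩, hl⟩ := Metric.mem_closure_iff.1 hm ε hε
    rw [Prod.dist_eq, max_lt_iff, dist_comm, dist_eq_norm, dist_comm, dist_zero_right] at hl
    exact ⟨l, hl⟩
  exfalso
  obtain ⟨f, u, hf1, hf2⟩ := RCLike.geometric_hahn_banach_point_closed (𝕜 := ℂ)
    (LinearMap.range L).convex.closure isClosed_closure hm
  have hf3 : ∀ l, u < (f (L l)).re := fun l => hf2 _ (subset_closure ⟨l, rfl⟩)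
  have hu : u < 0 := by simpa using hf3 0
  have hf4 : ∀ l, (f (L l)).re = 0 := by
    intro l
    by_contra hne
    have := hf3 (((u - 1) / (f (L l)).re) • l)
    rw [map_smul, f.map_smul_of_tower, Complex.smul_re, smul_eq_mul, div_mul_cancel₀ _ hne] at this
    linarith
  set α := (InnerProductSpace.toDual ℂ K).symm (f ∘L ContinuousLinearMap.inl ℂ K K) with hα
  set β := (InnerProductSpace.toDual ℂ K).symm (f ∘L ContinuousLinearMap.inr ℂ K K) with hβ
  have hf : ∀ v w, f (v, w) = ⟪α, v⟫_ℂ + ⟪β, w⟫_ℂ := by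
    intro v w
    rw [hα, hβ, InnerProductSpace.toDual_symm_apply, InnerProductSpace.toDual_symm_apply]
    simp [← map_add]
  have hre : ∀ l, (⟪α, ρ l ξ⟫_ℂ + ⟪ξ, ρ l β⟫_ℂ).re = 0 := by
    intro l
    have := hf4 l
    rw [show L l = (ρ l ξ, ρ (star l) ξ) from rfl, hf, map_star, inner_star_right,
      ← inner_conj_symm (ρ l β), Complex.add_re, Complex.conj_re] at this
    rw [Complex.add_re, this]
  have hΦ : ∀ l, ⟪α, ρ l ξ⟫_ℂ + ⟪ξ, ρ l β⟫_ℂ = 0 := by
    intro l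
    refine Complex.ext (hre l) ?_
    have := hre (Complex.I • l)
    rw [map_smul, smul_apply, smul_apply, inner_smul_right, inner_smul_right, ← mul_add,
      Complex.I_mul_re, neg_eq_zero] at this
    exact this
  have := bicomm_dense ρ (x := InnerProductSpace.rankOne ℂ η ξ) (fun y hy => by
    obtain ⟨c, rfl⟩ := h.schur (y := y) fun a => (hy a).symm
    simp) ![α, ξ] ![ξ, β] (fun a => by simpa using hΦ a)
  simp only [Fin.sum_univ_two, Matrix.cons_val_zero, Matrix.cons_val_one,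
    InnerProductSpace.rankOne_apply, inner_smul_right, hη, inner_self_eq_norm_sq_to_K, hξ] at this
  rw [hf, inner_zero_right, add_zero] at hf1
  simp at this
  rw [this] at hf1
  simp at hf1
  linarith

end Irr

section Res

variable {K : Type*} [NormedAddCommGroup K] [InnerProductSpace ℂ K] [CompleteSpace K]

theorem re_inner_res (k m : K →L[ℂ] K) (v : K) :
    (⟪v, (1 + (star k * k + star m * m)) v⟫_ℂ).re = ‖v‖ ^ 2 + (‖k v‖ ^ 2 + ‖m v‖ ^ 2) := by
  rw [add_apply, add_apply, inner_add_right, inner_add_right, inner_star_mul, inner_star_mul,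
    one_apply_eq_self, inner_self_eq_norm_sq_to_K]
  simp [← Complex.ofReal_pow]

theorem res_bounds {k m a : K →L[ℂ] K} (h : (1 + (star k * k + star m * m)) * a = 1) :
    ‖a‖ ≤ 1 ∧ ‖k * a‖ ≤ 1 ∧ ‖m * a‖ ≤ 1 := by
  have key : ∀ η, ‖a η‖ ≤ ‖η‖ ∧ ‖k (a η)‖ ≤ ‖η‖ ∧ ‖m (a η)‖ ≤ ‖η‖ := by
    intro η
    have h1 := re_inner_res k m (a η)
    rw [← mul_apply_eq_comp, h, one_apply_eq_self] at h1
    have h2 : (⟪a η, η⟫_ℂ).re ≤ ‖a η‖ * ‖η‖ :=
      (Complex.re_le_norm _).trans (norm_inner_le_norm _ _)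
    have h3 : ‖a η‖ ≤ ‖η‖ := by
      by_contra hc
      push Not at hc
      nlinarith [norm_nonneg η, sq_nonneg ‖k (a η)‖, sq_nonneg ‖m (a η)‖]
    have h4 : ‖a η‖ * ‖η‖ ≤ ‖η‖ ^ 2 := by nlinarith [norm_nonneg η]
    refine ⟨h3, ?_, ?_⟩
    · exact le_of_sq_le_sq_nonneg (by nlinarith [sq_nonneg ‖a η‖, sq_nonneg ‖m (a η)‖])
    · exact le_of_sq_le_sq_nonneg (by nlinarith [sq_nonneg ‖a η‖, sq_nonneg ‖k (a η)‖])
  refine ⟨a.opNorm_le_bound zero_le_one fun η => ?_, (k * a).opNorm_le_bound zero_le_one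
    fun η => ?_, (m * a).opNorm_le_bound zero_le_one fun η => ?_⟩
  · rw [one_mul]; exact (key η).1
  · rw [one_mul]; exact (key η).2.1
  · rw [one_mul]; exact (key η).2.2

theorem res_fix {k m a : K →L[ℂ] K} (h : (1 + (star k * k + star m * m)) * a = 1) (ξ : K) :
    ‖ξ - a ξ‖ ^ 2 ≤ ‖k ξ‖ ^ 2 + ‖m ξ‖ ^ 2 := by
  set d := ξ - a ξ with hd
  have h1 := re_inner_res k m d
  have h2 : (1 + (star k * k + star m * m)) d = star k (k ξ) + star m (m ξ) := by
    rw [hd, map_sub, ← mul_apply_eq_comp _ a, h]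
    simp
  rw [h2, inner_add_right, inner_star_right, inner_star_right, Complex.add_re] at h1
  have h3 : (⟪k d, k ξ⟫_ℂ).re ≤ ‖k d‖ * ‖k ξ‖ :=
    (Complex.re_le_norm _).trans (norm_inner_le_norm _ _)
  have h4 : (⟪m d, m ξ⟫_ℂ).re ≤ ‖m d‖ * ‖m ξ‖ :=
    (Complex.re_le_norm _).trans (norm_inner_le_norm _ _)
  nlinarith [sq_nonneg (‖k d‖ - ‖k ξ‖), sq_nonneg (‖m d‖ - ‖m ξ‖), sq_nonneg ‖k d‖,
    sq_nonneg ‖m d‖, sq_nonneg ‖k ξ‖, sq_nonneg ‖m ξ‖]

end Res

end Vale.Agent.P070
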