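import Vale.Agent.P070.Irr

namespace Vale.Agent.P070

open Filter Topology
open scoped InnerProductSpace ComplexOrder

variable {A H K : Type*} [CStarAlgebra A] [NormedAddCommGroup K] [InnerProductSpace ℂ K]
  [CompleteSpace K] [NormedAddCommGroup H] [InnerProductSpace ℂ H] [CompleteSpace H]

theorem isUnit_res (k m : A) : IsUnit (1 + (star k * k + star m * m)) := by
  let _ := CStarAlgebra.spectralOrder A
  let _ := CStarAlgebra.spectralOrderedRing A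
  exact CStarAlgebra.isUnit_of_le 1
    (le_add_of_nonneg_right (add_nonneg (star_mul_self_nonneg k) (star_mul_self_nonneg m)))
    isStrictlyPositive_one

theorem exists_defect {z : A} (hz : ‖z‖ ≤ 1) : ∃ g : A, 1 - star z * z = star g * g := by
  let _ := CStarAlgebra.spectralOrder A
  let _ := CStarAlgebra.spectralOrderedRing A
  refine CStarAlgebra.nonneg_iff_eq_star_mul_self.1 (sub_nonneg.2 ?_)
  refine (CStarAlgebra.norm_le_one_iff_of_nonneg _ (star_mul_self_nonneg z)).1 ?_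
  rw [CStarRing.norm_star_mul_self]
  nlinarith [norm_nonneg z]

theorem excise (ι : A →⋆ₐ[ℂ] (H →L[ℂ] H)) (hι : ∀ a, ‖ι a‖ = ‖a‖)
    {ρ : A →⋆ₐ[ℂ] (K →L[ℂ] K)} (h : Irr ρ) {ξ : K} (hξ : ‖ξ‖ = 1) {x : A}
    (hx : ⟪ξ, ρ x ξ⟫_ℂ = 0) {θ θ' : ℝ} (hθ : 0 < θ) (hθ' : 0 < θ') :
    ∃ a : A, star a = a ∧ ‖a‖ ≤ 1 ∧ ‖a * x * a‖ ≤ θ ∧ ‖ρ a ξ - ξ‖ < θ' := by
  set μ : ℝ := 2 / θ with hμ
  have hμ0 : 0 < μ := by positivity
  obtain ⟨l, hl1, hl2⟩ := h.dens hξ hx (ε := θ' / (2 * μ)) (by positivity)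
  set k : A := (μ : ℂ) • (x - l) with hk
  set m : A := (μ : ℂ) • star l with hm
  obtain ⟨b, hb⟩ := isUnit_res k m
  have hba : (1 + (star k * k + star m * m)) * (↑b⁻¹ : A) = 1 := by rw [← hb]; simp
  have hab : (↑b⁻¹ : A) * (1 + (star k * k + star m * m)) = 1 := by rw [← hb]; simp
  generalize (↑b⁻¹ : A) = a at hba hab
  have hsa : star a = a := by
    have := congrArg star hba
    simp only [star_mul, star_add, star_one, star_star] at this
    calc star a = star a * ((1 + (star k * k + star m * m)) * a) := by rw [hba, mul_one]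
      _ = a := by rw [← mul_assoc, this, one_mul]
  have h1 := congrArg ι hba
  simp only [map_mul, map_add, map_one, map_star] at h1
  obtain ⟨n1, n2, n3⟩ := res_bounds h1
  rw [← map_mul, hι] at n2 n3
  rw [hι] at n1
  have h2 := congrArg ρ hba
  simp only [map_mul, map_add, map_one, map_star] at h2
  have h3 := res_fix h2 ξ
  have nμ : ‖(μ : ℂ)‖ = μ := by simp [hμ0.le]
  rw [hk, smul_mul_assoc, norm_smul, nμ] at n2
  rw [hm, smul_mul_assoc, norm_smul, nμ] at n3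
  have hμθ : μ * θ = 2 := by rw [hμ]; field_simp
  refine ⟨a, hsa, n1, ?_, ?_⟩
  · have e : a * x * a = a * ((x - l) * a) + star (star l * a) * a := by
      rw [star_mul, star_star, hsa]; noncomm_ring
    rw [e]
    have i1 : ‖a * ((x - l) * a)‖ ≤ ‖(x - l) * a‖ := norm_mul_le_right n1
    have i2 : ‖star (star l * a) * a‖ ≤ ‖star l * a‖ := by
      refine (norm_mul_le_left n1).trans_eq (norm_star _)
    have i3 := norm_add_le (a * ((x - l) * a)) (star (star l * a) * a)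
    have i4 : μ * (‖(x - l) * a‖ + ‖star l * a‖) ≤ μ * θ := by rw [hμθ]; linarith
    have := le_of_mul_le_mul_left i4 hμ0
    linarith
  · have e1 : ‖ρ k ξ‖ < θ' / 2 := by
      rw [hk, map_smul, smul_apply, norm_smul, nμ, map_sub, sub_apply, norm_sub_rev]
      rw [lt_div_iff₀ (by positivity)] at hl1
      linarith
    have e2 : ‖ρ m ξ‖ < θ' / 2 := by
      rw [hm, map_smul, smul_apply, norm_smul, nμ]
      rw [lt_div_iff₀ (by positivity)] at hl2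
      linarith
    rw [norm_sub_rev]
    refine lt_of_pow_lt_pow_left₀ 2 hθ'.le (h3.trans_lt ?_)
    nlinarith [norm_nonneg (ρ k ξ), norm_nonneg (ρ m ξ)]

theorem halving (ρ : A →⋆ₐ[ℂ] (K →L[ℂ] K)) {s0 s1 : A} (h0 : star s0 * s0 = 1)
    (h1 : star s1 * s1 = 1) (hs : s0 * star s0 + s1 * star s1 = 1) (n : ℕ) (v : K) :
    ∃ r : A, star r * r = 1 ∧ ‖ρ (star r) v‖ ^ 2 ≤ (1 / 2) ^ n * ‖v‖ ^ 2 := by
  induction n with
  | zero => exact ⟨1, by simp, by simp⟩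
  | succ n ih =>
    obtain ⟨r, hr, hv⟩ := ih
    set w := ρ (star r) v with hw
    have e : ‖ρ (star s0) w‖ ^ 2 + ‖ρ (star s1) w‖ ^ 2 = ‖w‖ ^ 2 := by
      have f0 := inner_star_mul (ρ (star s0)) w
      have f1 := inner_star_mul (ρ (star s1)) w
      rw [← map_star, star_star, ← map_mul] at f0 f1
      apply Complex.ofReal_injective
      rw [Complex.ofReal_add, ← f0, ← f1, ← inner_add_right, ← add_apply, ← map_add, hs, map_one,
        one_apply_eq_self, inner_self_eq_norm_sq_to_K]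
      simp
    have hi : ∀ s : A, star s * s = 1 → star (r * s) * (r * s) = 1 := fun s hs => by
      rw [star_mul, mul_assoc, ← mul_assoc (star r), hr, one_mul, hs]
    have ha : ∀ s : A, ρ (star (r * s)) v = ρ (star s) w := fun s => by
      rw [star_mul, map_mul, mul_apply_eq_comp]
    rcases le_total (‖ρ (star s0) w‖ ^ 2) (‖ρ (star s1) w‖ ^ 2) with h | h
    · exact ⟨r * s0, hi _ h0, by rw [ha, pow_succ (1 / 2 : ℝ)]; nlinarith⟩
    · exact ⟨r * s1, hi _ h1, by rw [ha, pow_succ (1 / 2 : ℝ)]; nlinarith⟩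

theorem norm_rep_apply_le (ρ : A →⋆ₐ[ℂ] (K →L[ℂ] K)) {a : A} (ha : ‖a‖ ≤ 1) (v : K) :
    ‖ρ a v‖ ≤ ‖v‖ :=
  norm_apply_le_of_le_one ((NonUnitalStarAlgHom.norm_apply_le ρ a).trans ha) v

theorem key_aux (ι : A →⋆ₐ[ℂ] (H →L[ℂ] H)) (hι : ∀ a, ‖ι a‖ = ‖a‖)
    (hPI : ∀ a : A, ‖a‖ ≤ 1 → ∀ θ : ℝ, 0 < θ → θ ≤ 1 → 2 - θ ^ 2 < ‖1 + a‖ →
      ∃ y : A, star y * y = 1 ∧ ‖(1 - a) * y‖ ≤ 2 * θ)
    {s0 s1 : A} (h0 : star s0 * s0 = 1) (h1 : star s1 * s1 = 1) (h01 : star s0 * s1 = 0)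
    (hs : s0 * star s0 + s1 * star s1 = 1)
    {ρ : A →⋆ₐ[ℂ] (K →L[ℂ] K)} (h : Irr ρ) {ξ : K} (hξ : ‖ξ‖ = 1) {x : A}
    (hx : ⟪ξ, ρ x ξ⟫_ℂ = 0) {θ : ℝ} (hθ : 0 < θ) (hθ1 : θ ≤ 1) :
    ∃ s y : A, star s * s = 1 ∧ star y * y = 1 ∧ star s * y = 0 ∧ ‖ρ s ξ - ξ‖ ≤ 4 * θ ∧
      ‖star s * x * s‖ ≤ (9 + 16 * ‖x‖) * θ := by
  obtain ⟨a, hsa, ha, hax, haξ⟩ := excise ι hι h hξ hx hθ (pow_pos hθ 2)
  have hn : 2 - θ ^ 2 < ‖1 + a‖ := by
    have i1 := (ρ (1 + a)).le_opNorm ξ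
    have i2 := NonUnitalStarAlgHom.norm_apply_le ρ (1 + a)
    have i3 : (2 : ℂ) • ξ = ρ (1 + a) ξ - (ρ a ξ - ξ) := by
      rw [map_add, map_one, add_apply, one_apply_eq_self, two_smul]; abel
    have i4 := norm_sub_le (ρ (1 + a) ξ) (ρ a ξ - ξ)
    rw [← i3, norm_smul, hξ] at i4
    rw [hξ] at i1
    simp only [Complex.norm_ofNat] at i4
    linarith
  obtain ⟨y0, hy0, hay0⟩ := hPI a ha θ hθ hθ1 hn
  obtain ⟨n, hn⟩ := exists_pow_lt_of_lt_one (pow_pos hθ 4) (by norm_num : (1 / 2 : ℝ) < 1)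
  obtain ⟨r, hr, hrv⟩ := halving ρ h0 h1 hs n (ρ (star y0) ξ)
  have hy1 : star (y0 * r) * (y0 * r) = 1 := by
    rw [star_mul, mul_assoc, ← mul_assoc (star y0), hy0, one_mul, hr]
  have hay1 : ‖(1 - a) * (y0 * r)‖ ≤ 2 * θ := by
    rw [← mul_assoc]; exact (norm_mul_le_left (norm_le_of_iso hr)).trans hay0
  have hy1ξ : ‖ρ (star (y0 * r)) ξ‖ ≤ θ ^ 2 := by
    rw [star_mul, map_mul, mul_apply_eq_comp]
    have i1 : ‖ρ (star y0) ξ‖ ≤ 1 := by
      rw [← hξ]; exact norm_rep_apply_le ρ (by rw [norm_star]; exact norm_le_of_iso hy0) ξ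
    have i2 : ‖ρ (star y0) ξ‖ ^ 2 ≤ 1 := by nlinarith [norm_nonneg (ρ (star y0) ξ)]
    refine le_of_pow_le_pow_left₀ two_ne_zero (by positivity) (hrv.trans ?_)
    have : (0 : ℝ) ≤ (1 / 2) ^ n := by positivity
    nlinarith
  generalize y0 * r = y at hy1 hay1 hy1ξ
  have ny : ‖y‖ ≤ 1 := norm_le_of_iso hy1
  have nsy : ‖star y‖ ≤ 1 := by rwa [norm_star]
  have hq : ‖1 - y * star y‖ ≤ 1 := by
    refine norm_le_of_proj (by simp) ?_
    rw [sub_mul, one_mul, mul_sub, mul_one, mul_assoc, ← mul_assoc (star y), hy1, one_mul]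
    abel
  set z := (1 - y * star y) * a with hz
  have nz : ‖z‖ ≤ 1 := norm_mul_le_one' hq ha
  have hyz : star y * z = 0 := by
    rw [hz, ← mul_assoc, mul_sub, mul_one, ← mul_assoc, hy1, one_mul, sub_self, zero_mul]
  have hzy : star z * y = 0 := by
    have := congrArg star hyz
    rwa [star_mul, star_star, star_zero] at this
  obtain ⟨g, hg⟩ := exists_defect nz
  have hA : ∀ {p q c : A}, p * q = c → ∀ x : A, p * (q * x) = c * x := fun h x => by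
    rw [← mul_assoc, h]
  have ng : ‖g‖ ≤ 1 := by
    have i1 : ‖ι g‖ ≤ 1 := by
      refine (ι g).opNorm_le_bound zero_le_one fun η => ?_
      rw [one_mul]
      have f0 := inner_star_mul (ι g) η
      rw [← map_star, ← map_mul, ← hg, map_sub, map_one, sub_apply, inner_sub_right, map_mul,
        map_star, inner_star_mul, one_apply_eq_self, inner_self_eq_norm_sq_to_K] at f0
      have f1 : ‖η‖ ^ 2 - ‖ι z η‖ ^ 2 = ‖ι g η‖ ^ 2 := by
        apply Complex.ofReal_injective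
        rw [← f0]; simp
      exact le_of_sq_le_sq_nonneg (by nlinarith [sq_nonneg ‖ι z η‖])
    rwa [hι] at i1
  have hss : star (z + y * s0 * g) * (z + y * s0 * g) = 1 := by
    simp only [star_add, star_mul, add_mul, mul_add, mul_assoc, hA hy1, hA hzy, hyz, hA h0,
      one_mul, zero_mul, mul_zero, ← hg]
    abel
  refine ⟨z + y * s0 * g, y * s1, hss, ?_, ?_, ?_, ?_⟩
  · rw [star_mul, mul_assoc, ← mul_assoc (star y), hy1, one_mul, h1]
  · simp only [star_add, star_mul, add_mul, mul_assoc, hA hy1, hA hzy, h01,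
      one_mul, zero_mul, mul_zero, add_zero]
  · have i1 : ‖ρ z ξ - ξ‖ ≤ 2 * θ ^ 2 := by
      have e : ρ z ξ - ξ = ρ (1 - y * star y) (ρ a ξ - ξ) - ρ y (ρ (star y) ξ) := by
        simp only [hz, map_mul, map_sub, map_one, mul_apply_eq_comp, sub_apply, one_apply_eq_self]
        abel
      rw [e]
      linarith [norm_sub_le (ρ (1 - y * star y) (ρ a ξ - ξ)) (ρ y (ρ (star y) ξ)),
        norm_rep_apply_le ρ hq (ρ a ξ - ξ), norm_rep_apply_le ρ ny (ρ (star y) ξ)]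
    have i2 : ‖ρ g ξ‖ ≤ 2 * θ := by
      have f0 := inner_star_mul (ρ g) ξ
      rw [← map_star, ← map_mul, ← hg, map_sub, map_one, sub_apply, inner_sub_right, map_mul,
        map_star, inner_star_mul, one_apply_eq_self, inner_self_eq_norm_sq_to_K] at f0
      have f1 : ‖ξ‖ ^ 2 - ‖ρ z ξ‖ ^ 2 = ‖ρ g ξ‖ ^ 2 := by
        apply Complex.ofReal_injective
        rw [← f0]; simp
      have f2 := abs_norm_sub_norm_le (ρ z ξ) ξ
      have f3 := norm_rep_apply_le ρ nz ξ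
      rw [hξ] at f1 f2 f3
      have f4 := (abs_le.1 f2).1
      refine le_of_pow_le_pow_left₀ two_ne_zero (by positivity) ?_
      nlinarith [norm_nonneg (ρ z ξ)]
    have e : ρ (z + y * s0 * g) ξ - ξ = (ρ z ξ - ξ) + ρ (y * s0) (ρ g ξ) := by
      rw [map_add, add_apply, map_mul ρ (y * s0), mul_apply_eq_comp]; abel
    rw [e]
    have i3 := norm_rep_apply_le ρ (norm_mul_le_one' ny (norm_le_of_iso h0)) (ρ g ξ)
    have i4 := norm_add_le (ρ z ξ - ξ) (ρ (y * s0) (ρ g ξ))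
    nlinarith
  · set κ := star y * a - s0 * g with hκ
    have nκ : ‖κ‖ ≤ 2 := by
      linarith [norm_sub_le (star y * a) (s0 * g), norm_mul_le_one' nsy ha,
        norm_mul_le_one' (norm_le_of_iso h0) ng]
    set m := 1 - y * κ with hm
    have nm : ‖m‖ ≤ 3 := by
      linarith [norm_sub_le 1 (y * κ), norm_one_le' (R := A), norm_mul_le_right (y := κ) ny]
    set e := (1 - a) * y * κ with he
    have ne : ‖e‖ ≤ 4 * θ := by
      have := norm_mul_le ((1 - a) * y) κ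
      nlinarith [norm_nonneg ((1 - a) * y), norm_nonneg κ]
    have hse : z + y * s0 * g = a * m - e := by
      rw [hz, hm, he, hκ]; noncomm_ring
    have ns := norm_le_of_iso hss
    generalize z + y * s0 * g = s at hse ns
    have e1 : star s * x * s = star m * (a * x * a) * m - star s * x * e -
        star e * x * (a * m) := by
      have : star s = star m * a - star e := by rw [hse, star_sub, star_mul, hsa]
      conv_lhs => rw [hse]
      rw [← hse, this, hse]; noncomm_ring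
    have n1 : ‖star m * (a * x * a) * m‖ ≤ 3 * θ * 3 := by
      refine (norm_mul_le _ _).trans (mul_le_mul ((norm_mul_le _ _).trans
        (mul_le_mul (by rwa [norm_star]) hax (norm_nonneg _) (by norm_num))) nm (norm_nonneg _)
        (by positivity))
    have n2 : ‖star s * x * e‖ ≤ ‖x‖ * (4 * θ) :=
      (norm_mul_le _ _).trans (mul_le_mul (norm_mul_le_right (by rwa [norm_star])) ne
        (norm_nonneg _) (norm_nonneg _))
    have n3 : ‖star e * x * (a * m)‖ ≤ 4 * θ * ‖x‖ * 3 :=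
      (norm_mul_le _ _).trans (mul_le_mul ((norm_mul_le _ _).trans
        (mul_le_mul_of_nonneg_right (by rwa [norm_star]) (norm_nonneg _)))
        ((norm_mul_le_right ha).trans nm) (norm_nonneg _) (by positivity))
    rw [e1]
    have := (norm_sub_le _ _).trans (add_le_add ((norm_sub_le _ _).trans (add_le_add n1 n2)) n3)
    linarith

theorem key (ι : A →⋆ₐ[ℂ] (H →L[ℂ] H)) (hι : ∀ a, ‖ι a‖ = ‖a‖)
    (hPI : ∀ a : A, ‖a‖ ≤ 1 → ∀ θ : ℝ, 0 < θ → θ ≤ 1 → 2 - θ ^ 2 < ‖1 + a‖ →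
      ∃ y : A, star y * y = 1 ∧ ‖(1 - a) * y‖ ≤ 2 * θ)
    {s0 s1 : A} (h0 : star s0 * s0 = 1) (h1 : star s1 * s1 = 1) (h01 : star s0 * s1 = 0)
    (hs : s0 * star s0 + s1 * star s1 = 1)
    {ρ : A →⋆ₐ[ℂ] (K →L[ℂ] K)} (h : Irr ρ) {ξ : K} (hξ : ‖ξ‖ = 1) (x : A) {ε : ℝ} (hε : 0 < ε) :
    ∃ s y : A, star s * s = 1 ∧ star y * y = 1 ∧ star s * y = 0 ∧ ‖ρ s ξ - ξ‖ < ε ∧
      ∃ c : ℂ, ‖star s * x * s - c • (1 : A)‖ < ε := by
  set c := ⟪ξ, ρ x ξ⟫_ℂ with hc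
  set x' := x - c • (1 : A) with hx'
  have hx : ⟪ξ, ρ x' ξ⟫_ℂ = 0 := by
    rw [hx', map_sub, map_smul, map_one, sub_apply, inner_sub_right, smul_apply, one_apply_eq_self,
      inner_smul_right, inner_self_eq_norm_sq_to_K, hξ]
    simp [hc]
  have hp : 0 < 10 + 16 * ‖x'‖ := by positivity
  set θ := min 1 (ε / (10 + 16 * ‖x'‖)) with hθ
  have hθ0 : 0 < θ := lt_min one_pos (by positivity)
  have hθ2 : θ * (10 + 16 * ‖x'‖) ≤ ε := by
    rw [← le_div_iff₀ hp]; exact min_le_right _ _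
  obtain ⟨s, y, a1, a2, a3, a4, a5⟩ := key_aux ι hι hPI h0 h1 h01 hs h hξ hx hθ0 (min_le_left _ _)
  have hxθ : 0 ≤ ‖x'‖ * θ := by positivity
  refine ⟨s, y, a1, a2, a3, by nlinarith, c, ?_⟩
  have : star s * x * s - c • (1 : A) = star s * x' * s := by
    rw [hx', mul_sub, sub_mul, mul_smul_comm, smul_mul_assoc, mul_one, a1]
  rw [this]
  nlinarith

theorem PI.abs {B : StarSubalgebra ℂ (H →L[ℂ] H)} (hB : PI B) (a : B) (ha : ‖a‖ ≤ 1) (θ : ℝ)
    (hθ : 0 < θ) (hθ1 : θ ≤ 1) (hn : 2 - θ ^ 2 < ‖1 + a‖) :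
    ∃ y : B, star y * y = 1 ∧ ‖(1 - a) * y‖ ≤ 2 * θ := by
  have ha' : ‖(a : H →L[ℂ] H)‖ ≤ 1 := ha
  have hn' : 2 - θ ^ 2 < ‖1 + (a : H →L[ℂ] H)‖ := hn
  obtain ⟨ζ, hζ, hζ2⟩ : ∃ ζ : H, ‖ζ‖ = 1 ∧ 2 - θ ^ 2 < ‖(1 + (a : H →L[ℂ] H)) ζ‖ := by
    by_contra hc
    push Not at hc
    exact absurd (ContinuousLinearMap.opNorm_le_of_unit_norm (by nlinarith) hc) (not_le.2 hn')
  have h1 : 1 - 2 * θ ^ 2 < (⟪ζ, (a : H →L[ℂ] H) ζ⟫_ℂ).re := by
    rw [add_apply, one_apply_eq_self] at hζ2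
    have i1 := norm_add_sq (𝕜 := ℂ) ζ ((a : H →L[ℂ] H) ζ)
    have i2 := norm_apply_le_of_le_one ha' ζ
    rw [hζ] at i1 i2
    have i3 : (2 - θ ^ 2) ^ 2 < ‖ζ + (a : H →L[ℂ] H) ζ‖ ^ 2 :=
      pow_lt_pow_left₀ hζ2 (by nlinarith) two_ne_zero
    have i4 : ‖(a : H →L[ℂ] H) ζ‖ ^ 2 ≤ 1 := by nlinarith [norm_nonneg ((a : H →L[ℂ] H) ζ)]
    simp only [RCLike.re_to_complex] at i1
    nlinarith [sq_nonneg (θ ^ 2)]
  obtain ⟨y, hy, hy1, hy2⟩ := hB a a.2 _ ζ hζ h1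
  refine ⟨⟨y, hy⟩, Subtype.ext hy1, ?_⟩
  show ‖(1 - (a : H →L[ℂ] H)) * y‖ ≤ 2 * θ
  refine ContinuousLinearMap.opNorm_le_bound _ (by positivity) fun η => ?_
  rw [mul_apply_eq_comp, sub_apply, one_apply_eq_self]
  have i1 := norm_sub_sq (𝕜 := ℂ) (y η) ((a : H →L[ℂ] H) (y η))
  have i2 := norm_apply_le_of_le_one ha' (y η)
  have i3 := hy2 η
  rw [norm_iso_apply hy1] at i1 i2
  simp only [RCLike.re_to_complex] at i1
  have i4 : ‖(a : H →L[ℂ] H) (y η)‖ ^ 2 ≤ ‖η‖ ^ 2 :=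
    pow_le_pow_left₀ (norm_nonneg _) i2 2
  refine le_of_pow_le_pow_left₀ two_ne_zero (by positivity) ?_
  nlinarith

end Vale.Agent.P070
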