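import Vale.Agent.P070.Trans
import Vale.Agent.P070.Base

namespace Vale.Agent.P070

open Filter Topology Set
open scoped InnerProductSpace

theorem exists_seq_hist {α : Type*} (P : α → Prop) (R : ℕ → α → α → α → Prop) (i : ℕ → ℕ)
    (hi : ∀ n, i n ≤ n) (x0 : α) (h0 : P x0)
    (hstep : ∀ n a b, P a → P b → ∃ y, P y ∧ R n a b y) :
    ∃ f : ℕ → α, (∀ n, P (f n)) ∧ ∀ n, R n (f (i n)) (f n) (f (n + 1)) := by
  choose F hF1 hF2 using hstep
  let G : ∀ n : ℕ, (∀ m, m < n → {x // P x}) → {x // P x} := fun n =>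
    match n with
    | 0 => fun _ => ⟨x0, h0⟩
    | k + 1 => fun prev => ⟨F k _ _ (prev (i k) (Nat.lt_succ_of_le (hi k))).2
        (prev k (Nat.lt_succ_self k)).2, hF1 _ _ _ _ _⟩
  let f : ℕ → {x // P x} := (wellFounded_lt (α := ℕ)).fix G
  refine ⟨fun n => f n, fun n => (f n).2, fun n => ?_⟩
  have : f (n + 1) = G (n + 1) fun m _ => f m := (wellFounded_lt (α := ℕ)).fix_eq G (n + 1)
  simp only [this]
  exact hF2 _ _ _ _ _

theorem exists_index (C : Type) : ∃ (T : Type 1) (_ : LinearOrder T) (_ : WellFoundedLT T)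
    (lab : T → C), ∀ S : Set T, S.Countable → ∀ c, ∃ t, lab t = c ∧ S ⊆ Iio t := by
  obtain ⟨_, _⟩ := exists_wellFoundedLT (α := C)
  refine ⟨Ordinal.{0} ×ₗ C, inferInstance, inferInstance, fun t => (ofLex t).2, fun S hS c => ?_⟩
  have h1 : ((fun t : Ordinal.{0} ×ₗ C => (ofLex t).1) '' S).Countable := hS.image _
  have := h1.to_subtype
  obtain ⟨a, ha⟩ := Ordinal.bddAbove_of_small
    (s := (fun t : Ordinal.{0} ×ₗ C => (ofLex t).1) '' S)
  refine ⟨toLex (Order.succ a, c), rfl, fun t ht => ?_⟩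
  exact Prod.Lex.lt_iff.2 (Or.inl (Order.lt_succ_of_le (ha ⟨t, ht, rfl⟩)))

section Map

variable {A A' : Type*} [CStarAlgebra A] [CStarAlgebra A']

theorem NS.map {t : ℕ → A} (h : NS t) (φ : A →⋆ₐ[ℂ] A') : NS fun n => φ (t n) :=
  ⟨fun n => by rw [← map_star, ← map_mul, h.iso, map_one],
    fun n => by rw [← map_star, ← map_mul, ← map_mul, h.nest]⟩

theorem pr_map (t : ℕ → A) (φ : A →⋆ₐ[ℂ] A') (n : ℕ) : pr (fun n => φ (t n)) n = φ (pr t n) := by
  simp [pr, map_star]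

theorem norm_map_sc (φ : A →⋆ₐ[ℂ] A') (a x b : A) (c : ℂ) :
    ‖star (φ a) * φ x * φ b - c • (1 : A')‖ ≤ ‖star a * x * b - c • (1 : A)‖ := by
  have := NonUnitalStarAlgHom.norm_apply_le φ (star a * x * b - c • (1 : A))
  simpa [map_star] using this

end Map

section Rep

variable {A K K' : Type*} [CStarAlgebra A] [NormedAddCommGroup K] [InnerProductSpace ℂ K]
  [CompleteSpace K] [NormedAddCommGroup K'] [InnerProductSpace ℂ K'] [CompleteSpace K']

theorem same_state {e : ℕ → A} (he : NS e) (hp : ∀ x, ApxSc e x) (ρ : A →⋆ₐ[ℂ] (K →L[ℂ] K))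
    (ρ' : A →⋆ₐ[ℂ] (K' →L[ℂ] K')) {ζ : K} {ζ' : K'} (h1 : ‖ζ‖ = 1) (h2 : ‖ζ'‖ = 1)
    (f1 : ∀ n, ρ (pr e n) ζ = ζ) (f2 : ∀ n, ρ' (pr e n) ζ' = ζ') (x : A) :
    ⟪ζ, ρ x ζ⟫_ℂ = ⟪ζ', ρ' x ζ'⟫_ℂ := by
  rw [← sub_eq_zero, ← norm_eq_zero]
  refine le_antisymm (le_of_forall_pos_le_add fun ε hε => ?_) (norm_nonneg _)
  obtain ⟨n, c, hn⟩ := hp x (ε / 2) (half_pos hε)
  have a1 := approx_inner (he.map ρ) ((norm_map_sc ρ _ x _ c).trans_lt hn)
    (a := ζ) (b := ζ) (by rw [pr_map, f1]) (by rw [pr_map, f1])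
  have a2 := approx_inner (he.map ρ') ((norm_map_sc ρ' _ x _ c).trans_lt hn)
    (a := ζ') (b := ζ') (by rw [pr_map, f2]) (by rw [pr_map, f2])
  rw [inner_self_eq_norm_sq_to_K, h1] at a1
  rw [inner_self_eq_norm_sq_to_K, h2] at a2
  have := norm_sub_le_norm_sub_add_norm_sub ⟪ζ, ρ x ζ⟫_ℂ c ⟪ζ', ρ' x ζ'⟫_ℂ
  rw [norm_sub_rev c] at this
  simp at a1 a2
  linarith

theorem transfer_vec [Nontrivial K'] (ι : A →⋆ₐ[ℂ] (K' →L[ℂ] K')) (hι : ∀ a, ‖ι a‖ = ‖a‖)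
    {c d : ℕ → A} (hc : NS c) (hd : NS d) (hp : ∀ x, ApxSc d x) {x : A} (hx : ¬ Sm c d x)
    (ρ : A →⋆ₐ[ℂ] (K →L[ℂ] K)) {ζ : K} (h1 : ‖ζ‖ = 1) (f1 : ∀ n, ρ (pr d n) ζ = ζ) :
    ∃ η : K, ‖η‖ = 1 ∧ ∀ n, ρ (pr c n) η = η := by
  obtain ⟨δ, hδ, hx⟩ := not_sm hc hd hx
  obtain ⟨η₀, hη₀⟩ := exists_norm_eq K' (zero_le_one (α := ℝ))
  have key : ∀ m, δ ≤ ‖ρ (pr c m) (ρ x ζ)‖ := by
    intro m
    have e0 : ‖ρ (pr c m) (ρ x ζ)‖ = ‖ρ (star (c m) * x) ζ‖ := by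
      rw [pr, map_mul, mul_apply_eq_comp, norm_iso_apply ((hc.map ρ).iso m), map_mul,
        mul_apply_eq_comp]
    rw [e0]
    refine le_of_pow_le_pow_left₀ two_ne_zero (norm_nonneg _)
      (le_of_forall_pos_le_add fun ε hε => ?_)
    obtain ⟨n, l, hn⟩ := hp (star (star (c m) * x) * (star (c m) * x)) (ε / 2) (half_pos hε)
    have hm := hx m n
    generalize star (c m) * x = y at hn hm
    have e : star (d n) * (star y * y) * d n = star (y * d n) * 1 * (y * d n) := by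
      simp only [star_mul, mul_assoc, one_mul]
    rw [e] at hn
    have a1 := (norm_map_sc ι _ _ _ l).trans_lt hn
    have a2 := (norm_map_sc ρ _ _ _ l).trans_lt hn
    rw [map_one, mul_one] at a1 a2
    have hz : ρ (d n) (ρ (star (d n)) ζ) = ζ := by
      rw [← mul_apply_eq_comp, ← map_mul]; exact f1 n
    have hz1 : ‖ρ (star (d n)) ζ‖ = 1 := by
      rw [← norm_iso_apply ((hd.map ρ).iso n), hz, h1]
    have b1 := (sq_close a1 hη₀).1
    have b2 := (sq_close a2 hz1).2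
    rw [hι] at b1
    rw [map_mul, mul_apply_eq_comp, hz] at b2
    have b3 := pow_le_pow_left₀ hδ.le hm 2
    linarith [(abs_lt.1 b1).2, (abs_lt.1 b2).1]
  obtain ⟨w, hw1, hw2⟩ := exists_lim_proj (P := fun n => ρ (pr c n))
    (fun n => by rw [← map_star, star_pr]) (fun n m h => by rw [← map_mul, hc.pr_pr h]) (ρ x ζ)
  have hw : δ ≤ ‖w‖ := ge_of_tendsto' hw1.norm key
  have hw0 : 0 < ‖w‖ := hδ.trans_le hw
  refine ⟨((‖w‖⁻¹ : ℝ) : ℂ) • w, ?_, fun n => by rw [map_smul, hw2]⟩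
  rw [norm_smul, Complex.norm_real, Real.norm_of_nonneg (by positivity), inv_mul_cancel₀ hw0.ne']

/-- The orbit map of a vector. -/
noncomputable def orb (ρ : A →⋆ₐ[ℂ] (K →L[ℂ] K)) (ζ : K) : A →ₗ[ℂ] K where
  toFun a := ρ a ζ
  map_add' a b := by simp
  map_smul' r a := by simp

theorem Irr.dense {ρ : A →⋆ₐ[ℂ] (K →L[ℂ] K)} (h : Irr ρ) {ζ : K} (h1 : ‖ζ‖ = 1) :
    DenseRange (orb ρ ζ) := by
  rcases h (LinearMap.range (orb ρ ζ)).topologicalClosure
    (Submodule.isClosed_topologicalClosure _) (fun a v hv =>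
      map_mem_closure (ρ a).continuous hv (by
        rintro _ ⟨b, rfl⟩
        exact ⟨a * b, by simp [orb]⟩)) with h0 | h0
  · have : ζ ∈ (LinearMap.range (orb ρ ζ)).topologicalClosure :=
      Submodule.le_topologicalClosure _ ⟨1, by simp [orb]⟩
    rw [h0, Submodule.mem_bot] at this
    simp [this] at h1
  · exact Submodule.dense_iff_topologicalClosure_eq_top.2 h0

theorem unitary_of_state {ρ : A →⋆ₐ[ℂ] (K →L[ℂ] K)} {ρ' : A →⋆ₐ[ℂ] (K' →L[ℂ] K')} (h : Irr ρ)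
    (h' : Irr ρ') {ζ : K} {ζ' : K'} (h1 : ‖ζ‖ = 1) (h2 : ‖ζ'‖ = 1)
    (hs : ∀ x, ⟪ζ, ρ x ζ⟫_ℂ = ⟪ζ', ρ' x ζ'⟫_ℂ) :
    ∃ U : K ≃ₗᵢ[ℂ] K', ∀ a v, U (ρ a v) = ρ' a (U v) := by
  have hn : ∀ a, ‖orb ρ' ζ' ((LinearEquiv.refl ℂ A) a)‖ = ‖orb ρ ζ a‖ := by
    intro a
    have := hs (star a * a)
    rw [map_mul, map_mul, map_star, map_star, inner_star_mul, inner_star_mul] at this
    exact ((sq_eq_sq₀ (norm_nonneg _) (norm_nonneg _)).1 (Complex.ofReal_injective this)).symm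
  let U := (LinearEquiv.refl ℂ A).extendOfIsometry _ _ (h.dense h1) (h'.dense h2) hn
  have hU : ∀ a, U (ρ a ζ) = ρ' a ζ' := fun a =>
    (LinearEquiv.refl ℂ A).extendOfIsometry_eq _ _ (h.dense h1) (h'.dense h2) hn a
  refine ⟨U, fun a v => ?_⟩
  refine (h.dense h1).induction_on v (isClosed_eq (U.continuous.comp (ρ a).continuous)
    ((ρ' a).continuous.comp U.continuous)) fun b => ?_
  show U (ρ a (ρ b ζ)) = ρ' a (U (ρ b ζ))
  rw [← mul_apply_eq_comp, ← map_mul, hU, hU, map_mul, mul_apply_eq_comp]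

theorem exists_unital (π : A →⋆ₙₐ[ℂ] (K →L[ℂ] K)) (h0 : ∃ a, π a ≠ 0)
    (h : ∀ W : Submodule ℂ K, IsClosed (W : Set K) → (∀ a, ∀ v ∈ W, π a v ∈ W) → W = ⊥ ∨ W = ⊤) :
    Nontrivial K ∧ ∃ ρ : A →⋆ₐ[ℂ] (K →L[ℂ] K), Irr ρ ∧ ∀ a, ρ a = π a := by
  obtain ⟨a, ha⟩ := h0
  have hm : ∀ a v, π a v ∈ (π 1 - 1).ker := fun a v => by
    show (π 1 - 1) (π a v) = 0
    rw [sub_apply, ← mul_apply_eq_comp, ← map_mul, one_mul, one_apply_eq_self, sub_self]
  have h1 : π 1 = 1 := by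
    rcases h (π 1 - 1).ker (π 1 - 1).isClosed_ker (fun a v _ => hm a v) with h2 | h2
    · refine absurd ?_ ha
      ext v
      have := hm a v
      rwa [h2, Submodule.mem_bot] at this
    · rw [← sub_eq_zero]
      ext v
      have : v ∈ (π 1 - 1).ker := by rw [h2]; trivial
      exact this
  refine ⟨?_, ⟨{ toFun := π
                 map_one' := h1
                 map_mul' := map_mul π
                 map_zero' := map_zero π
                 map_add' := map_add π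
                 commutes' := fun r => by
                   rw [Algebra.algebraMap_eq_smul_one, map_smul, h1, Algebra.algebraMap_eq_smul_one]
                 map_star' := map_star π }, h, fun _ => rfl⟩⟩
  by_contra hK
  rw [not_nontrivial_iff_subsingleton] at hK
  exact ha (Subsingleton.elim _ _)

theorem not_compacts [Nontrivial A] {s0 s1 : A} (h0 : star s0 * s0 = 1) (h1 : star s1 * s1 = 1)
    (h01 : star s0 * s1 = 0) (φ : A →⋆ₙₐ[ℂ] (K →L[ℂ] K)) (hi : Function.Injective φ)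
    (hr : range φ = {T : K →L[ℂ] K | IsCompactOperator T}) : False := by
  have he : φ 1 = 1 := by
    ext v
    have hc : IsCompactOperator (InnerProductSpace.rankOne ℂ v v) := by
      rw [InnerProductSpace.rankOne_def']
      exact (isCompactOperator_of_locallyCompactSpace_dom (innerSL ℂ v)).clm_comp
        (ContinuousLinearMap.toSpanSingleton ℂ v)
    obtain ⟨a, ha⟩ : InnerProductSpace.rankOne ℂ v v ∈ range φ := by rw [hr]; exact hc
    have h2 : φ 1 (φ a v) = φ a v := by rw [← mul_apply_eq_comp, ← map_mul, one_mul]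
    rw [ha, InnerProductSpace.rankOne_apply, map_smul] at h2
    by_cases hv : v = 0
    · simp [hv]
    · exact smul_right_injective K (fun h => hv (inner_self_eq_zero.1 h)) h2
  have hc : IsCompactOperator (φ 1) := by
    have : φ 1 ∈ range φ := ⟨1, rfl⟩
    rwa [hr] at this
  rw [he] at hc
  have hf : FiniteDimensional ℂ K := isCompactOperator_id_iff_finiteDimensional.1 hc
  have hl : ∀ v, φ (star s0) (φ s0 v) = v := fun v => by
    rw [← mul_apply_eq_comp, ← map_mul, h0, he, one_apply_eq_self]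
  have hsurj : Function.Surjective (φ s0).toLinearMap :=
    LinearMap.injective_iff_surjective.1 (Function.LeftInverse.injective (g := φ (star s0)) hl)
  have h2 : φ s1 = 0 := by
    ext v
    obtain ⟨w, hw⟩ := hsurj (φ s1 v)
    have hw' : φ s0 w = φ s1 v := hw
    have : w = 0 := by
      rw [← hl w, hw', ← mul_apply_eq_comp, ← map_mul, h01, map_zero]; rfl
    rw [← hw', this, map_zero]; rfl
  have h3 : s1 = 0 := hi (by rw [h2, map_zero])
  rw [h3, mul_zero] at h1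
  exact zero_ne_one h1

end Rep

section Point

variable {R T K : Type*} [CStarAlgebra R] [NormedAddCommGroup K] [InnerProductSpace ℂ K]
  [CompleteSpace K] {G : Set R} {u : T → R}

theorem exists_point {A : Type*} [CStarAlgebra A] (ι : A →⋆ₐ[ℂ] R) (hG : G.Countable)
    (h1 : ∀ a, ι a ∈ Alg G u univ) (h2 : ∀ x ∈ Alg G u univ, ∃ a, ι a = x)
    (supp : T → Set T) (hsupp : ∀ s, (supp s).Countable) (ρ : A →⋆ₐ[ℂ] (K →L[ℂ] K)) {ξ : K}
    (hξ : ‖ξ‖ = 1)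
    (hkey : ∀ (x : A) (ε : ℝ), 0 < ε → ∃ s y : A, star s * s = 1 ∧ star y * y = 1 ∧
      star s * y = 0 ∧ ‖ρ s ξ - ξ‖ < ε ∧ ∃ c : ℂ, ‖star s * x * s - c • (1 : A)‖ < ε) :
    ∃ (S : Set T) (t j : ℕ → A) (ζ : K), S.Countable ∧ (∀ s ∈ S, supp s ⊆ S) ∧ NS t ∧ Room t j ∧
      (∀ n, ι (t n) ∈ Alg G u S) ∧ (∀ n, ι (j n) ∈ Alg G u S) ∧
      Pt (Alg G u S) (fun n => ι (t n)) ∧ ‖ζ‖ = 1 ∧ ∀ n, ρ (pr t n) ζ = ζ := by
  have hen : ∀ S : Set T, ∃ f : ℕ → A, S.Countable →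
      (Alg G u S : Set R) ⊆ closure (range fun n => ι (f n)) := by
    intro S
    by_cases hS : S.Countable
    · obtain ⟨f, hf1, hf2⟩ := Alg.separable (u := u) hG hS
      choose g hg using fun n => h2 _ (Alg.mono (subset_univ S) (hf1 n))
      exact ⟨g, fun _ => by simpa only [hg] using hf2⟩
    · exact ⟨0, fun h => absurd h hS⟩
  choose en hen using hen
  obtain ⟨f, hP, hR⟩ := exists_seq_hist (α := Set T × A × A)
    (fun p => p.1.Countable ∧ star p.2.1 * p.2.1 = 1 ∧ ι p.2.1 ∈ Alg G u p.1 ∧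
      ι p.2.2 ∈ Alg G u p.1)
    (fun n a p q => p.1 ⊆ q.1 ∧ (∀ s ∈ p.1, supp s ⊆ q.1) ∧ p.2.1 * star p.2.1 * q.2.1 = q.2.1 ∧
      star q.2.2 * q.2.2 = 1 ∧ p.2.1 * star p.2.1 * q.2.2 = q.2.2 ∧ star q.2.1 * q.2.2 = 0 ∧
      ‖ρ q.2.1 ξ - ρ p.2.1 ξ‖ ≤ 1 / 2 / 2 ^ n ∧ ∃ c : ℂ,
        ‖star q.2.1 * en a.1 n.unpair.2.unpair.1 * q.2.1 - c • (1 : A)‖ < 1 / 2 / 2 ^ n)
    (fun n => n.unpair.1) Nat.unpair_left_le (∅, 1, 1)
    ⟨countable_empty, by simp, by simp, by simp⟩ (by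
      rintro n a ⟨S, t, j⟩ - ⟨p1, p2, -, -⟩
      simp only at p1 p2 ⊢
      obtain ⟨s, y, k1, k2, k3, k4, c, k5⟩ := hkey (star t * en a.1 n.unpair.2.unpair.1 * t)
        (1 / 2 / 2 ^ n) (by positivity)
      obtain ⟨S1, -, a2, a3⟩ := Alg.countable_supp (h1 (t * s))
      obtain ⟨S2, -, b2, b3⟩ := Alg.countable_supp (h1 (t * y))
      have A : ∀ x, star t * (t * x) = x := fun x => by rw [← mul_assoc, p2, one_mul]
      refine ⟨((S ∪ ⋃ s ∈ S, supp s) ∪ (S1 ∪ S2), t * s, t * y),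
        ⟨(p1.union (p1.biUnion fun s _ => hsupp s)).union (a2.union b2), ?_,
          Alg.mono (subset_union_left.trans subset_union_right) a3,
          Alg.mono (subset_union_right.trans subset_union_right) b3⟩,
        subset_union_left.trans subset_union_left, fun s hs =>
          (subset_biUnion_of_mem (u := supp) hs).trans (subset_union_right.trans subset_union_left),
        ?_, ?_, ?_, ?_, ?_, c, ?_⟩
      · simp only [star_mul, mul_assoc, A, k1]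
      · simp only [mul_assoc, A]
      · simp only [star_mul, mul_assoc, A, k2]
      · simp only [mul_assoc, A]
      · simp only [star_mul, mul_assoc, A, k3]
      · simp only
        rw [map_mul, mul_apply_eq_comp, ← map_sub]
        exact (norm_rep_apply_le ρ (norm_le_of_iso p2) _).trans k4.le
      · simpa only [star_mul, mul_assoc] using k5)
  have hmono : Monotone fun n => (f n).1 := monotone_nat_of_le_succ fun n => (hR n).1
  have ht : NS fun n => (f n).2.1 := ⟨fun n => (hP n).2.1, fun n => (hR n).2.2.1⟩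
  have hcau : CauchySeq fun n => ρ (f n).2.1 ξ := cauchySeq_of_le_geometric_two (C := 1)
    fun n => by rw [dist_comm, dist_eq_norm]; exact (hR n).2.2.2.2.2.2.1
  obtain ⟨ζ, hζ⟩ := cauchySeq_tendsto_of_complete hcau
  refine ⟨⋃ n, (f n).1, fun n => (f n).2.1, fun n => (f (n + 1)).2.2, ζ,
    countable_iUnion fun n => (hP n).1, ?_, ht, ⟨fun n => (hR n).2.2.2.1,
      fun n => (hR n).2.2.2.2.1, fun n => ?_⟩,
    fun n => Alg.mono (subset_iUnion (fun n => (f n).1) n) (hP n).2.2.1,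
    fun n => Alg.mono (subset_iUnion (fun n => (f n).1) (n + 1)) (hP (n + 1)).2.2.2, ?_, ?_, ?_⟩
  · intro s hs
    obtain ⟨n, hn⟩ := mem_iUnion.1 hs
    exact ((hR n).2.1 s hn).trans (subset_iUnion (fun n => (f n).1) (n + 1))
  · rw [pr, mul_assoc, (hR n).2.2.2.2.2.1, mul_zero]
  · refine lim_closed (ApxSc.closed (ht.map ι)) _ fun S' a1 a2 => ?_
    obtain ⟨i, hi⟩ := hmono.directed_le.exists_mem_subset_of_finset_subset_biUnion
      (s := a2.toFinset) (by simpa using a1)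
    refine ⟨(f i).1, by simpa using hi, subset_iUnion (fun n => (f n).1) i, fun x hx => ?_⟩
    refine closure_minimal ?_ (ApxSc.closed (ht.map ι)) (hen _ (hP i).1 hx)
    rintro _ ⟨j, rfl⟩ ε hε
    obtain ⟨k, hk⟩ := exists_pow_lt_of_lt_one hε (by norm_num : (1 / 2 : ℝ) < 1)
    obtain ⟨c, hc⟩ := (hR (Nat.pair i (Nat.pair j k))).2.2.2.2.2.2.2
    simp only [Nat.unpair_pair] at hc
    refine ⟨_, c, ((norm_map_sc ι _ _ _ c).trans_lt hc).trans_le (le_trans ?_ hk.le)⟩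
    have h3 : k ≤ Nat.pair i (Nat.pair j k) := (Nat.right_le_pair _ _).trans (Nat.right_le_pair _ _)
    have h4 : (2 : ℝ) ^ k ≤ 2 ^ Nat.pair i (Nat.pair j k) := pow_le_pow_right₀ one_le_two h3
    rw [one_div_pow]
    exact div_le_div₀ zero_le_one (by norm_num) (by positivity) h4
  · refine tendsto_nhds_unique hζ.norm (tendsto_const_nhds.congr fun n => ?_)
    rw [norm_iso_apply ((ht.map ρ).iso n), hξ]
  · intro n
    refine tendsto_nhds_unique (((ρ _).continuous.tendsto _).comp hζ) (hζ.congr' ?_)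
    filter_upwards [eventually_ge_atTop n] with m hm
    simp only [Function.comp]
    rw [← mul_apply_eq_comp, ← map_mul, ht.pr_mul hm]

end Point

section Final

universe v w

theorem Room.map {A A' : Type*} [CStarAlgebra A] [CStarAlgebra A'] {t j : ℕ → A} (h : Room t j)
    (φ : A →⋆ₐ[ℂ] A') : Room (fun n => φ (t n)) fun n => φ (j n) :=
  ⟨fun n => by rw [← map_star, ← map_mul, h.iso, map_one],
    fun n => by rw [pr_map, ← map_mul, h.le], fun n => by rw [pr_map, ← map_mul, h.orth, map_zero]⟩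

theorem all_equiv {H A T K K' : Type*} [NormedAddCommGroup H] [InnerProductSpace ℂ H]
    [CompleteSpace H] [Nontrivial H] [CStarAlgebra A] [LinearOrder T] [WellFoundedLT T]
    [NormedAddCommGroup K] [InnerProductSpace ℂ K] [CompleteSpace K]
    [NormedAddCommGroup K'] [InnerProductSpace ℂ K'] [CompleteSpace K']
    {G : Set (H →L[ℂ] H)} {u : T → H →L[ℂ] H} {lc ld : T → ℕ → H →L[ℂ] H}
    (hlab : ∀ S : Set T, S.Countable → ∀ c d, ∃ t, lc t = c ∧ ld t = d ∧ S ⊆ Iio t)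
    (hu0 : ∀ t, Gl (Alg G u (Iio t)) (lc t) (ld t) (u t) ∨
      (u t = 0 ∧ ¬ ∃ w, Gl (Alg G u (Iio t)) (lc t) (ld t) w))
    (hGc : G.Countable) (ι : A →⋆ₐ[ℂ] (H →L[ℂ] H)) (hι : ∀ a, ‖ι a‖ = ‖a‖)
    (h1 : ∀ a, ι a ∈ Alg G u univ) (h2 : ∀ x ∈ Alg G u univ, ∃ a, ι a = x)
    (hn : ∀ e : ℕ → H →L[ℂ] H, NS e → (∀ n, e n ∈ Alg G u univ) → Pt (Alg G u univ) e → Null e)
    {ρ : A →⋆ₐ[ℂ] (K →L[ℂ] K)} {ρ' : A →⋆ₐ[ℂ] (K' →L[ℂ] K')} (hρ : Irr ρ) (hρ' : Irr ρ')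
    {ξ : K} (hξ : ‖ξ‖ = 1) {ξ' : K'} (hξ' : ‖ξ'‖ = 1)
    (hkey : ∀ (x : A) (ε : ℝ), 0 < ε → ∃ s y : A, star s * s = 1 ∧ star y * y = 1 ∧
      star s * y = 0 ∧ ‖ρ s ξ - ξ‖ < ε ∧ ∃ c : ℂ, ‖star s * x * s - c • (1 : A)‖ < ε)
    (hkey' : ∀ (x : A) (ε : ℝ), 0 < ε → ∃ s y : A, star s * s = 1 ∧ star y * y = 1 ∧
      star s * y = 0 ∧ ‖ρ' s ξ' - ξ'‖ < ε ∧ ∃ c : ℂ, ‖star s * x * s - c • (1 : A)‖ < ε) :
    ∃ U : K ≃ₗᵢ[ℂ] K', ∀ a v, U (ρ a v) = ρ' a (U v) := by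
  have hu := fun t => (hu0 t).imp_right And.left
  have hsupp : ∀ t : T, ∃ S : Set T, S ⊆ Iio t ∧ S.Countable ∧
      (Gl (Alg G u (Iio t)) (lc t) (ld t) (u t) → Data (Alg G u S) (lc t) (ld t) (u t)) := by
    intro t
    by_cases h : Gl (Alg G u (Iio t)) (lc t) (ld t) (u t)
    · obtain ⟨S, a1, a2, a3⟩ := h.data.countable_supp
      exact ⟨S, a1, a2, fun _ => a3⟩
    · exact ⟨∅, empty_subset _, countable_empty, fun h' => absurd h' h⟩
  choose supp hs1 hs2 hs3 using hsupp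
  have hclo : ∀ S : Set T, (∀ t ∈ S, supp t ⊆ S) → Clo G u lc ld S := fun S hS t ht hg =>
    (hs3 t hg).mono (Alg.mono (subset_inter (hS t ht) (hs1 t)))
  have hsc : ∀ t : ℕ → A, Pt (Alg G u univ) (fun n => ι (t n)) → ∀ x, ApxSc t x := by
    intro t ht x ε hε
    obtain ⟨n, c, hn⟩ := ht _ (h1 x) ε hε
    refine ⟨n, c, ?_⟩
    rw [← hι]
    simpa [map_star] using hn
  obtain ⟨S, d, k, ζ, a1, a2, a3, a4, a5, a6, a7, a8, a9⟩ :=
    exists_point ι hGc h1 h2 supp hs2 ρ hξ hkey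
  obtain ⟨S', c, j, ζ', b1, b2, b3, b4, b5, b6, b7, b8, b9⟩ :=
    exists_point ι hGc h1 h2 supp hs2 ρ' hξ' hkey'
  have pd := pt_closed hu (hclo S a2) (a3.map ι) a5 a7
  have pc := pt_closed hu (hclo S' b2) (b3.map ι) b5 b7
  obtain ⟨t, ht1, ht1', ht2⟩ := hlab (S ∪ S') (a1.union b1) (fun n => ι (c n)) fun n => ι (d n)
  have l1 : Alg G u S ≤ Alg G u (Iio t) := Alg.mono (subset_union_left.trans ht2)
  have l2 : Alg G u S' ≤ Alg G u (Iio t) := Alg.mono (subset_union_right.trans ht2)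
  have l3 : Alg G u (Iio t) ≤ Alg G u univ := Alg.mono (subset_univ _)
  have hx : ∃ x ∈ Alg G u univ, ¬ Sm (fun n => ι (c n)) (fun n => ι (d n)) x := by
    by_cases hd : Dj (Alg G u (Iio t)) (fun n => ι (d n)) fun n => ι (c n)
    · have hg := exists_glue (b3.map ι) (a3.map ι) (b4.map ι) (a4.map ι) (fun n => l2 (b5 n))
        (fun n => l1 (a5 n)) (fun n => l2 (b6 n)) (fun n => l1 (a6 n))
        (hn _ (b3.map ι) (fun n => h1 _) pc) (hn _ (a3.map ι) (fun n => h1 _) pd)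
        (pc.mono l3) (pd.mono l3) hd
      have h2 := hu0 t
      rw [ht1, ht1'] at h2
      exact ⟨u t, Alg.gen_mem trivial, (h2.resolve_right fun h => h.2 hg).not_sm⟩
    · have hd' : ¬ Dj (Alg G u univ) (fun n => ι (c n)) fun n => ι (d n) :=
        fun h => hd (h.symm.mono l3)
      unfold Dj at hd'
      push Not at hd'
      exact hd'
  obtain ⟨x, hx1, hx2⟩ := hx
  obtain ⟨x, rfl⟩ := h2 x hx1
  obtain ⟨η, hη1, hη2⟩ := transfer_vec ι hι b3 a3 (hsc d pd) (x := x)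
    (fun h => hx2 fun ε hε => by
      obtain ⟨n, hn⟩ := h ε hε
      refine ⟨n, ?_⟩
      rw [← hι] at hn
      simpa [map_star] using hn) ρ a8 a9
  exact unitary_of_state hρ hρ' hη1 b8 (same_state b3 (hsc c pc) ρ ρ' hη1 b8 hη2 b9)

theorem exists_algebra_of {H : Type} [NormedAddCommGroup H] [InnerProductSpace ℂ H]
    [CompleteSpace H] (b : HilbertBasis (ℕ × ℤ) ℂ H) :
    ∃ (A : Type) (_ : CStarAlgebra A), Nontrivial A ∧
    (∃ s0 s1 : A, star s0 * s0 = 1 ∧ star s1 * s1 = 1 ∧ star s0 * s1 = 0) ∧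
    ∀ (K : Type v) (K' : Type w) [NormedAddCommGroup K] [InnerProductSpace ℂ K] [CompleteSpace K]
      [NormedAddCommGroup K'] [InnerProductSpace ℂ K'] [CompleteSpace K'] [Nontrivial K]
      [Nontrivial K'] (ρ : A →⋆ₐ[ℂ] (K →L[ℂ] K)) (ρ' : A →⋆ₐ[ℂ] (K' →L[ℂ] K')), Irr ρ → Irr ρ' →
      ∃ U : K ≃ₗᵢ[ℂ] K', ∀ a v, U (ρ a v) = ρ' a (U v) := by
  have hH : Nontrivial H := ⟨⟨b (0, 0), 0, fun h => by
    have := b.orthonormal.1 (0, 0)
    simp [h] at this⟩⟩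
  obtain ⟨s, Z, hm⟩ := exists_model b
  obtain ⟨T, _, _, lab, hlab⟩ := exists_index ((ℕ → H →L[ℂ] H) × (ℕ → H →L[ℂ] H))
  obtain ⟨u, hu0⟩ := exists_rec {s 0, s 1} (fun t => (lab t).1) fun t => (lab t).2
  have hu := fun t => (hu0 t).imp_right And.left
  have hcomm := commute_all hu hm.commute hm.weak hm.no_eig
  have hpi := pi_all hu hm.commute hm.weak hm.no_eig hm.pi
  have hcl : IsClosed (Alg {s 0, s 1} u univ : Set (H →L[ℂ] H)) := Alg.closed _
  let s0 : Alg {s 0, s 1} u univ := ⟨s 0, Alg.base_mem (by simp)⟩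
  let s1 : Alg {s 0, s 1} u univ := ⟨s 1, Alg.base_mem (by simp)⟩
  have h00 : star s0 * s0 = 1 := Subtype.ext (hm.ss (i := 0) (j := 0) (by omega) (by omega))
  have h11 : star s1 * s1 = 1 := Subtype.ext (hm.ss (i := 1) (j := 1) (by omega) (by omega))
  have h01 : star s0 * s1 = 0 := Subtype.ext (hm.ss (i := 0) (j := 1) (by omega) (by omega))
  have hsum : s0 * star s0 + s1 * star s1 = 1 := Subtype.ext hm.sum
  refine ⟨Alg {s 0, s 1} u univ, inferInstance, inferInstance, ⟨s0, s1, h00, h11, h01⟩, ?_⟩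
  intro K K' _ _ _ _ _ _ _ _ ρ ρ' hρ hρ'
  obtain ⟨ξ, hξ⟩ := exists_norm_eq K (zero_le_one (α := ℝ))
  obtain ⟨ξ', hξ'⟩ := exists_norm_eq K' (zero_le_one (α := ℝ))
  have hι : ∀ a, ‖(Alg {s 0, s 1} u univ).subtype a‖ = ‖a‖ := fun _ => rfl
  refine all_equiv (fun S hS c d => ?_) hu0 (toFinite _).countable
    (Alg {s 0, s 1} u univ).subtype hι (fun a => a.2) (fun x hx => ⟨⟨x, hx⟩, rfl⟩)
    (fun e he hm' hp => null_of hcomm
      (fun a b hab => hm.weak a b fun x hx => hab x (Alg.base_le _ hx)) hm.no_eig he hm' hp)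
    hρ hρ' hξ hξ' (fun x ε hε => key _ hι hpi.abs h00 h11 h01 hsum hρ hξ x hε)
    (fun x ε hε => key _ hι hpi.abs h00 h11 h01 hsum hρ' hξ' x hε)
  obtain ⟨t, ht1, ht2⟩ := hlab S hS (c, d)
  exact ⟨t, by rw [ht1], by rw [ht1], ht2⟩

end Final

end Vale.Agent.P070
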