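import Mathlib

namespace Vale.Agent.P070

open Filter Topology
open scoped InnerProductSpace

section Alg

variable {R : Type*} [Ring R] [StarRing R]

/-- Nested isometries. -/
structure NS (t : ℕ → R) : Prop where
  iso : ∀ n, star (t n) * t n = 1
  nest : ∀ n, t n * star (t n) * t (n + 1) = t (n + 1)

/-- Range projection. -/
def pr (t : ℕ → R) (n : ℕ) : R := t n * star (t n)

theorem star_pr (t : ℕ → R) (n : ℕ) : star (pr t n) = pr t n := by
  simp [pr]

theorem NS.pr_self {t : ℕ → R} (h : NS t) (n : ℕ) : pr t n * t n = t n := by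
  rw [pr, mul_assoc, h.iso, mul_one]

theorem NS.pr_mul {t : ℕ → R} (h : NS t) {n m : ℕ} (hnm : n ≤ m) : pr t n * t m = t m := by
  induction m, hnm using Nat.le_induction with
  | base => exact h.pr_self n
  | succ m _ ih =>
    have h1 := h.nest m
    calc pr t n * t (m + 1) = pr t n * (t m * star (t m) * t (m + 1)) := by rw [h1]
      _ = (pr t n * t m) * star (t m) * t (m + 1) := by simp only [mul_assoc]
      _ = t (m + 1) := by rw [ih, h1]

theorem NS.star_mul_pr {t : ℕ → R} (h : NS t) {n m : ℕ} (hnm : n ≤ m) :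
    star (t m) * pr t n = star (t m) := by
  have := congrArg star (h.pr_mul hnm)
  rwa [star_mul, star_pr] at this

theorem NS.pr_pr {t : ℕ → R} (h : NS t) {n m : ℕ} (hnm : n ≤ m) :
    pr t n * pr t m = pr t m := by
  conv_lhs => rw [show pr t m = t m * star (t m) from rfl, ← mul_assoc, h.pr_mul hnm]
  rfl

theorem NS.pr_pr' {t : ℕ → R} (h : NS t) {n m : ℕ} (hnm : n ≤ m) :
    pr t m * pr t n = pr t m := by
  have := congrArg star (h.pr_pr hnm)
  rwa [star_mul, star_pr, star_pr] at this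

theorem NS.eq_mul {t : ℕ → R} (h : NS t) {n m : ℕ} (hnm : n ≤ m) :
    t n * (star (t n) * t m) = t m := by
  rw [← mul_assoc]; exact h.pr_mul hnm

theorem NS.rho_iso {t : ℕ → R} (h : NS t) {n m : ℕ} (hnm : n ≤ m) :
    star (star (t n) * t m) * (star (t n) * t m) = 1 := by
  rw [star_mul, star_star, mul_assoc, h.eq_mul hnm, h.iso]

end Alg

section Norm

variable {R : Type*} [CStarAlgebra R]

theorem norm_one_le' : ‖(1 : R)‖ ≤ 1 := by
  have h : ‖star (1 : R) * 1‖ = ‖(1 : R)‖ * ‖(1 : R)‖ := CStarRing.norm_star_mul_self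
  rw [star_one, mul_one] at h
  nlinarith [norm_nonneg (1 : R)]

theorem norm_le_of_iso {x : R} (h : star x * x = 1) : ‖x‖ ≤ 1 := by
  have h1 : ‖star x * x‖ = ‖x‖ * ‖x‖ := CStarRing.norm_star_mul_self
  rw [h] at h1
  nlinarith [norm_nonneg x, norm_one_le' (R := R)]

theorem norm_le_of_proj {p : R} (hs : star p = p) (h : p * p = p) : ‖p‖ ≤ 1 := by
  have h1 : ‖star p * p‖ = ‖p‖ * ‖p‖ := CStarRing.norm_star_mul_self
  rw [hs, h] at h1
  nlinarith [norm_nonneg p]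

theorem norm_mul_le_left {x y : R} (h : ‖y‖ ≤ 1) : ‖x * y‖ ≤ ‖x‖ :=
  (norm_mul_le x y).trans (mul_le_of_le_one_right (norm_nonneg x) h)

theorem norm_mul_le_right {x y : R} (h : ‖x‖ ≤ 1) : ‖x * y‖ ≤ ‖y‖ :=
  (norm_mul_le x y).trans (mul_le_of_le_one_left (norm_nonneg y) h)

theorem NS.norm_le {t : ℕ → R} (h : NS t) (n : ℕ) : ‖t n‖ ≤ 1 := norm_le_of_iso (h.iso n)

theorem NS.norm_star_le {t : ℕ → R} (h : NS t) (n : ℕ) : ‖star (t n)‖ ≤ 1 := by
  rw [norm_star]; exact h.norm_le n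

theorem NS.norm_pr_le {t : ℕ → R} (h : NS t) (n : ℕ) : ‖pr t n‖ ≤ 1 :=
  norm_le_of_proj (star_pr t n) (h.pr_pr le_rfl)

theorem NS.mono_right {t : ℕ → R} (h : NS t) (x : R) {n m : ℕ} (hnm : n ≤ m) :
    ‖x * t m‖ ≤ ‖x * t n‖ := by
  rw [← h.eq_mul hnm, ← mul_assoc]
  exact norm_mul_le_left (norm_le_of_iso (h.rho_iso hnm))

theorem NS.mono_left {t : ℕ → R} (h : NS t) (x : R) {n m : ℕ} (hnm : n ≤ m) :
    ‖star (t m) * x‖ ≤ ‖star (t n) * x‖ := by
  have := h.mono_right (star x) hnm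
  rw [← norm_star, ← norm_star (star x * t n)] at this
  simpa using this

theorem mono_two {r t : ℕ → R} (hr : NS r) (ht : NS t) (x : R) {n m n' m' : ℕ} (h1 : n ≤ m)
    (h2 : n' ≤ m') : ‖star (r m) * x * t m'‖ ≤ ‖star (r n) * x * t n'‖ := by
  refine (ht.mono_right _ h2).trans ?_
  rw [mul_assoc, mul_assoc]
  exact hr.mono_left _ h1

theorem NS.mono_sc {t : ℕ → R} (h : NS t) (x : R) (c : ℂ) {n m : ℕ} (hnm : n ≤ m) :
    ‖star (t m) * x * t m - c • (1 : R)‖ ≤ ‖star (t n) * x * t n - c • (1 : R)‖ := by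
  have hρ := h.rho_iso hnm
  have he := h.eq_mul hnm
  set ρ := star (t n) * t m with hρd
  have : star (t m) * x * t m - c • (1 : R) =
      star ρ * (star (t n) * x * t n - c • (1 : R)) * ρ := by
    rw [mul_sub, sub_mul, mul_smul_comm, smul_mul_assoc, mul_one, hρ]
    conv_lhs => rw [← he]
    simp only [star_mul, mul_assoc]
  rw [this]
  refine (norm_mul_le_left (norm_le_of_iso hρ)).trans (norm_mul_le_right ?_)
  rw [norm_star]; exact norm_le_of_iso hρ

/-- Asymptotically scalar along `t`. -/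
def ApxSc (t : ℕ → R) (x : R) : Prop :=
  ∀ ε : ℝ, 0 < ε → ∃ n, ∃ c : ℂ, ‖star (t n) * x * t n - c • (1 : R)‖ < ε

/-- Asymptotically zero between `r` and `t`. -/
def Sm (r t : ℕ → R) (x : R) : Prop :=
  ∀ ε : ℝ, 0 < ε → ∃ n, ‖star (r n) * x * t n‖ < ε

theorem ApxSc.ev {t : ℕ → R} (h : NS t) {x : R} (hx : ApxSc t x) {ε : ℝ} (hε : 0 < ε) :
    ∃ c : ℂ, ∀ᶠ n in atTop, ‖star (t n) * x * t n - c • (1 : R)‖ < ε := by
  obtain ⟨n, c, hn⟩ := hx ε hε
  exact ⟨c, eventually_atTop.2 ⟨n, fun m hm => (h.mono_sc x c hm).trans_lt hn⟩⟩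

theorem Sm.ev {r t : ℕ → R} (hr : NS r) (ht : NS t) {x : R} (hx : Sm r t x) {ε : ℝ}
    (hε : 0 < ε) : ∀ᶠ n in atTop, ‖star (r n) * x * t n‖ < ε := by
  obtain ⟨n, hn⟩ := hx ε hε
  exact eventually_atTop.2 ⟨n, fun m hm => (mono_two hr ht x hm hm).trans_lt hn⟩

theorem ApxSc.add {t : ℕ → R} (h : NS t) {x y : R} (hx : ApxSc t x) (hy : ApxSc t y) :
    ApxSc t (x + y) := by
  intro ε hε
  obtain ⟨c, hc⟩ := hx.ev h (half_pos hε)
  obtain ⟨d, hd⟩ := hy.ev h (half_pos hε)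
  obtain ⟨n, h1, h2⟩ := (hc.and hd).exists
  refine ⟨n, c + d, ?_⟩
  have : star (t n) * (x + y) * t n - (c + d) • (1 : R) =
      (star (t n) * x * t n - c • (1 : R)) + (star (t n) * y * t n - d • (1 : R)) := by
    rw [mul_add, add_mul, add_smul]; abel
  rw [this]
  linarith [norm_add_le (star (t n) * x * t n - c • (1 : R)) (star (t n) * y * t n - d • (1 : R))]

theorem ApxSc.smul {t : ℕ → R} {x : R} (hx : ApxSc t x) (a : ℂ) : ApxSc t (a • x) := by
  intro ε hε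
  obtain ⟨n, c, hn⟩ := hx (ε / (‖a‖ + 1)) (by positivity)
  refine ⟨n, a * c, ?_⟩
  have : star (t n) * (a • x) * t n - (a * c) • (1 : R) =
      a • (star (t n) * x * t n - c • (1 : R)) := by
    rw [smul_sub, mul_smul_comm, smul_mul_assoc, mul_smul]
  rw [this, norm_smul]
  have h1 : 0 < ‖a‖ + 1 := by positivity
  rw [lt_div_iff₀ h1] at hn
  nlinarith [norm_nonneg a, norm_nonneg (star (t n) * x * t n - c • (1 : R))]

theorem norm_conj_le {r t : ℕ → R} (hr : NS r) (ht : NS t) (x : R) (n m : ℕ) :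
    ‖star (r n) * x * t m‖ ≤ ‖x‖ :=
  (norm_mul_le_left (ht.norm_le m)).trans (norm_mul_le_right (hr.norm_star_le n))

theorem ApxSc.closed {t : ℕ → R} (h : NS t) : IsClosed {x | ApxSc t x} := by
  refine isClosed_of_closure_subset fun x hx ε hε => ?_
  obtain ⟨y, hy, hxy⟩ := Metric.mem_closure_iff.1 hx (ε / 2) (half_pos hε)
  obtain ⟨n, c, hn⟩ := hy (ε / 2) (half_pos hε)
  refine ⟨n, c, ?_⟩
  have : star (t n) * x * t n - c • (1 : R) =
      star (t n) * (x - y) * t n + (star (t n) * y * t n - c • (1 : R)) := by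
    rw [mul_sub, sub_mul]; abel
  rw [this]
  rw [dist_eq_norm] at hxy
  linarith [norm_add_le (star (t n) * (x - y) * t n) (star (t n) * y * t n - c • (1 : R)),
    norm_conj_le h h (x - y) n n]

theorem Sm.add {r t : ℕ → R} (hr : NS r) (ht : NS t) {x y : R} (hx : Sm r t x)
    (hy : Sm r t y) : Sm r t (x + y) := by
  intro ε hε
  obtain ⟨n, h1, h2⟩ := ((hx.ev hr ht (half_pos hε)).and (hy.ev hr ht (half_pos hε))).exists
  refine ⟨n, ?_⟩
  rw [mul_add, add_mul]
  linarith [norm_add_le (star (r n) * x * t n) (star (r n) * y * t n)]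

theorem Sm.closed {r t : ℕ → R} (hr : NS r) (ht : NS t) : IsClosed {x | Sm r t x} := by
  refine isClosed_of_closure_subset fun x hx ε hε => ?_
  obtain ⟨y, hy, hxy⟩ := Metric.mem_closure_iff.1 hx (ε / 2) (half_pos hε)
  obtain ⟨n, hn⟩ := hy (ε / 2) (half_pos hε)
  refine ⟨n, ?_⟩
  have : star (r n) * x * t n = star (r n) * (x - y) * t n + star (r n) * y * t n := by
    rw [mul_sub, sub_mul]; abel
  rw [this]
  rw [dist_eq_norm] at hxy
  linarith [norm_add_le (star (r n) * (x - y) * t n) (star (r n) * y * t n),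
    norm_conj_le hr ht (x - y) n n]

theorem Sm.star {r t : ℕ → R} {x : R} (hx : Sm r t x) : Sm t r (star x) := by
  intro ε hε
  obtain ⟨n, hn⟩ := hx ε hε
  refine ⟨n, ?_⟩
  rw [← norm_star] at hn
  simpa [mul_assoc] using hn

/-- `t` excises every element of `B`. -/
def Pt (B : StarSubalgebra ℂ R) (t : ℕ → R) : Prop := ∀ x ∈ B, ApxSc t x

/-- `r` and `t` are disjoint over `B`. -/
def Dj (B : StarSubalgebra ℂ R) (r t : ℕ → R) : Prop := ∀ x ∈ B, Sm r t x

theorem Dj.symm {B : StarSubalgebra ℂ R} {r t : ℕ → R} (h : Dj B r t) : Dj B t r := by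
  intro x hx
  have := (h (star x) (star_mem hx)).star
  rwa [star_star] at this

theorem Dj.mono {B C : StarSubalgebra ℂ R} {r t : ℕ → R} (h : Dj C r t) (hBC : B ≤ C) :
    Dj B r t := fun x hx => h x (hBC hx)

theorem Pt.mono {B C : StarSubalgebra ℂ R} {t : ℕ → R} (h : Pt C t) (hBC : B ≤ C) :
    Pt B t := fun x hx => h x (hBC hx)

theorem pr_mem {B : StarSubalgebra ℂ R} {t : ℕ → R} (h : ∀ n, t n ∈ B) (n : ℕ) : pr t n ∈ B :=
  mul_mem (h n) (star_mem (h n))

end Norm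

section Hilb

variable {H : Type*} [NormedAddCommGroup H] [InnerProductSpace ℂ H] [CompleteSpace H]

theorem inner_star_left (x : H →L[ℂ] H) (a b : H) : ⟪star x a, b⟫_ℂ = ⟪a, x b⟫_ℂ := by
  rw [ContinuousLinearMap.star_eq_adjoint, ContinuousLinearMap.adjoint_inner_left]

theorem inner_star_right (x : H →L[ℂ] H) (a b : H) : ⟪a, star x b⟫_ℂ = ⟪x a, b⟫_ℂ := by
  rw [ContinuousLinearMap.star_eq_adjoint, ContinuousLinearMap.adjoint_inner_right]

theorem inner_star_mul (x : H →L[ℂ] H) (a : H) :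
    ⟪a, (star x * x) a⟫_ℂ = ((‖x a‖ ^ 2 : ℝ) : ℂ) := by
  rw [mul_apply_eq_comp, inner_star_right, inner_self_eq_norm_sq_to_K]
  simp

theorem pyth {P Q : H →L[ℂ] H} (hP : star P = P) (hQ : star Q = Q) (hPQ : P * Q = Q)
    (hQQ : Q * Q = Q) (v : H) : ‖P v‖ ^ 2 = ‖(P - Q) v‖ ^ 2 + ‖Q v‖ ^ 2 := by
  have h0 : ⟪(P - Q) v, Q v⟫_ℂ = 0 := by
    rw [← inner_star_right, ← mul_apply_eq_comp, star_sub, hP, hQ, sub_mul, hPQ, hQQ]
    simp
  have := norm_add_sq_eq_norm_sq_add_norm_sq_of_inner_eq_zero _ _ h0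
  have e : (P - Q) v + Q v = P v := by simp
  rw [e] at this
  nlinarith [this]

/-- Nested projections converge strongly. -/
theorem exists_lim_proj {P : ℕ → H →L[ℂ] H} (hs : ∀ n, star (P n) = P n)
    (hm : ∀ n m, n ≤ m → P n * P m = P m) (v : H) :
    ∃ w, Tendsto (fun n => P n v) atTop (𝓝 w) ∧ ∀ n, P n w = w := by
  have hpy : ∀ n m, n ≤ m → ‖P n v‖ ^ 2 = ‖(P n - P m) v‖ ^ 2 + ‖P m v‖ ^ 2 :=
    fun n m h => pyth (hs n) (hs m) (hm n m h) (hm m m le_rfl) v
  have hanti : Antitone fun n => ‖P n v‖ ^ 2 := fun n m h => by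
    have := hpy n m h
    simp only
    nlinarith [sq_nonneg ‖(P n - P m) v‖]
  have hbdd : BddBelow (Set.range fun n => ‖P n v‖ ^ 2) :=
    ⟨0, by rintro _ ⟨n, rfl⟩; positivity⟩
  have hc : CauchySeq fun n => P n v := by
    rw [Metric.cauchySeq_iff']
    intro ε hε
    obtain ⟨N, hN⟩ := exists_lt_of_ciInf_lt (f := fun n => ‖P n v‖ ^ 2)
      (lt_add_of_pos_right _ (pow_pos hε 2))
    refine ⟨N, fun n hn => ?_⟩
    have h1 := hpy N n hn
    have h2 := ciInf_le hbdd n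
    rw [dist_comm, dist_eq_norm]
    have h3 : ‖(P N - P n) v‖ ^ 2 < ε ^ 2 := by linarith
    have := lt_of_pow_lt_pow_left₀ 2 hε.le h3
    simpa using this
  obtain ⟨w, hw⟩ := cauchySeq_tendsto_of_complete hc
  refine ⟨w, hw, fun n => ?_⟩
  have h1 : Tendsto (fun m => P n (P m v)) atTop (𝓝 (P n w)) :=
    ((P n).continuous.tendsto w).comp hw
  refine tendsto_nhds_unique h1 (hw.congr' ?_)
  filter_upwards [eventually_ge_atTop n] with m hnm
  rw [← mul_apply_eq_comp, hm n m hnm]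

theorem sq_close {y : H →L[ℂ] H} {c : ℂ} {ε : ℝ} (h : ‖star y * y - c • (1 : H →L[ℂ] H)‖ < ε)
    {η : H} (hη : ‖η‖ = 1) : |‖y‖ ^ 2 - ‖c‖| < ε ∧ |‖y η‖ ^ 2 - ‖c‖| < ε := by
  have : Nontrivial H := ⟨⟨η, 0, fun h => by simp [h] at hη⟩⟩
  constructor
  · have h1 : ‖star y * y‖ = ‖y‖ * ‖y‖ := CStarRing.norm_star_mul_self
    have h2 : ‖c • (1 : H →L[ℂ] H)‖ = ‖c‖ := by simp [norm_smul]
    have := abs_norm_sub_norm_le (star y * y) (c • (1 : H →L[ℂ] H))
    rw [h1, h2, ← sq] at this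
    linarith
  · have h1 : ⟪η, (star y * y - c • (1 : H →L[ℂ] H)) η⟫_ℂ = ((‖y η‖ ^ 2 : ℝ) : ℂ) - c := by
      rw [sub_apply, inner_sub_right, inner_star_mul]
      simp [inner_smul_right, inner_self_eq_norm_sq_to_K, hη]
    have h2 := norm_inner_le_norm (𝕜 := ℂ) η ((star y * y - c • (1 : H →L[ℂ] H)) η)
    have h3 := (star y * y - c • (1 : H →L[ℂ] H)).le_opNorm η
    rw [h1, hη, one_mul] at h2
    rw [hη, mul_one] at h3
    have h4 := abs_norm_sub_norm_le ((‖y η‖ ^ 2 : ℝ) : ℂ) c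
    rw [Complex.norm_real, Real.norm_of_nonneg (by positivity)] at h4
    linarith

/-- The limiting seminorm along `r`. -/
noncomputable def nu (r : ℕ → H →L[ℂ] H) (x : H →L[ℂ] H) : ℝ := ⨅ n, ‖x * r n‖

theorem nu_tendsto {r : ℕ → H →L[ℂ] H} (hr : NS r) (x : H →L[ℂ] H) :
    Tendsto (fun n => ‖x * r n‖) atTop (𝓝 (nu r x)) :=
  tendsto_atTop_ciInf (fun _ _ h => hr.mono_right x h) ⟨0, by rintro _ ⟨n, rfl⟩; positivity⟩

theorem nu_vec {r : ℕ → H →L[ℂ] H} (hr : NS r) {x : H →L[ℂ] H} (hx : ApxSc r (star x * x))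
    {η : H} (hη : ‖η‖ = 1) :
    Tendsto (fun n => ‖x (r n η)‖ ^ 2) atTop (𝓝 (nu r x ^ 2)) := by
  have h1 := (nu_tendsto hr x).pow 2
  have h2 : Tendsto (fun n => ‖x (r n η)‖ ^ 2 - ‖x * r n‖ ^ 2) atTop (𝓝 0) := by
    rw [Metric.tendsto_nhds]
    intro ε hε
    obtain ⟨c, hc⟩ := hx.ev hr (half_pos hε)
    filter_upwards [hc] with n hn
    have e : star (r n) * (star x * x) * r n = star (x * r n) * (x * r n) := by
      simp only [star_mul, mul_assoc]
    rw [e] at hn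
    obtain ⟨a1, a2⟩ := sq_close hn hη
    rw [mul_apply_eq_comp] at a2
    rw [Real.dist_eq, sub_zero]
    rw [abs_lt] at a1 a2 ⊢
    constructor <;> linarith [a1.1, a1.2, a2.1, a2.2]
  have := h2.add h1
  simpa using this

theorem not_sm {R : Type*} [CStarAlgebra R] {r t : ℕ → R} (hr : NS r) (ht : NS t) {x : R}
    (h : ¬ Sm r t x) : ∃ δ : ℝ, 0 < δ ∧ ∀ n m, δ ≤ ‖star (r n) * x * t m‖ := by
  unfold Sm at h
  push Not at h
  obtain ⟨δ, hδ, h⟩ := h
  exact ⟨δ, hδ, fun n m => (h (max n m)).trans (mono_two hr ht x (le_max_left _ _)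
    (le_max_right _ _))⟩

/-- Transitivity of non-disjointness through a pointing sequence. -/
theorem dj_or [Nontrivial H] {B : StarSubalgebra ℂ (H →L[ℂ] H)} {r t u : ℕ → H →L[ℂ] H}
    (hr : NS r) (ht : NS t) (hu : NS u) (hrB : ∀ n, r n ∈ B) (htB : ∀ n, t n ∈ B)
    (hp : Pt B r) (hd : Dj B u t) : Dj B r t ∨ Dj B u r := by
  by_contra hcon
  rw [not_or] at hcon
  obtain ⟨h1, h2⟩ := hcon
  unfold Dj at h1 h2
  push Not at h1 h2
  obtain ⟨a, haB, ha⟩ := h1
  obtain ⟨b, hbB, hb⟩ := h2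
  obtain ⟨δ, hδ, ha⟩ := not_sm hr ht ha
  obtain ⟨γ, hγ, hb⟩ := not_sm hu hr hb
  obtain ⟨η, hη⟩ := exists_norm_eq H (zero_le_one (α := ℝ))
  set K : ℝ := γ + ‖a‖ + ‖b‖ + 2 * (‖b‖ * ‖a‖) + 1 with hK
  have hKpos : 0 < K := by positivity
  set ε : ℝ := δ ^ 2 * γ / K with hεd
  have hε : 0 < ε := by positivity
  have hεK : ε * K = δ ^ 2 * γ := by rw [hεd]; field_simp
  have hmem : ∀ P : H →L[ℂ] H, P ∈ B → ApxSc r (star (P * star a) * (P * star a)) :=
    fun P hP => hp _ (mul_mem (star_mem (mul_mem hP (star_mem haB))) (mul_mem hP (star_mem haB)))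
  have hpy : ∀ N M, N ≤ M → nu r (pr t N * star a) ^ 2 =
      nu r ((pr t N - pr t M) * star a) ^ 2 + nu r (pr t M * star a) ^ 2 := by
    intro N M hNM
    have e1 := nu_vec hr (hmem _ (pr_mem htB N)) hη
    have e2 := nu_vec hr (hmem _ (sub_mem (pr_mem htB N) (pr_mem htB M))) hη
    have e3 := nu_vec hr (hmem _ (pr_mem htB M)) hη
    refine tendsto_nhds_unique e1 ((e2.add e3).congr fun n => ?_)
    simp only [mul_apply_eq_comp]
    exact (pyth (star_pr t N) (star_pr t M) (ht.pr_pr hNM) (ht.pr_pr le_rfl) _).symm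
  have hbdd : BddBelow (Set.range fun N => nu r (pr t N * star a) ^ 2) :=
    ⟨0, by rintro _ ⟨n, rfl⟩; positivity⟩
  obtain ⟨N₀, hN₀⟩ := exists_lt_of_ciInf_lt (f := fun N => nu r (pr t N * star a) ^ 2)
    (lt_add_of_pos_right _ (pow_pos hε 2))
  have hsmall : ∀ N, N₀ ≤ N → nu r ((pr t N₀ - pr t N) * star a) < ε := by
    intro N hN
    have h1 := hpy N₀ N hN
    have h2 := ciInf_le hbdd N
    exact lt_of_pow_lt_pow_left₀ 2 hε.le (by linarith)
  obtain ⟨n, c, hn⟩ := hp (a * pr t N₀ * star a)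
    (mul_mem (mul_mem haB (pr_mem htB N₀)) (star_mem haB)) ε hε
  have hc : δ ^ 2 - ε ≤ ‖c‖ := by
    have e : star (r n) * (a * pr t N₀ * star a) * r n =
        star (star (t N₀) * star a * r n) * (star (t N₀) * star a * r n) := by
      simp only [star_mul, star_star, pr, mul_assoc]
    rw [e] at hn
    have h1 := (sq_close hn hη).1
    have h2 := ha n N₀
    have e2 : ‖star (t N₀) * star a * r n‖ = ‖star (r n) * a * t N₀‖ := by
      rw [← norm_star]; simp only [star_mul, star_star, mul_assoc]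
    rw [e2, abs_lt] at h1
    nlinarith [h1.2]
  have hx := (hd (b * pr r n * a) (mul_mem (mul_mem hbB (pr_mem hrB n)) haB)).ev hu ht hε
  obtain ⟨N, hN1, hN2⟩ := (hx.and (eventually_ge_atTop N₀)).exists
  have hy := (nu_tendsto hr ((pr t N₀ - pr t N) * star a)).eventually
    (gt_mem_nhds (hsmall N hN2))
  obtain ⟨m, hm1, hm2⟩ := (hy.and (eventually_ge_atTop n)).exists
  have hρ := hr.rho_iso hm2
  have he := hr.eq_mul hm2
  set ρ := star (r n) * r m with hρd
  set E := star (r n) * (a * pr t N₀ * star a) * r n - c • (1 : H →L[ℂ] H) with hE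
  have key : c • (star (u N) * b * r m) =
      (star (u N) * (b * pr r n * a) * t N) * (star (t N) * star a * r m)
      + star (u N) * (b * pr r n * a) * ((pr t N₀ - pr t N) * star a * r m)
      - star (u N) * b * r n * E * ρ := by
    rw [hE, mul_sub (star (u N) * b * r n), sub_mul _ _ ρ, mul_smul_comm, smul_mul_assoc, mul_one]
    have e1 : star (u N) * b * r n * ρ = star (u N) * b * r m := by
      rw [mul_assoc (star (u N) * b), he]
    have e2 : star (u N) * b * r n * (star (r n) * (a * pr t N₀ * star a) * r n) * ρ =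
        star (u N) * (b * pr r n * a) * (pr t N₀ * star a * r m) := by
      conv_rhs => rw [← he]
      simp only [pr, mul_assoc]
    rw [e1, e2]
    simp only [pr, mul_assoc, sub_mul, mul_sub]
    abel
  have n1 : ‖(star (u N) * (b * pr r n * a) * t N) * (star (t N) * star a * r m)‖ ≤ ε * ‖a‖ := by
    refine (norm_mul_le _ _).trans (mul_le_mul hN1.le ?_ (norm_nonneg _) hε.le)
    refine (norm_conj_le ht hr _ _ _).trans_eq (norm_star a)
  have n2 : ‖star (u N) * (b * pr r n * a) * ((pr t N₀ - pr t N) * star a * r m)‖ ≤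
      (‖b‖ * ‖a‖) * ε := by
    refine (norm_mul_le _ _).trans (mul_le_mul ?_ hm1.le (norm_nonneg _) (by positivity))
    refine (norm_mul_le_right (hu.norm_star_le N)).trans ((norm_mul_le _ _).trans ?_)
    exact mul_le_mul_of_nonneg_right (norm_mul_le_left (hr.norm_pr_le n)) (norm_nonneg _)
  have n3 : ‖star (u N) * b * r n * E * ρ‖ ≤ ‖b‖ * ε := by
    refine (norm_mul_le_left (norm_le_of_iso hρ)).trans ((norm_mul_le _ _).trans ?_)
    exact mul_le_mul (norm_conj_le hu hr _ _ _) hn.le (norm_nonneg _) (norm_nonneg _)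
  have n4 : ‖c‖ * γ ≤ ‖c • (star (u N) * b * r m)‖ := by
    rw [norm_smul]
    exact mul_le_mul_of_nonneg_left (hb N m) (norm_nonneg _)
  rw [key] at n4
  have n5 := (norm_sub_le _ _).trans (add_le_add ((norm_add_le _ _).trans (add_le_add n1 n2)) n3)
  have n6 : (δ ^ 2 - ε) * γ ≤ ‖c‖ * γ := mul_le_mul_of_nonneg_right hc hγ.le
  have n7 : 0 ≤ ‖b‖ * ‖a‖ * ε := by positivity
  rw [hK] at hεK
  nlinarith

end Hilb

end Vale.Agent.P070
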