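import Vale.Agent.P070.Key

namespace Vale.Agent.P070

open Filter Topology Set
open scoped InnerProductSpace

section Abs

variable {R : Type*} [CStarAlgebra R] {T : Type*}

/-- The algebra generated by the base and the generators indexed by `S`. -/
noncomputable def Alg (G : Set R) (u : T → R) (S : Set T) : StarSubalgebra ℂ R := gen (G ∪ u '' S)

variable {G : Set R} {u : T → R}

theorem Alg.closed (S : Set T) : IsClosed (Alg G u S : Set R) := gen_closed _

theorem Alg.mono {S S' : Set T} (h : S ⊆ S') : Alg G u S ≤ Alg G u S' :=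
  gen_mono (union_subset_union_right _ (image_mono h))

theorem Alg.gen_mem {S : Set T} {s : T} (h : s ∈ S) : u s ∈ Alg G u S :=
  subset_gen _ (Or.inr ⟨s, h, rfl⟩)

theorem Alg.base_mem {S : Set T} {g : R} (h : g ∈ G) : g ∈ Alg G u S :=
  subset_gen _ (Or.inl h)

theorem Alg.base_le (S : Set T) : gen G ≤ Alg G u S := gen_mono subset_union_left

theorem Alg.empty : Alg G u ∅ = gen G := by simp [Alg]

theorem Alg.insert_eq (S : Set T) (s : T) :
    Alg G u (insert s S) = gen ((Alg G u S : Set R) ∪ {u s}) := by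
  refine le_antisymm (gen_le (gen_closed _) ?_) (gen_le (Alg.closed _) ?_)
  · rintro x (hx | ⟨t, rfl | ht, rfl⟩)
    · exact subset_gen _ (Or.inl (Alg.base_mem hx))
    · exact subset_gen _ (Or.inr rfl)
    · exact subset_gen _ (Or.inl (Alg.gen_mem ht))
  · rintro x (hx | rfl)
    · exact Alg.mono (subset_insert _ _) hx
    · exact Alg.gen_mem (mem_insert _ _)

theorem Alg.insert_zero (S : Set T) {s : T} (h : u s = 0) : Alg G u (insert s S) = Alg G u S := by
  rw [Alg.insert_eq]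
  refine le_antisymm (gen_le (Alg.closed _) ?_) fun x hx => subset_gen _ (Or.inl hx)
  rintro x (hx | rfl)
  · exact hx
  · rw [h]; exact zero_mem _

theorem Alg.approx {S : Set T} {x : R} (hx : x ∈ Alg G u S) {ε : ℝ} (hε : 0 < ε) :
    ∃ S' ⊆ S, S'.Finite ∧ ∃ y ∈ Alg G u S', ‖x - y‖ < ε := by
  obtain ⟨y, hy, hxy⟩ := Metric.mem_closure_iff.1 hx ε hε
  rw [dist_eq_norm] at hxy
  suffices ∃ S' ⊆ S, S'.Finite ∧ y ∈ Alg G u S' by
    obtain ⟨S', h1, h2, h3⟩ := this
    exact ⟨S', h1, h2, y, h3, hxy⟩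
  clear hxy
  induction hy using StarAlgebra.adjoin_induction with
  | mem z hz =>
    rcases hz with hz | ⟨s, hs, rfl⟩
    · exact ⟨∅, empty_subset _, finite_empty, Alg.base_mem hz⟩
    · exact ⟨{s}, singleton_subset_iff.2 hs, finite_singleton s, Alg.gen_mem rfl⟩
  | algebraMap r => exact ⟨∅, empty_subset _, finite_empty, algebraMap_mem _ r⟩
  | add a b _ _ ia ib =>
    obtain ⟨A, a1, a2, a3⟩ := ia
    obtain ⟨B, b1, b2, b3⟩ := ib
    exact ⟨A ∪ B, union_subset a1 b1, a2.union b2,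
      add_mem (Alg.mono subset_union_left a3) (Alg.mono subset_union_right b3)⟩
  | mul a b _ _ ia ib =>
    obtain ⟨A, a1, a2, a3⟩ := ia
    obtain ⟨B, b1, b2, b3⟩ := ib
    exact ⟨A ∪ B, union_subset a1 b1, a2.union b2,
      mul_mem (Alg.mono subset_union_left a3) (Alg.mono subset_union_right b3)⟩
  | star a _ ia =>
    obtain ⟨A, a1, a2, a3⟩ := ia
    exact ⟨A, a1, a2, star_mem a3⟩

theorem Alg.countable_supp {S : Set T} {x : R} (hx : x ∈ Alg G u S) :
    ∃ S' ⊆ S, S'.Countable ∧ x ∈ Alg G u S' := by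
  choose F hF1 hF2 y hy1 hy2 using fun n : ℕ => Alg.approx hx (Nat.one_div_pos_of_nat (n := n))
  refine ⟨⋃ n, F n, iUnion_subset hF1, countable_iUnion fun n => (hF2 n).countable, ?_⟩
  have : x ∈ closure (Alg G u (⋃ n, F n) : Set R) := Metric.mem_closure_iff.2 fun ε hε => by
    obtain ⟨n, hn⟩ := exists_nat_one_div_lt hε
    exact ⟨y n, Alg.mono (subset_iUnion F n) (hy1 n), by rw [dist_eq_norm]; exact (hy2 n).trans hn⟩
  rwa [(Alg.closed _).closure_eq] at this

theorem Alg.countable_supp_seq {S : Set T} {x : ℕ → R} (hx : ∀ n, x n ∈ Alg G u S) :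
    ∃ S' ⊆ S, S'.Countable ∧ ∀ n, x n ∈ Alg G u S' := by
  choose F hF1 hF2 hF3 using fun n => Alg.countable_supp (hx n)
  exact ⟨⋃ n, F n, iUnion_subset hF1, countable_iUnion hF2,
    fun n => Alg.mono (subset_iUnion F n) (hF3 n)⟩

theorem Alg.separable (hG : G.Countable) {S : Set T} (hS : S.Countable) :
    ∃ f : ℕ → R, (∀ n, f n ∈ Alg G u S) ∧ (Alg G u S : Set R) ⊆ closure (range f) := by
  have h1 : (G ∪ u '' S).Countable := hG.union (hS.image u)
  set X := G ∪ u '' S with hX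
  have h2 : (X ∪ star X).Countable := by
    refine h1.union ?_
    rw [← image_star]; exact h1.image _
  have h3 : ((Submonoid.closure (X ∪ star X) : Submonoid R) : Set R).Countable := by
    have := h2.to_subtype
    refine (countable_range fun l : List ↥(X ∪ star X) => (l.map (↑)).prod).mono fun x hx => ?_
    obtain ⟨l, hl, rfl⟩ := Submonoid.exists_list_of_mem_closure hx
    refine ⟨l.pmap Subtype.mk hl, ?_⟩
    simp [List.map_pmap]
  have h4 : TopologicalSpace.IsSeparable (Alg G u S : Set R) := by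
    have h5 := (h3.isSeparable.span (R := ℂ)).closure
    rw [← StarAlgebra.adjoin_eq_span] at h5
    exact h5
  obtain ⟨t, ht1, ht2, ht3⟩ := h4.exists_countable_dense_subset
  have hne : t.Nonempty := by
    have := ht3 (zero_mem (Alg G u S))
    exact closure_nonempty_iff.1 ⟨_, this⟩
  obtain ⟨f, rfl⟩ := ht2.exists_eq_range hne
  exact ⟨f, fun n => ht1 ⟨n, rfl⟩, ht3⟩

/-- `Q` passes to limits. -/
def Lim (G : Set R) (u : T → R) (Q : StarSubalgebra ℂ R → Prop) : Prop :=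
  ∀ S : Set T, (∀ S' ⊆ S, S'.Finite → ∃ S'', S' ⊆ S'' ∧ S'' ⊆ S ∧ Q (Alg G u S'')) →
    Q (Alg G u S)

theorem lim_closed {V : Set R} (hV : IsClosed V) : Lim G u fun B => ∀ x ∈ B, x ∈ V := by
  intro S h x hx
  have : x ∈ closure V := Metric.mem_closure_iff.2 fun ε hε => by
    obtain ⟨S', h1, h2, y, hy, hxy⟩ := Alg.approx hx hε
    obtain ⟨S'', h3, -, h5⟩ := h S' h1 h2
    exact ⟨y, h5 y (Alg.mono h3 hy), by rwa [dist_eq_norm]⟩
  rwa [hV.closure_eq] at this

theorem induct [LinearOrder T] [WellFoundedLT T] {Q : StarSubalgebra ℂ R → Prop}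
    (hlim : Lim G u Q) {S0 U : Set T} (hS : S0 ⊆ U) (h0 : Q (Alg G u S0))
    (hstep : ∀ s ∈ U, s ∉ S0 → Q (Alg G u (S0 ∪ U ∩ Iio s)) →
      Q (Alg G u (insert s (S0 ∪ U ∩ Iio s)))) :
    (∀ s, Q (Alg G u (S0 ∪ U ∩ Iio s))) ∧ Q (Alg G u U) := by
  have key : ∀ L : Set T, (∀ a b, a < b → b ∈ L → a ∈ L) →
      (∀ s ∈ L, Q (Alg G u (S0 ∪ U ∩ Iio s))) → Q (Alg G u (S0 ∪ U ∩ L)) := by
    intro L hL ih
    refine hlim _ fun S' h1 h2 => ?_
    by_cases h3 : S' ⊆ S0
    · exact ⟨S0, h3, subset_union_left, h0⟩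
    have hne : (S' \ S0).Nonempty := sdiff_nonempty.2 h3
    obtain ⟨s, hs, hmax⟩ := (h2.sdiff (t := S0)).exists_maximal hne
    have hsU : s ∈ U ∩ L := (h1 hs.1).resolve_left hs.2
    refine ⟨insert s (S0 ∪ U ∩ Iio s), fun x hx => ?_, ?_, hstep s hsU.1 hs.2 (ih s hsU.2)⟩
    · by_cases hx0 : x ∈ S0
      · exact Or.inr (Or.inl hx0)
      rcases lt_trichotomy x s with h | h | h
      · exact Or.inr (Or.inr ⟨((h1 hx).resolve_left hx0).1, h⟩)
      · exact Or.inl h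
      · exact absurd (hmax ⟨hx, hx0⟩ h.le) (not_le.2 h)
    · rintro x (rfl | hx | hx)
      · exact Or.inr hsU
      · exact Or.inl hx
      · exact Or.inr ⟨hx.1, hL _ _ hx.2 hsU.2⟩
  have h1 : ∀ s, Q (Alg G u (S0 ∪ U ∩ Iio s)) := by
    intro s
    induction s using WellFoundedLT.induction with
    | ind s ih => exact key (Iio s) (fun a b h hb => h.trans hb) ih
  refine ⟨h1, ?_⟩
  have := key univ (fun _ _ _ _ => trivial) fun s _ => h1 s
  rwa [inter_univ, union_eq_self_of_subset_left hS] at this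

/-- The data of a gluing lie in `B`. -/
def Data (B : StarSubalgebra ℂ R) (c d : ℕ → R) (w : R) : Prop :=
  (∀ n, c n ∈ B) ∧ (∀ n, d n ∈ B) ∧ (∀ N, w * (1 - pr d N) ∈ B) ∧ ∀ N, w * pr d N * star w ∈ B

theorem Data.mono {B C : StarSubalgebra ℂ R} {c d : ℕ → R} {w : R} (h : Data B c d w)
    (hBC : B ≤ C) : Data C c d w :=
  ⟨fun n => hBC (h.1 n), fun n => hBC (h.2.1 n), fun n => hBC (h.2.2.1 n),
    fun n => hBC (h.2.2.2 n)⟩

theorem Gl.data {B : StarSubalgebra ℂ R} {c d : ℕ → R} {w : R} (h : Gl B c d w) :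
    Data B c d w := ⟨h.cm, h.dm, h.m1, h.m2⟩

theorem Gl.transfer {B C : StarSubalgebra ℂ R} {c d : ℕ → R} {w : R} (h : Gl B c d w)
    (hd : Data C c d w) (pc : Pt C c) (pd : Pt C d) (dj : Dj C d c) : Gl C c d w :=
  ⟨h.nc, h.nd, hd.1, hd.2.1, hd.2.2.1, hd.2.2.2, h.r1, h.r2, pc, pd, dj⟩

theorem Data.countable_supp {S : Set T} {c d : ℕ → R} {w : R} (h : Data (Alg G u S) c d w) :
    ∃ S' ⊆ S, S'.Countable ∧ Data (Alg G u S') c d w := by
  obtain ⟨A, a1, a2, a3⟩ := Alg.countable_supp_seq h.1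
  obtain ⟨B, b1, b2, b3⟩ := Alg.countable_supp_seq h.2.1
  obtain ⟨C, c1, c2, c3⟩ := Alg.countable_supp_seq h.2.2.1
  obtain ⟨D, d1, d2, d3⟩ := Alg.countable_supp_seq h.2.2.2
  refine ⟨(A ∪ B) ∪ (C ∪ D), union_subset (union_subset a1 b1) (union_subset c1 d1),
    (a2.union b2).union (c2.union d2), fun n => ?_, fun n => ?_, fun n => ?_, fun n => ?_⟩
  · exact Alg.mono (subset_union_left.trans subset_union_left) (a3 n)
  · exact Alg.mono (subset_union_right.trans subset_union_left) (b3 n)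
  · exact Alg.mono (subset_union_left.trans subset_union_right) (c3 n)
  · exact Alg.mono (subset_union_right.trans subset_union_right) (d3 n)

theorem exists_rec [LinearOrder T] [WellFoundedLT T] (G : Set R) (c d : T → ℕ → R) :
    ∃ u : T → R, ∀ t, Gl (Alg G u (Iio t)) (c t) (d t) (u t) ∨
      (u t = 0 ∧ ¬ ∃ w, Gl (Alg G u (Iio t)) (c t) (d t) w) := by
  classical
  let F : ∀ t : T, (∀ s, s < t → R) → R := fun t prev =>
    if h : ∃ w, Gl (gen (G ∪ {x | ∃ s, ∃ h : s < t, prev s h = x})) (c t) (d t) w then h.choose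
    else 0
  let u : T → R := (wellFounded_lt (α := T)).fix F
  refine ⟨u, fun t => ?_⟩
  have h1 : u t = F t fun s _ => u s := (wellFounded_lt (α := T)).fix_eq F t
  have h2 : Alg G u (Iio t) = gen (G ∪ {x | ∃ s, ∃ _ : s < t, u s = x}) := by
    unfold Alg
    congr 2
    ext x
    simp
  rw [h2, h1]
  by_cases h : ∃ w, Gl (gen (G ∪ {x | ∃ s, ∃ _ : s < t, u s = x})) (c t) (d t) w
  · left
    simp only [F, dif_pos h]
    exact h.choose_spec
  · right
    simp only [F, dif_neg h]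
    exact ⟨trivial, h⟩

end Abs

section Sys

variable {H : Type*} [NormedAddCommGroup H] [InnerProductSpace ℂ H] [CompleteSpace H]
  [Nontrivial H] {T : Type*} [LinearOrder T] [WellFoundedLT T] {G : Set (H →L[ℂ] H)}
  {u : T → H →L[ℂ] H} {c d : T → ℕ → H →L[ℂ] H}

omit [LinearOrder T] [WellFoundedLT T] in
theorem pt_step {S : Set T} {s : T} (h : Gl (Alg G u S) (c s) (d s) (u s)) {e : ℕ → H →L[ℂ] H}
    (he : NS e) (hm : ∀ n, e n ∈ Alg G u S) (hp : Pt (Alg G u S) e) :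
    Pt (Alg G u (insert s S)) e := by
  rw [Alg.insert_eq]
  exact h.pt_of he hp (dj_or he h.nc h.nd hm h.cm hp h.dj)

theorem chain_pt (hu : ∀ t, Gl (Alg G u (Iio t)) (c t) (d t) (u t) ∨ u t = 0) {t : T}
    {e : ℕ → H →L[ℂ] H} (he : NS e) (hm : ∀ n, e n ∈ Alg G u (Iio t))
    (hp : Pt (Alg G u (Iio t)) e) : Pt (Alg G u univ) e := by
  refine (induct (Q := fun B => Pt B e) (lim_closed (ApxSc.closed he)) (subset_univ _) hp
    fun s _ hs ih => ?_).2
  have e1 : Iio t ∪ univ ∩ Iio s = Iio s := by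
    rw [univ_inter, union_eq_self_of_subset_left (Iio_subset_Iio (not_lt.1 hs))]
  rw [e1] at ih ⊢
  rcases hu s with h | h
  · exact pt_step h he (fun n => Alg.mono (Iio_subset_Iio (not_lt.1 hs)) (hm n)) ih
  · rwa [Alg.insert_zero _ h]

/-- Dependency-closed sets of indices. -/
def Clo (G : Set (H →L[ℂ] H)) (u : T → H →L[ℂ] H) (c d : T → ℕ → H →L[ℂ] H) (S : Set T) : Prop :=
  ∀ s ∈ S, Gl (Alg G u (Iio s)) (c s) (d s) (u s) → Data (Alg G u (S ∩ Iio s)) (c s) (d s) (u s)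

theorem dj_closed (hu : ∀ t, Gl (Alg G u (Iio t)) (c t) (d t) (u t) ∨ u t = 0) {S : Set T}
    (hS : Clo G u c d S) {t : T} (h1 : Iio t ⊆ S) (h2 : t ∉ S)
    (ht : Gl (Alg G u (Iio t)) (c t) (d t) (u t)) : Dj (Alg G u S) (d t) (c t) := by
  refine (induct (Q := fun B => Dj B (d t) (c t)) (lim_closed (Sm.closed ht.nd ht.nc)) h1 ht.dj
    fun s hsS hs ih => ?_).2
  rcases hu s with h | h
  swap
  · rwa [Alg.insert_zero _ h]
  have hts : t < s := lt_of_le_of_ne (not_lt.1 hs) fun e => h2 (e ▸ hsS)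
  have hle : Alg G u (Iio t ∪ S ∩ Iio s) ≤ Alg G u (Iio s) :=
    Alg.mono (union_subset (Iio_subset_Iio hts.le) inter_subset_right)
  have hg : Gl (Alg G u (Iio t ∪ S ∩ Iio s)) (c s) (d s) (u s) :=
    h.transfer ((hS s hsS h).mono (Alg.mono subset_union_right)) (h.pc.mono hle) (h.pd.mono hle)
      (h.dj.mono hle)
  have hm : Alg G u (Iio t) ≤ Alg G u (Iio s) := Alg.mono (Iio_subset_Iio hts.le)
  have cm : ∀ n, c t n ∈ Alg G u (Iio s) := fun n => hm (ht.cm n)
  have dm : ∀ n, d t n ∈ Alg G u (Iio s) := fun n => hm (ht.dm n)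
  have pc : Pt (Alg G u (Iio s)) (c t) :=
    (chain_pt hu ht.nc ht.cm ht.pc).mono (Alg.mono (subset_univ _))
  have pd : Pt (Alg G u (Iio s)) (d t) :=
    (chain_pt hu ht.nd ht.dm ht.pd).mono (Alg.mono (subset_univ _))
  have nd : ¬ Dj (Alg G u (Iio s)) (c t) (d t) := fun hd => ht.not_sm (hd _ (Alg.gen_mem hts))
  rw [Alg.insert_eq]
  refine hg.dj_of ht.nc ht.nd ih ?_ ?_
  · rcases dj_or ht.nd h.nc h.nd dm h.cm pd h.dj with i | i
    · exact Or.inl (i.mono hle)
    · exact Or.inr (((dj_or ht.nc ht.nd h.nd cm dm pc i).resolve_left nd).mono hle)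
  · rcases dj_or ht.nc h.nc h.nd cm h.cm pc h.dj with i | i
    · exact Or.inl (i.mono hle)
    · exact Or.inr (((dj_or ht.nd ht.nc h.nd dm cm pd i).resolve_left
        fun j => nd j.symm).mono hle)

theorem pt_closed (hu : ∀ t, Gl (Alg G u (Iio t)) (c t) (d t) (u t) ∨ u t = 0) {S : Set T}
    (hS : Clo G u c d S) {e : ℕ → H →L[ℂ] H} (he : NS e) (hm : ∀ n, e n ∈ Alg G u S)
    (hp : Pt (Alg G u S) e) : Pt (Alg G u univ) e := by
  refine (induct (Q := fun B => Pt B e) (lim_closed (ApxSc.closed he)) (subset_univ _) hp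
    fun t _ ht ih => ?_).2
  rw [univ_inter] at ih ⊢
  rcases hu t with h | h
  swap
  · rwa [Alg.insert_zero _ h]
  have hS' : Clo G u c d (S ∪ Iio t) := by
    rintro s (hs | hs) hg
    · exact (hS s hs hg).mono (Alg.mono (inter_subset_inter_left _ subset_union_left))
    · exact hg.data.mono (Alg.mono fun x hx => ⟨Or.inr (lt_trans hx hs), hx⟩)
  have hg : Gl (Alg G u (S ∪ Iio t)) (c t) (d t) (u t) :=
    h.transfer (h.data.mono (Alg.mono subset_union_right))
      ((chain_pt hu h.nc h.cm h.pc).mono (Alg.mono (subset_univ _)))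
      ((chain_pt hu h.nd h.dm h.pd).mono (Alg.mono (subset_univ _)))
      (dj_closed hu hS' subset_union_right (by simp [ht]) h)
  exact pt_step hg he (fun n => Alg.mono subset_union_left (hm n)) ih

omit [Nontrivial H] in
theorem commute_all (hu : ∀ t, Gl (Alg G u (Iio t)) (c t) (d t) (u t) ∨ u t = 0)
    {Z : H →L[ℂ] H} (hZ : ∀ x ∈ gen G, Commute Z x)
    (hZ2 : ∀ a b : H, (∀ x ∈ gen G, ⟪a, x b⟫_ℂ = 0) → ⟪a, Z b⟫_ℂ = 0)
    (hZ3 : ∀ (a : H) (μ : ℂ), Z a = μ • a → a = 0) : ∀ x ∈ Alg G u univ, Commute Z x := by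
  refine (induct (Q := fun B => ∀ x ∈ B, x ∈ {x | Commute Z x}) (lim_closed (isClosed_eq
    (continuous_const.mul continuous_id) (continuous_id.mul continuous_const))) (empty_subset _)
    (by rw [Alg.empty]; exact hZ) fun s _ _ ih => ?_).2
  rw [empty_union, univ_inter] at ih ⊢
  rcases hu s with h | h
  · rw [Alg.insert_eq]
    exact h.commute (null_of ih (fun a b hab => hZ2 a b fun x hx => hab x (Alg.base_le _ hx)) hZ3
      h.nd h.dm h.pd) ih
  · rwa [Alg.insert_zero _ h]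

omit [Nontrivial H] [LinearOrder T] [WellFoundedLT T] in
theorem lim_pi : Lim G u PI := by
  intro S h g hg l ζ hζ hl
  set ε := ((⟪ζ, g ζ⟫_ℂ).re - l) / 2 with hε
  obtain ⟨S', h1, h2, x, hx, hgx⟩ := Alg.approx hg (ε := ε) (by rw [hε]; linarith)
  obtain ⟨S'', h3, h4, h5⟩ := h S' h1 h2
  have e : ∀ η, |(⟪η, g η⟫_ℂ).re - (⟪η, x η⟫_ℂ).re| ≤ ‖g - x‖ * ‖η‖ ^ 2 := by
    intro η
    have := abs_re_inner_le (g - x) η
    rwa [sub_apply, inner_sub_right, Complex.sub_re] at this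
  obtain ⟨y, hy, hy1, hy2⟩ := h5 x (Alg.mono h3 hx) (l + ε) ζ hζ (by
    have := (abs_le.1 (e ζ)).2
    rw [hζ] at this
    rw [hε] at hgx ⊢
    linarith)
  refine ⟨y, Alg.mono h4 hy, hy1, fun η => ?_⟩
  have := (abs_le.1 (e (y η))).1
  rw [norm_iso_apply hy1] at this
  nlinarith [hy2 η, sq_nonneg ‖η‖]

omit [Nontrivial H] in
theorem pi_all (hu : ∀ t, Gl (Alg G u (Iio t)) (c t) (d t) (u t) ∨ u t = 0)
    {Z : H →L[ℂ] H} (hZ : ∀ x ∈ gen G, Commute Z x)
    (hZ2 : ∀ a b : H, (∀ x ∈ gen G, ⟪a, x b⟫_ℂ = 0) → ⟪a, Z b⟫_ℂ = 0)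
    (hZ3 : ∀ (a : H) (μ : ℂ), Z a = μ • a → a = 0) (hP : PI (gen G)) : PI (Alg G u univ) := by
  refine (induct lim_pi (empty_subset _) (by rw [Alg.empty]; exact hP) fun s _ _ ih => ?_).2
  rw [empty_union, univ_inter] at ih ⊢
  rcases hu s with h | h
  · rw [Alg.insert_eq]
    exact h.pi (null_of (fun x hx => commute_all hu hZ hZ2 hZ3 x (Alg.mono (subset_univ _) hx))
      (fun a b hab => hZ2 a b fun x hx => hab x (Alg.base_le _ hx)) hZ3 h.nd h.dm h.pd) ih
  · rwa [Alg.insert_zero _ h]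

end Sys

end Vale.Agent.P070
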