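import Vale.Agent.P070.Glue

namespace Vale.Agent.P070

open Filter Topology
open scoped InnerProductSpace

section Alg

variable {R : Type*} [Ring R] [StarRing R]

theorem zig_step {C0 C1 C2 D0 D1 j k : R} (s0 : star C0 = C0) (q0 : C0 * C0 = C0)
    (c01 : C0 * C1 = C1) (s1 : star C1 = C1) (q1 : C1 * C1 = C1) (c12 : C1 * C2 = C2)
    (s2 : star C2 = C2) (t0 : star D0 = D0) (p0 : D0 * D0 = D0) (t1 : star D1 = D1)
    (p1 : D1 * D1 = D1) (d01 : D0 * D1 = D1) (jj : star j * j = 1) (c1j : C1 * j = j)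
    (c2j : C2 * j = 0) (kk : star k * k = 1) (d0k : D0 * k = k) (d1k : D1 * k = 0)
    {C' v : R} (hC : C' = C1 - j * (D0 - D1 - k * (C0 - C1) * star k) * star j)
    (hv : v = (C0 - C1) * star k + j * (D0 - D1 - k * (C0 - C1) * star k)) :
    (star C' = C' ∧ C' * C' = C' ∧ C1 * C' = C' ∧ C' * C2 = C2) ∧
      C0 * C' = C' ∧ star v * v = D0 - D1 ∧ v * star v = C0 - C' ∧ C0 * v = v ∧ C' * v = 0 ∧
      v * D0 = v ∧ v * D1 = 0 := by
  have c10 : C1 * C0 = C1 := by
    have := congrArg star c01; rwa [star_mul, s0, s1] at this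
  have d10 : D1 * D0 = D1 := by
    have := congrArg star d01; rwa [star_mul, t0, t1] at this
  have jc1 : star j * C1 = star j := by
    have := congrArg star c1j; rwa [star_mul, s1] at this
  have jc2 : star j * C2 = 0 := by
    have := congrArg star c2j; rwa [star_mul, s2, star_zero] at this
  have kd0 : star k * D0 = star k := by
    have := congrArg star d0k; rwa [star_mul, t0] at this
  have kd1 : star k * D1 = 0 := by
    have := congrArg star d1k; rwa [star_mul, t1, star_zero] at this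
  have c0j : C0 * j = j := by rw [← c1j, ← mul_assoc, c01]
  have jc0 : star j * C0 = star j := by
    have := congrArg star c0j; rwa [star_mul, s0] at this
  have A : ∀ {a b c : R}, a * b = c → ∀ x : R, a * (b * x) = c * x := fun h x => by
    rw [← mul_assoc, h]
  subst hC hv
  refine ⟨⟨?_, ?_, ?_, ?_⟩, ?_, ?_, ?_, ?_, ?_, ?_, ?_⟩ <;>
    simp only [star_sub, star_add, star_mul, star_star, s0, s1, t0, t1, mul_sub, sub_mul, mul_add,
      add_mul, mul_assoc, q0, c01, q1, c12, p0, p1, d01, c10, d10, jc1,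
      jc2, kd0, kd1, A q0, A c01, A q1, A p0, A p1, A d01, A jj, A c1j, A kk, A d0k,
      A d1k, A c10, A d10, A jc1, A kd0, A kd1, A c0j, A jc0, one_mul, mul_zero,
      zero_mul] <;> abel

/-- The modified projections. -/
def cp (c d j k : ℕ → R) : ℕ → R
  | 0 => pr c 0
  | n + 1 => pr c (n + 1) - j (n + 1) *
      (pr d n - pr d (n + 1) - k n * (cp c d j k n - pr c (n + 1)) * star (k n)) * star (j (n + 1))

/-- The pieces. -/
def vp (c d j k : ℕ → R) (n : ℕ) : R :=
  (cp c d j k n - pr c (n + 1)) * star (k n) +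
    j (n + 1) * (pr d n - pr d (n + 1) - k n * (cp c d j k n - pr c (n + 1)) * star (k n))

/-- `j` gives room between consecutive projections of `c`. -/
structure Room (c j : ℕ → R) : Prop where
  iso : ∀ n, star (j n) * j n = 1
  le : ∀ n, pr c n * j n = j n
  orth : ∀ n, pr c (n + 1) * j n = 0

variable {c d j k : ℕ → R}

theorem cp_inv (hc : NS c) (hd : NS d) (hj : Room c j) (hk : Room d k) (n : ℕ) :
    star (cp c d j k n) = cp c d j k n ∧ cp c d j k n * cp c d j k n = cp c d j k n ∧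
      pr c n * cp c d j k n = cp c d j k n ∧ cp c d j k n * pr c (n + 1) = pr c (n + 1) := by
  induction n with
  | zero => exact ⟨star_pr c 0, hc.pr_pr le_rfl, hc.pr_pr le_rfl, hc.pr_pr (Nat.le_succ 0)⟩
  | succ n ih =>
    exact (zig_step ih.1 ih.2.1 ih.2.2.2 (star_pr c _) (hc.pr_pr le_rfl) (hc.pr_pr (Nat.le_succ _))
      (star_pr c _) (star_pr d n) (hd.pr_pr le_rfl) (star_pr d _) (hd.pr_pr le_rfl)
      (hd.pr_pr (Nat.le_succ n)) (hj.iso _) (hj.le _) (hj.orth _) (hk.iso n) (hk.le n)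
      (hk.orth n) rfl rfl).1

theorem vp_facts (hc : NS c) (hd : NS d) (hj : Room c j) (hk : Room d k) (n : ℕ) :
    cp c d j k n * cp c d j k (n + 1) = cp c d j k (n + 1) ∧
      star (vp c d j k n) * vp c d j k n = pr d n - pr d (n + 1) ∧
      vp c d j k n * star (vp c d j k n) = cp c d j k n - cp c d j k (n + 1) ∧
      cp c d j k n * vp c d j k n = vp c d j k n ∧ cp c d j k (n + 1) * vp c d j k n = 0 ∧
      vp c d j k n * pr d n = vp c d j k n ∧ vp c d j k n * pr d (n + 1) = 0 := by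
  have ih := cp_inv hc hd hj hk n
  exact (zig_step ih.1 ih.2.1 ih.2.2.2 (star_pr c _) (hc.pr_pr le_rfl) (hc.pr_pr (Nat.le_succ _))
      (star_pr c _) (star_pr d n) (hd.pr_pr le_rfl) (star_pr d _) (hd.pr_pr le_rfl)
      (hd.pr_pr (Nat.le_succ n)) (hj.iso _) (hj.le _) (hj.orth _) (hk.iso n) (hk.le n)
      (hk.orth n) rfl rfl).2

/-- Partial sums. -/
def wp (c d j k : ℕ → R) (M : ℕ) : R := ∑ n ∈ Finset.range M, vp c d j k n

theorem wp_facts (hc : NS c) (hd : NS d) (hj : Room c j) (hk : Room d k) {N M : ℕ}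
    (h : N ≤ M) :
    star (wp c d j k M - wp c d j k N) * (wp c d j k M - wp c d j k N) = pr d N - pr d M ∧
      (wp c d j k M - wp c d j k N) * star (wp c d j k M - wp c d j k N) =
        cp c d j k N - cp c d j k M ∧
      cp c d j k M * (wp c d j k M - wp c d j k N) = 0 ∧
      (wp c d j k M - wp c d j k N) * pr d M = 0 ∧
      (wp c d j k M - wp c d j k N) * pr d N = wp c d j k M - wp c d j k N ∧
      pr c N * (wp c d j k M - wp c d j k N) = wp c d j k M - wp c d j k N := by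
  induction M, h using Nat.le_induction with
  | base => simp
  | succ M hNM ih =>
    obtain ⟨i1, i2, i3, i4, i5, i6⟩ := ih
    obtain ⟨f1, f2, f3, f4, f5, f6, f7⟩ := vp_facts hc hd hj hk M
    obtain ⟨g1, -, g3, -⟩ := cp_inv hc hd hj hk M
    have g1' := (cp_inv hc hd hj hk (M + 1)).1
    have e : wp c d j k (M + 1) - wp c d j k N =
        (wp c d j k M - wp c d j k N) + vp c d j k M := by
      rw [wp, Finset.sum_range_succ, ← wp]; abel
    rw [e]
    generalize wp c d j k M - wp c d j k N = D at *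
    generalize vp c d j k M = v at *
    have x1 : star D * v = 0 := by
      have := congrArg star i3
      rw [star_mul, g1, star_zero] at this
      rw [← f4, ← mul_assoc, this, zero_mul]
    have x2 : star v * D = 0 := by
      have := congrArg star x1
      rwa [star_mul, star_star, star_zero] at this
    have x3 : v * star D = 0 := by
      have := congrArg star i4
      rw [star_mul, star_pr, star_zero] at this
      rw [← f6, mul_assoc, this, mul_zero]
    have x4 : D * star v = 0 := by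
      have := congrArg star x3
      rwa [star_mul, star_star, star_zero] at this
    have x5 : cp c d j k (M + 1) * cp c d j k M = cp c d j k (M + 1) := by
      have := congrArg star f1
      rwa [star_mul, g1, g1'] at this
    refine ⟨?_, ?_, ?_, ?_, ?_, ?_⟩
    · rw [star_add, add_mul, mul_add, mul_add, i1, x1, x2, f2]; abel
    · rw [star_add, add_mul, mul_add, mul_add, i2, x3, x4, f3]; abel
    · rw [mul_add, f5, ← x5, mul_assoc, i3, mul_zero, add_zero]
    · rw [add_mul, f7, ← hd.pr_pr (Nat.le_succ M), ← mul_assoc, i4, zero_mul, add_zero]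
    · rw [add_mul, i5, ← f6, mul_assoc, hd.pr_pr' hNM]
    · rw [mul_add, i6, ← f4, ← g3, ← mul_assoc, ← mul_assoc, hc.pr_pr hNM]

end Alg

section Mem

variable {R : Type*} [CStarAlgebra R] {B : StarSubalgebra ℂ R} {c d j k : ℕ → R}

theorem cp_mem (hc : ∀ n, c n ∈ B) (hd : ∀ n, d n ∈ B) (hj : ∀ n, j n ∈ B) (hk : ∀ n, k n ∈ B)
    (n : ℕ) : cp c d j k n ∈ B := by
  induction n with
  | zero => exact pr_mem hc 0
  | succ n ih =>
    exact sub_mem (pr_mem hc _) (mul_mem (mul_mem (hj _) (sub_mem (sub_mem (pr_mem hd _)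
      (pr_mem hd _)) (mul_mem (mul_mem (hk n) (sub_mem ih (pr_mem hc _))) (star_mem (hk n)))))
      (star_mem (hj _)))

theorem wp_mem (hc : ∀ n, c n ∈ B) (hd : ∀ n, d n ∈ B) (hj : ∀ n, j n ∈ B) (hk : ∀ n, k n ∈ B)
    (M : ℕ) : wp c d j k M ∈ B := by
  refine sum_mem fun n _ => ?_
  have ih := cp_mem hc hd hj hk n
  exact add_mem (mul_mem (sub_mem ih (pr_mem hc _)) (star_mem (hk n))) (mul_mem (hj _)
    (sub_mem (sub_mem (pr_mem hd _) (pr_mem hd _))
      (mul_mem (mul_mem (hk n) (sub_mem ih (pr_mem hc _))) (star_mem (hk n)))))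

end Mem

section Hilb

variable {H : Type*} [NormedAddCommGroup H] [InnerProductSpace ℂ H] [CompleteSpace H]

omit [CompleteSpace H] in
theorem norm_apply_le_of_le_one {x : H →L[ℂ] H} (hx : ‖x‖ ≤ 1) (v : H) : ‖x v‖ ≤ ‖v‖ :=
  (x.le_opNorm v).trans (mul_le_of_le_one_left (norm_nonneg v) hx)

/-- Strongly null range projections. -/
def Null (t : ℕ → H →L[ℂ] H) : Prop := ∀ v, Tendsto (fun n => pr t n v) atTop (𝓝 0)

theorem Null.lim {t : ℕ → H →L[ℂ] H} (h : Null t) (x : H →L[ℂ] H) (v : H) :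
    Tendsto (fun n => (x * (1 - pr t n)) v) atTop (𝓝 (x v)) := by
  have : Tendsto (fun n => x (v - pr t n v)) atTop (𝓝 (x (v - 0))) :=
    (x.continuous.tendsto _).comp (tendsto_const_nhds.sub (h v))
  simpa using this

theorem exists_glue {B : StarSubalgebra ℂ (H →L[ℂ] H)} {c d j k : ℕ → H →L[ℂ] H} (hc : NS c)
    (hd : NS d) (hj : Room c j) (hk : Room d k) (cm : ∀ n, c n ∈ B) (dm : ∀ n, d n ∈ B)
    (jm : ∀ n, j n ∈ B) (km : ∀ n, k n ∈ B) (nc : Null c) (nd : Null d) (pc : Pt B c)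
    (pd : Pt B d) (dj : Dj B d c) : ∃ w, Gl B c d w := by
  have hF := fun {N M : ℕ} (h : N ≤ M) => wp_facts hc hd hj hk h
  have hn : ∀ {N M : ℕ}, N ≤ M → ‖wp c d j k M - wp c d j k N‖ ≤ 1 := by
    intro N M h
    have h1 : ‖star (wp c d j k M - wp c d j k N) * (wp c d j k M - wp c d j k N)‖ =
        ‖wp c d j k M - wp c d j k N‖ * ‖wp c d j k M - wp c d j k N‖ :=
      CStarRing.norm_star_mul_self
    have h2 : ‖pr d N - pr d M‖ ≤ 1 := by
      refine norm_le_of_proj (by rw [star_sub, star_pr, star_pr]) ?_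
      rw [sub_mul, mul_sub, mul_sub, hd.pr_pr le_rfl, hd.pr_pr h, hd.pr_pr' h, hd.pr_pr le_rfl]
      abel
    rw [(hF h).1] at h1
    nlinarith [norm_nonneg (wp c d j k M - wp c d j k N)]
  have hcau : ∀ v, CauchySeq fun M => wp c d j k M v := by
    intro v
    refine cauchySeq_of_le_tendsto_0' (fun N => ‖pr d N v‖) (fun N M h => ?_)
      (by simpa using (nd v).norm)
    rw [dist_comm, dist_eq_norm, ← sub_apply, ← (hF h).2.2.2.2.1, mul_apply_eq_comp]
    exact norm_apply_le_of_le_one (hn h) _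
  choose f hf using fun v => cauchySeq_tendsto_of_complete (hcau v)
  let w : H →L[ℂ] H := continuousLinearMapOfTendsto (l := atTop) (wp c d j k) (f := f)
    (tendsto_pi_nhds.2 hf)
  have hw : ∀ v, Tendsto (fun M => wp c d j k M v) atTop (𝓝 (w v)) := hf
  have hw1 : ∀ N, w * (1 - pr d N) = wp c d j k N := by
    intro N
    ext v
    refine tendsto_nhds_unique (hw ((1 - pr d N) v)) (tendsto_const_nhds.congr' ?_)
    filter_upwards [eventually_ge_atTop N] with M h
    have h0 := (hF (Nat.zero_le N)).2.2.2.1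
    have h1 := (hF h).2.2.2.2.1
    have h2 : wp c d j k 0 = 0 := by simp [wp]
    rw [h2, sub_zero] at h0
    have : wp c d j k M * (1 - pr d N) = wp c d j k N := by
      rw [sub_mul, h0, sub_zero] at h1
      rw [mul_sub, mul_one, h1]; abel
    rw [← mul_apply_eq_comp, this]
  have hD : ∀ {N M : ℕ}, N ≤ M →
      wp c d j k M - wp c d j k N = w * pr d N * (1 - pr d M) := by
    intro N M h
    rw [← hw1, ← hw1, mul_assoc, mul_sub (pr d N), mul_one, hd.pr_pr h]
    noncomm_ring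
  have hlim : ∀ N v, Tendsto (fun M => (wp c d j k M - wp c d j k N) v) atTop
      (𝓝 ((w * pr d N) v)) := by
    intro N v
    refine (nd.lim (w * pr d N) v).congr' ?_
    filter_upwards [eventually_ge_atTop N] with M h
    rw [hD h]
  have r1 : ∀ N, pr c N * (w * pr d N) = w * pr d N := by
    intro N
    ext v
    refine tendsto_nhds_unique (((pr c N).continuous.tendsto _).comp (hlim N v))
      ((hlim N v).congr' ?_)
    filter_upwards [eventually_ge_atTop N] with M h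
    simp only [Function.comp]
    rw [← mul_apply_eq_comp, (hF h).2.2.2.2.2]
  have r2 : ∀ N, star (w * pr d N) * (w * pr d N) = pr d N := by
    intro N
    ext v
    refine ext_inner_left ℂ fun v' => ?_
    rw [mul_apply_eq_comp, inner_star_right]
    have h1 := (hlim N v').inner (𝕜 := ℂ) (hlim N v)
    have h2 : Tendsto (fun M => ⟪v', pr d N v - pr d M v⟫_ℂ) atTop (𝓝 ⟪v', pr d N v - 0⟫_ℂ) :=
      tendsto_const_nhds.inner (tendsto_const_nhds.sub (nd v))
    rw [sub_zero] at h2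
    refine tendsto_nhds_unique h1 (h2.congr' ?_)
    filter_upwards [eventually_ge_atTop N] with M h
    rw [← inner_star_right, ← mul_apply_eq_comp, (hF h).1, sub_apply]
  have m2 : ∀ N, w * pr d N * star w = cp c d j k N := by
    intro N
    ext v
    have h1 := hlim N (star (w * pr d N) v)
    have h0 : Tendsto (fun M => cp c d j k M v) atTop (𝓝 0) := by
      refine squeeze_zero_norm (fun M => ?_) (by simpa using (nc v).norm)
      obtain ⟨g1, g2, g3, -⟩ := cp_inv hc hd hj hk M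
      have := congrArg star g3
      rw [star_mul, g1, star_pr] at this
      rw [← this, mul_apply_eq_comp]
      exact norm_apply_le_of_le_one (norm_le_of_proj g1 g2) _
    have h2 : Tendsto (fun M => cp c d j k N v - cp c d j k M v) atTop
        (𝓝 (cp c d j k N v - 0)) := tendsto_const_nhds.sub h0
    rw [sub_zero] at h2
    have e : (w * pr d N * star w) v = (w * pr d N) (star (w * pr d N) v) := by
      rw [← mul_apply_eq_comp, star_mul, star_pr, ← mul_assoc, mul_assoc w (pr d N) (pr d N),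
        hd.pr_pr le_rfl]
    rw [e]
    refine tendsto_nhds_unique h1 (h2.congr' ?_)
    filter_upwards [eventually_ge_atTop N] with M h
    rw [← sub_apply, ← (hF h).2.1, ← mul_apply_eq_comp]
    congr 1
    rw [hD h, star_mul, star_sub, star_one, star_pr]
    have : (1 - pr d M) * (1 - pr d M) = 1 - pr d M := by
      rw [sub_mul, one_mul, mul_sub, mul_one, hd.pr_pr le_rfl]; abel
    rw [← mul_assoc, mul_assoc _ (1 - pr d M) (1 - pr d M), this]
  exact ⟨w, hc, hd, cm, dm, fun N => by rw [hw1]; exact wp_mem cm dm jm km N,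
    fun N => by rw [m2]; exact cp_mem cm dm jm km N, r1, r2, pc, pd, dj⟩

theorem approx_inner {t : ℕ → H →L[ℂ] H} {x : H →L[ℂ] H}
    {n : ℕ} {l : ℂ} {ε : ℝ} (ht : NS t) (h : ‖star (t n) * x * t n - l • (1 : H →L[ℂ] H)‖ < ε)
    {a b : H} (ha : pr t n a = a) (hb : pr t n b = b) :
    ‖⟪a, x b⟫_ℂ - l * ⟪a, b⟫_ℂ‖ ≤ ε * (‖a‖ * ‖b‖) := by
  have e : ⟪a, x b⟫_ℂ - l * ⟪a, b⟫_ℂ = ⟪star (t n) a,
      (star (t n) * x * t n - l • (1 : H →L[ℂ] H)) (star (t n) b)⟫_ℂ := by
    have hb' : t n (star (t n) b) = b := hb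
    have ha' : t n (star (t n) a) = a := ha
    rw [sub_apply, inner_sub_right, mul_apply_eq_comp, mul_apply_eq_comp, hb', inner_star_right,
      ha']
    simp only [smul_apply, one_apply_eq_self, inner_smul_right]
    rw [inner_star_right, ha']
  rw [e]
  refine (norm_inner_le_norm _ _).trans ?_
  have h1 := norm_apply_le_of_le_one (ht.norm_star_le n) a
  have h2 := norm_apply_le_of_le_one (ht.norm_star_le n) b
  have h3 := (star (t n) * x * t n - l • (1 : H →L[ℂ] H)).le_opNorm (star (t n) b)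
  have h4 : ‖(star (t n) * x * t n - l • (1 : H →L[ℂ] H)) (star (t n) b)‖ ≤ ε * ‖b‖ :=
    h3.trans (mul_le_mul h.le h2 (norm_nonneg _) ((norm_nonneg _).trans h.le))
  calc _ ≤ ‖a‖ * (ε * ‖b‖) := mul_le_mul h1 h4 (norm_nonneg _) (norm_nonneg _)
    _ = _ := by ring

theorem null_of {B : StarSubalgebra ℂ (H →L[ℂ] H)} {Z : H →L[ℂ] H}
    (hZ : ∀ x ∈ B, Commute Z x)
    (hZ2 : ∀ a b : H, (∀ x ∈ B, ⟪a, x b⟫_ℂ = 0) → ⟪a, Z b⟫_ℂ = 0)
    (hZ3 : ∀ (a : H) (μ : ℂ), Z a = μ • a → a = 0) {t : ℕ → H →L[ℂ] H} (ht : NS t)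
    (hm : ∀ n, t n ∈ B) (hp : Pt B t) : Null t := by
  intro v
  obtain ⟨b, hb, hfix⟩ := exists_lim_proj (star_pr t) (fun n m h => ht.pr_pr h) v
  suffices b = 0 by rwa [this] at hb
  by_contra hb0
  have hbb : ⟪b, b⟫_ℂ ≠ 0 := fun h => hb0 (inner_self_eq_zero.1 h)
  set μ : ℂ := ⟪b, Z b⟫_ℂ / ⟪b, b⟫_ℂ with hμ
  set a := Z b - μ • b with ha
  have hba : ⟪b, a⟫_ℂ = 0 := by
    rw [ha, inner_sub_right, inner_smul_right, hμ, div_mul_cancel₀ _ hbb, sub_self]
  have hab : ⟪a, b⟫_ℂ = 0 := inner_eq_zero_symm.1 hba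
  have hafix : ∀ n, pr t n a = a := by
    intro n
    rw [ha, map_sub, map_smul, hfix, ← mul_apply_eq_comp, ← (hZ _ (pr_mem hm n)).eq,
      mul_apply_eq_comp, hfix]
  have h0 : ∀ x ∈ B, ⟪a, x b⟫_ℂ = 0 := by
    intro x hx
    rw [← norm_eq_zero]
    refine le_antisymm (le_of_forall_pos_le_add fun ε hε => ?_) (norm_nonneg _)
    obtain ⟨n, l, hn⟩ := hp x hx (ε / (‖a‖ * ‖b‖ + 1)) (by positivity)
    have := approx_inner ht hn (hafix n) (hfix n)
    rw [hab, mul_zero, sub_zero] at this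
    have h2 : ε / (‖a‖ * ‖b‖ + 1) * (‖a‖ * ‖b‖) ≤ ε := by
      rw [div_mul_eq_mul_div, div_le_iff₀ (by positivity)]
      nlinarith
    linarith
  have h1 := hZ2 a b h0
  have h2 : ⟪a, a⟫_ℂ = 0 := by
    conv_lhs => rw [ha, inner_sub_right, ← ha, h1, inner_smul_right, hab]
    simp
  have h3 : a = 0 := inner_self_eq_zero.1 h2
  exact hb0 (hZ3 b μ (sub_eq_zero.1 h3))

theorem Gl.commute {B : StarSubalgebra ℂ (H →L[ℂ] H)} {c d : ℕ → H →L[ℂ] H} {w Z : H →L[ℂ] H}
    (h : Gl B c d w) (nd : Null d) (hZ : ∀ x ∈ B, Commute Z x) :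
    ∀ x ∈ gen ((B : Set (H →L[ℂ] H)) ∪ {w}), Commute Z x := by
  have key : ∀ Y : H →L[ℂ] H, (∀ x ∈ B, Commute Y x) → Commute Y w := by
    intro Y hY
    show Y * w = w * Y
    ext v
    have h1 := (Y.continuous.tendsto _).comp (nd.lim w v)
    have h2 := nd.lim w (Y v)
    refine tendsto_nhds_unique h1 (h2.congr fun n => ?_)
    simp only [Function.comp]
    rw [← mul_apply_eq_comp, ← (hY _ (h.m1 n)).eq, mul_apply_eq_comp]
  have k1 := key Z hZ
  have k2 : Commute Z (star w) := by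
    have := (key (star Z) fun x hx => by
      have := (hZ _ (star_mem hx)).star_star
      rwa [star_star] at this).star_star
    rwa [star_star] at this
  refine h.gen_subset (V := {x | Commute Z x}) ?_ (fun x hx y hy => Commute.add_right hx hy) hZ
    (fun a ha b hb => ((hZ a ha).mul_right k1).mul_right (hZ b hb))
    (fun a ha b hb => ((hZ a ha).mul_right k2).mul_right (hZ b hb))
  exact isClosed_eq (continuous_const.mul continuous_id) (continuous_id.mul continuous_const)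

/-- Pure infiniteness in the ambient representation. -/
def PI (B : StarSubalgebra ℂ (H →L[ℂ] H)) : Prop :=
  ∀ g ∈ B, ∀ (l : ℝ) (ζ : H), ‖ζ‖ = 1 → l < (⟪ζ, g ζ⟫_ℂ).re →
    ∃ y ∈ B, star y * y = 1 ∧ ∀ η, l * ‖η‖ ^ 2 ≤ (⟪y η, g (y η)⟫_ℂ).re

omit [CompleteSpace H] in
theorem abs_re_inner_le (x : H →L[ℂ] H) (η : H) : |(⟪η, x η⟫_ℂ).re| ≤ ‖x‖ * ‖η‖ ^ 2 := by
  refine (Complex.abs_re_le_norm _).trans ((norm_inner_le_norm _ _).trans ?_)
  have := x.le_opNorm η
  nlinarith [norm_nonneg η]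

theorem norm_iso_apply {y : H →L[ℂ] H} (hy : star y * y = 1) (η : H) : ‖y η‖ = ‖η‖ := by
  have h := inner_star_mul y η
  rw [hy, one_apply_eq_self, inner_self_eq_norm_sq_to_K] at h
  have h2 : ‖η‖ ^ 2 = ‖y η‖ ^ 2 := by
    apply Complex.ofReal_injective
    rw [← h]; simp
  exact ((sq_eq_sq₀ (norm_nonneg _) (norm_nonneg _)).1 h2).symm

/-- Lower approximation from inside `B`. -/
def Low (B : StarSubalgebra ℂ (H →L[ℂ] H)) (ζ : H) (g : H →L[ℂ] H) : Prop :=
  ∀ ε : ℝ, 0 < ε → ∃ g' ∈ B, (∀ η, (⟪η, g' η⟫_ℂ).re - ε * ‖η‖ ^ 2 ≤ (⟪η, g η⟫_ℂ).re) ∧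
    (⟪ζ, g ζ⟫_ℂ).re - ε ≤ (⟪ζ, g' ζ⟫_ℂ).re

theorem Low.closed (B : StarSubalgebra ℂ (H →L[ℂ] H)) {ζ : H} (hζ : ‖ζ‖ = 1) :
    IsClosed {g | Low B ζ g} := by
  refine isClosed_of_closure_subset fun x hx ε hε => ?_
  obtain ⟨y, hy, hxy⟩ := Metric.mem_closure_iff.1 hx (ε / 2) (half_pos hε)
  obtain ⟨g', hg', h1, h2⟩ := hy (ε / 2) (half_pos hε)
  rw [dist_eq_norm] at hxy
  have e : ∀ η, |(⟪η, x η⟫_ℂ).re - (⟪η, y η⟫_ℂ).re| ≤ ε / 2 * ‖η‖ ^ 2 := by
    intro η
    have := abs_re_inner_le (x - y) η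
    rw [sub_apply, inner_sub_right, Complex.sub_re] at this
    exact this.trans (mul_le_mul_of_nonneg_right hxy.le (by positivity))
  refine ⟨g', hg', fun η => ?_, ?_⟩
  · have := abs_le.1 (e η)
    linarith [h1 η, this.1]
  · have := abs_le.1 (e ζ)
    rw [hζ] at this
    linarith [this.2]

theorem PI.of_low {B C : StarSubalgebra ℂ (H →L[ℂ] H)} (h : PI B) (hBC : B ≤ C) {g : H →L[ℂ] H}
    {l : ℝ} {ζ : H} (hζ : ‖ζ‖ = 1) (hl : l < (⟪ζ, g ζ⟫_ℂ).re) (hg : Low B ζ g) :
    ∃ y ∈ C, star y * y = 1 ∧ ∀ η, l * ‖η‖ ^ 2 ≤ (⟪y η, g (y η)⟫_ℂ).re := by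
  set ε := ((⟪ζ, g ζ⟫_ℂ).re - l) / 3 with hε
  obtain ⟨g', hg', h1, h2⟩ := hg ε (by rw [hε]; linarith)
  obtain ⟨y, hy, hy1, hy2⟩ := h g' hg' (l + ε) ζ hζ (by rw [hε] at h2 ⊢; linarith)
  refine ⟨y, hBC hy, hy1, fun η => ?_⟩
  have := h1 (y η)
  rw [norm_iso_apply hy1] at this
  nlinarith [hy2 η]

theorem Gl.pi {B : StarSubalgebra ℂ (H →L[ℂ] H)} {c d : ℕ → H →L[ℂ] H} {w : H →L[ℂ] H}
    (h : Gl B c d w) (nd : Null d) (hB : PI B) : PI (gen ((B : Set (H →L[ℂ] H)) ∪ {w})) := by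
  intro g hg l ζ hζ hl
  refine hB.of_low (fun x hx => subset_gen _ (Or.inl hx)) hζ hl ?_
  have h1 : ∀ a ∈ B, ∀ b ∈ B, Low B ζ (a * w * b) := by
    intro a ha b hb ε hε
    set κ : ℝ := ‖a‖ ^ 2 / ε with hκ
    have hκ0 : 0 ≤ κ := by positivity
    have ht : Tendsto (fun N => ‖a‖ * ‖pr d N (b ζ)‖ + κ * ‖pr d N (b ζ)‖ ^ 2) atTop
        (𝓝 (‖a‖ * ‖(0 : H)‖ + κ * ‖(0 : H)‖ ^ 2)) :=
      ((nd (b ζ)).norm.const_mul _).add (((nd (b ζ)).norm.pow 2).const_mul _)
    simp only [norm_zero, mul_zero, ne_eq, OfNat.ofNat_ne_zero, not_false_eq_true, zero_pow,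
      add_zero] at ht
    obtain ⟨N, hN⟩ := (ht.eventually (gt_mem_nhds hε)).exists
    have e1 : ∀ η, |(⟪η, (a * (w * pr d N) * b) η⟫_ℂ).re| ≤ ‖η‖ * (‖a‖ * ‖pr d N (b η)‖) := by
      intro η
      refine (Complex.abs_re_le_norm _).trans ((norm_inner_le_norm _ _).trans
        (mul_le_mul_of_nonneg_left ?_ (norm_nonneg _)))
      rw [← h.X_pr, mul_apply_eq_comp, mul_apply_eq_comp, mul_apply_eq_comp]
      exact (a.le_opNorm _).trans (mul_le_mul_of_nonneg_left
        (norm_apply_le_of_le_one (h.norm_X N) _) (norm_nonneg _))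
    have e2 : ∀ η, (⟪η, (a * (w * (1 - pr d N)) * b -
        (κ : ℂ) • (star (pr d N * b) * (pr d N * b))) η⟫_ℂ).re =
        (⟪η, (a * w * b) η⟫_ℂ).re - (⟪η, (a * (w * pr d N) * b) η⟫_ℂ).re -
          κ * ‖pr d N (b η)‖ ^ 2 := by
      intro η
      rw [split_w w a b (pr d N), sub_apply, add_apply, inner_sub_right, inner_add_right,
        smul_apply, inner_smul_right, inner_star_mul, ← Complex.ofReal_mul, Complex.sub_re,
        Complex.add_re, Complex.ofReal_re, mul_apply_eq_comp (pr d N)]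
      ring
    have hm := mul_mem (pr_mem h.dm N) hb
    refine ⟨a * (w * (1 - pr d N)) * b - (κ : ℂ) • (star (pr d N * b) * (pr d N * b)),
      sub_mem (mul_mem (mul_mem ha (h.m1 N)) hb)
        (SMulMemClass.smul_mem _ (mul_mem (star_mem hm) hm)), fun η => ?_, ?_⟩
    · rw [e2]
      have i1 := (abs_le.1 (e1 η)).1
      have i2 : ‖η‖ * (‖a‖ * ‖pr d N (b η)‖) ≤ ε * ‖η‖ ^ 2 + κ * ‖pr d N (b η)‖ ^ 2 := by
        have : κ * ε = ‖a‖ ^ 2 := by rw [hκ]; field_simp
        have i3 : 0 ≤ ε * (ε * ‖η‖ ^ 2 + κ * ‖pr d N (b η)‖ ^ 2 -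
            ‖η‖ * (‖a‖ * ‖pr d N (b η)‖)) := by
          have i4 : ε * (κ * ‖pr d N (b η)‖ ^ 2) = ‖a‖ ^ 2 * ‖pr d N (b η)‖ ^ 2 := by
            rw [← this]; ring
          nlinarith [sq_nonneg (ε * ‖η‖ - ‖a‖ * ‖pr d N (b η)‖), sq_nonneg (ε * ‖η‖),
            sq_nonneg (‖a‖ * ‖pr d N (b η)‖)]
        have := nonneg_of_mul_nonneg_right i3 hε
        linarith
      linarith
    · rw [e2]
      have i1 := (abs_le.1 (e1 ζ)).2
      rw [hζ, one_mul] at i1
      linarith
  refine h.gen_subset (Low.closed B hζ) ?_ ?_ h1 ?_ g hg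
  · intro x hx y hy ε hε
    obtain ⟨x', hx', a1, a2⟩ := hx (ε / 2) (half_pos hε)
    obtain ⟨y', hy', b1, b2⟩ := hy (ε / 2) (half_pos hε)
    refine ⟨x' + y', add_mem hx' hy', fun η => ?_, ?_⟩
    · simp only [add_apply, inner_add_right, Complex.add_re]
      linarith [a1 η, b1 η]
    · simp only [add_apply, inner_add_right, Complex.add_re]
      linarith
  · intro x hx ε hε
    exact ⟨x, hx, fun η => by nlinarith [sq_nonneg ‖η‖], by linarith⟩
  · intro a ha b hb ε hε
    obtain ⟨g', hg', a1, a2⟩ := h1 _ (star_mem hb) _ (star_mem ha) ε hε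
    have e : ∀ η, (⟪η, (a * star w * b) η⟫_ℂ).re = (⟪η, (star b * w * star a) η⟫_ℂ).re := by
      intro η
      have : a * star w * b = star (star b * w * star a) := by
        rw [star_mul, star_mul, star_star, star_star, ← mul_assoc]
      rw [this, inner_star_right, ← inner_conj_symm, Complex.conj_re]
    exact ⟨g', hg', fun η => by rw [e]; exact a1 η, by rw [e]; exact a2⟩

end Hilb

end Vale.Agent.P070
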